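import Crest.Agent.R332.ActLD

/-!
# Action inequality, part 2: calculus of matrix-valued functions
-/

set_option autoImplicit false
set_option linter.unusedSectionVars false

open MeasureTheory Matrix Filter Topology
open scoped ComplexOrder

namespace Crest.Agent.R332.Act

variable {ι : Type*} [Fintype ι] [DecidableEq ι]

section
open scoped Matrix.Norms.Operator

theorem hd_mul {A B : ℝ → Matrix ι ι ℂ} {A' B' : Matrix ι ι ℂ} {x : ℝ} (hA : HasDerivAt A A' x)
    (hB : HasDerivAt B B' x) : HasDerivAt (fun y => A y * B y) (A' * B x + A x * B') x :=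
  HasDerivAt.mul hA hB

theorem hd_sub {A B : ℝ → Matrix ι ι ℂ} {A' B' : Matrix ι ι ℂ} {x : ℝ} (hA : HasDerivAt A A' x)
    (hB : HasDerivAt B B' x) : HasDerivAt (fun y => A y - B y) (A' - B') x :=
  HasDerivAt.sub hA hB

theorem hd_add {A B : ℝ → Matrix ι ι ℂ} {A' B' : Matrix ι ι ℂ} {x : ℝ} (hA : HasDerivAt A A' x)
    (hB : HasDerivAt B B' x) : HasDerivAt (fun y => A y + B y) (A' + B') x :=
  HasDerivAt.add hA hB

theorem hd_const (A : Matrix ι ι ℂ) (x : ℝ) : HasDerivAt (fun _ : ℝ => A) 0 x :=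
  hasDerivAt_const x A

theorem hd_const_smul {A : ℝ → Matrix ι ι ℂ} {A' : Matrix ι ι ℂ} {x : ℝ} (c : ℝ)
    (hA : HasDerivAt A A' x) : HasDerivAt (fun y => c • A y) (c • A') x :=
  HasDerivAt.const_smul c hA

theorem hd_smul_const (A : Matrix ι ι ℂ) (x : ℝ) : HasDerivAt (fun y : ℝ => y • A) A x := by
  have h := (hasDerivAt_id x).smul_const A
  rw [one_smul] at h
  exact h

theorem hd_continuousAt {A : ℝ → Matrix ι ι ℂ} {A' : Matrix ι ι ℂ} {x : ℝ}
    (hA : HasDerivAt A A' x) : ContinuousAt A x :=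
  HasDerivAt.continuousAt hA

theorem hd_inv {A : ℝ → Matrix ι ι ℂ} {A' : Matrix ι ι ℂ} {x : ℝ} (hA : HasDerivAt A A' x)
    (hx : (A x).det ≠ 0) : HasDerivAt (fun y => (A y)⁻¹) (-((A x)⁻¹ * A' * (A x)⁻¹)) x := by
  have hu : IsUnit (A x) := (isUnit_iff_isUnit_det _).2 (Ne.isUnit hx)
  obtain ⟨u, hu⟩ := hu
  have h1 := hasFDerivAt_ringInverse (𝕜 := ℝ) u
  rw [hu] at h1
  have h2 := h1.comp_hasDerivAt x hA
  have e : (↑u⁻¹ : Matrix ι ι ℂ) = (A x)⁻¹ := by rw [← hu, coe_units_inv]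
  have h3 : HasDerivAt (Ring.inverse ∘ A) (-((A x)⁻¹ * A' * (A x)⁻¹)) x := by
    refine h2.congr_deriv ?_
    simp [e]
  have e2 : (fun y => (A y)⁻¹) = Ring.inverse ∘ A := by
    funext y; exact nonsing_inv_eq_ringInverse _
  rw [e2]
  exact h3

theorem hd_apply {A : ℝ → Matrix ι ι ℂ} {A' : Matrix ι ι ℂ} {x : ℝ} (hA : HasDerivAt A A' x)
    (i j : ι) : HasDerivAt (fun y => A y i j) (A' i j) x := by
  let l : Matrix ι ι ℂ →L[ℝ] ℂ := LinearMap.toContinuousLinearMap
    { toFun := fun M => M i j, map_add' := fun _ _ => rfl, map_smul' := fun _ _ => rfl }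
  exact l.hasFDerivAt.comp_hasDerivAt x hA

theorem hd_rt {A : ℝ → Matrix ι ι ℂ} {A' : Matrix ι ι ℂ} {x : ℝ} (hA : HasDerivAt A A' x) :
    HasDerivAt (fun y => rt (A y)) (rt A') x := by
  let l : Matrix ι ι ℂ →L[ℝ] ℝ := LinearMap.toContinuousLinearMap
    { toFun := rt, map_add' := rt_add, map_smul' := fun c M => rt_smul c M }
  exact l.hasFDerivAt.comp_hasDerivAt x hA

theorem hd_dg {a : ℝ → ι → ℝ} {a' : ι → ℝ} {x : ℝ}
    (h : ∀ i, HasDerivAt (fun y => a y i) (a' i) x) :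
    HasDerivAt (fun y => dg (a y)) (dg a') x := by
  let l : (ι → ℝ) →L[ℝ] Matrix ι ι ℂ := LinearMap.toContinuousLinearMap
    { toFun := dg, map_add' := fun a b => (dg_add a b).symm,
      map_smul' := fun c a => (smul_dg c a).symm }
  exact l.hasFDerivAt.comp_hasDerivAt x (hasDerivAt_pi.2 h)

end

theorem hd_det_one {A : ℝ → Matrix ι ι ℂ} {A' : Matrix ι ι ℂ} {x : ℝ} (hA : HasDerivAt A A' x)
    (hx : A x = 1) : HasDerivAt (fun y => (A y).det) (trace A') x := by
  simp only [det_apply']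
  have h : ∀ σ : Equiv.Perm ι, HasDerivAt (fun y => ((Equiv.Perm.sign σ : ℤ) : ℂ) * ∏ i, A y (σ i) i)
      (((Equiv.Perm.sign σ : ℤ) : ℂ) *
        ∑ i, (∏ j ∈ Finset.univ.erase i, A x (σ j) j) • A' (σ i) i) x := fun σ =>
    (HasDerivAt.fun_finsetProd fun i _ => hd_apply hA (σ i) i).const_mul _
  refine (HasDerivAt.fun_sum fun σ (_ : σ ∈ Finset.univ) => h σ).congr_deriv ?_
  rw [Finset.sum_eq_single 1]
  · simp [hx, trace]
  · intro σ _ hσ
    rw [Finset.sum_eq_zero, mul_zero]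
    intro i _
    obtain ⟨j, hj, hji⟩ : ∃ j, σ j ≠ j ∧ j ≠ i := by
      obtain ⟨k, hk⟩ : ∃ k, σ k ≠ k := by
        by_contra h
        push Not at h
        exact hσ (Equiv.ext h)
      by_cases hki : k = i
      · refine ⟨σ k, fun h => hk (σ.injective h), fun h => hk (h.trans hki.symm)⟩
      · exact ⟨k, hk, hki⟩
    rw [Finset.prod_eq_zero (Finset.mem_erase.2 ⟨hji, Finset.mem_univ j⟩), zero_smul]
    rw [hx, one_apply_ne hj]
  · simp

/-- Jacobi's formula. -/
theorem hd_ld {A : ℝ → Matrix ι ι ℂ} {A' : Matrix ι ι ℂ} {x : ℝ} (hA : HasDerivAt A A' x)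
    (hx : (A x).det ≠ 0) : HasDerivAt (fun y => ld (A y)) (rt ((A x)⁻¹ * A')) x := by
  have hu : IsUnit (A x).det := Ne.isUnit hx
  have h1 : HasDerivAt (fun y => ((A x)⁻¹ * A y).det) (trace ((A x)⁻¹ * A')) x := by
    apply hd_det_one
    · simpa using hd_mul (hd_const (A x)⁻¹ x) hA
    · exact nonsing_inv_mul _ hu
  have h2 : HasDerivAt (fun y => ‖((A x)⁻¹ * A y).det‖ ^ 2) (2 * rt ((A x)⁻¹ * A')) x := by
    have := h1.norm_sq
    rw [nonsing_inv_mul _ hu, det_one] at this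
    convert this using 1
    simp [rt]
  have h3 := (h2.log (by rw [nonsing_inv_mul _ hu]; simp)).div_const 2
  have h4 := h3.add_const (ld (A x))
  have hc : ∀ᶠ y in 𝓝 x, (A y).det ≠ 0 :=
    ((continuous_id.matrix_det.continuousAt).comp (hd_continuousAt hA)).eventually_ne hx
  have hi : (A x)⁻¹.det ≠ 0 := by
    rw [det_nonsing_inv, Ring.inverse_eq_inv']; exact inv_ne_zero hx
  refine (h4.congr_of_eventuallyEq ?_).congr_deriv ?_
  · filter_upwards [hc] with y hy
    have := ld_mul hi hy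
    rw [ld_inv hx] at this
    rw [Real.log_pow]
    change _ = (2 : ℕ) * ld _ / 2 + _
    rw [this]
    push_cast
    ring
  · rw [nonsing_inv_mul _ hu]; simp

omit [DecidableEq ι] in
theorem continuous_rt : Continuous (rt : Matrix ι ι ℂ → ℝ) :=
  Complex.continuous_re.comp (continuous_id.matrix_trace)

omit [DecidableEq ι] in
theorem continuous_hs2 : Continuous (hs2 : Matrix ι ι ℂ → ℝ) := by
  unfold hs2
  fun_prop

theorem continuousOn_inv {X : Type*} [TopologicalSpace X] {A : X → Matrix ι ι ℂ} {s : Set X}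
    (hA : ContinuousOn A s) (h : ∀ x ∈ s, (A x).det ≠ 0) : ContinuousOn (fun x => (A x)⁻¹) s := by
  intro x hx
  refine ContinuousAt.comp_continuousWithinAt (continuousAt_matrix_inv _ ?_) (hA x hx)
  rw [Ring.inverse_eq_inv']
  exact continuousAt_inv₀ (h x hx)

end Crest.Agent.R332.Act
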