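import Crest.Agent.R332.Basic

/-!
# Matrix basics: Hilbert–Schmidt norm, functional calculus, product rules  (owner: helper98)

`‖A‖` is the `L²` operator norm (`open scoped Matrix.Norms.L2Operator`); its topology is the
product topology, so `HasDerivAt`, `Continuous`, `Tendsto` statements need no norm.
-/

set_option autoImplicit false
set_option linter.unusedSectionVars false

open MeasureTheory Matrix Filter Topology
open scoped ComplexOrder Matrix.Norms.L2Operator MatrixOrder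

namespace Crest.Agent.R332

section hs
variable {ι κ μ : Type*} [Fintype ι] [Fintype κ] [Fintype μ]

theorem hs2_nonneg (A : Matrix ι κ ℂ) : 0 ≤ hs2 A := by
  unfold hs2
  positivity

theorem hs2_eq_trace (A : Matrix ι κ ℂ) : hs2 A = (trace (Aᴴ * A)).re := by
  unfold hs2
  simp only [trace, diag_apply, mul_apply, conjTranspose_apply, Complex.re_sum]
  rw [Finset.sum_comm]
  refine Finset.sum_congr rfl fun j _ => Finset.sum_congr rfl fun i _ => ?_
  rw [Complex.star_def, Complex.conj_mul', ← Complex.ofReal_pow, Complex.ofReal_re]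

theorem hs2_eq_trace' (A : Matrix ι κ ℂ) : hs2 A = (trace (A * Aᴴ)).re := by
  rw [trace_mul_comm, hs2_eq_trace]

theorem hs2_conjTranspose (A : Matrix ι κ ℂ) : hs2 Aᴴ = hs2 A := by
  rw [hs2_eq_trace, conjTranspose_conjTranspose, hs2_eq_trace']

theorem hs2_zero : hs2 (0 : Matrix ι κ ℂ) = 0 := by
  simp [hs2]

theorem hs2_neg (A : Matrix ι κ ℂ) : hs2 (-A) = hs2 A := by
  simp [hs2]

theorem hs2_smul (c : ℝ) (A : Matrix ι κ ℂ) : hs2 (c • A) = c ^ 2 * hs2 A := by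
  simp only [hs2, Matrix.smul_apply, norm_smul, Real.norm_eq_abs, mul_pow, sq_abs, Finset.mul_sum]

theorem hs2_add_le (A B : Matrix ι κ ℂ) : hs2 (A + B) ≤ 2 * hs2 A + 2 * hs2 B := by
  unfold hs2
  simp only [Finset.mul_sum, ← Finset.sum_add_distrib]
  refine Finset.sum_le_sum fun i _ => Finset.sum_le_sum fun j _ => ?_
  have h := norm_add_le (A i j) (B i j)
  have h0 := norm_nonneg (A i j + B i j)
  rw [Matrix.add_apply]
  nlinarith [sq_nonneg (‖A i j‖ - ‖B i j‖), norm_nonneg (A i j), norm_nonneg (B i j)]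

theorem hs2_add (A B : Matrix ι κ ℂ) :
    hs2 (A + B) = hs2 A + 2 * (trace (Aᴴ * B)).re + hs2 B := by
  have h : (trace (Bᴴ * A)).re = (trace (Aᴴ * B)).re := by
    have : Bᴴ * A = (Aᴴ * B)ᴴ := by simp
    rw [this, trace_conjTranspose, Complex.star_def, Complex.conj_re]
  simp only [hs2_eq_trace, conjTranspose_add, Matrix.add_mul, Matrix.mul_add, trace_add,
    Complex.add_re, h]
  ring

/-- Cauchy–Schwarz / AM-GM for the Hilbert–Schmidt pairing. -/
theorem abs_re_trace_le (A B : Matrix ι κ ℂ) :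
    |(trace (Aᴴ * B)).re| ≤ Real.sqrt (hs2 A) * Real.sqrt (hs2 B) := by
  have h1 : |(trace (Aᴴ * B)).re| ≤ ∑ p : ι × κ, ‖A p.1 p.2‖ * ‖B p.1 p.2‖ := by
    refine (Complex.abs_re_le_norm _).trans ?_
    rw [Fintype.sum_prod_type, Finset.sum_comm]
    simp only [trace, diag_apply, mul_apply, conjTranspose_apply]
    refine (norm_sum_le _ _).trans (Finset.sum_le_sum fun j _ => ?_)
    refine (norm_sum_le _ _).trans (Finset.sum_le_sum fun i _ => ?_)
    rw [norm_mul, norm_star]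
  refine h1.trans ?_
  have h2 := Real.sum_mul_le_sqrt_mul_sqrt Finset.univ (fun p : ι × κ => ‖A p.1 p.2‖)
    (fun p : ι × κ => ‖B p.1 p.2‖)
  simpa only [hs2, Fintype.sum_prod_type] using h2

theorem two_abs_re_trace_le (A B : Matrix ι κ ℂ) :
    2 * |(trace (Aᴴ * B)).re| ≤ hs2 A + hs2 B := by
  have h := abs_re_trace_le A B
  have hA := Real.sq_sqrt (hs2_nonneg A)
  have hB := Real.sq_sqrt (hs2_nonneg B)
  nlinarith [sq_nonneg (Real.sqrt (hs2 A) - Real.sqrt (hs2 B))]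

theorem norm_entry_sq_le_hs2 (A : Matrix ι κ ℂ) (i : ι) (j : κ) : ‖A i j‖ ^ 2 ≤ hs2 A := by
  unfold hs2
  calc ‖A i j‖ ^ 2 ≤ ∑ j, ‖A i j‖ ^ 2 :=
        Finset.single_le_sum (f := fun j => ‖A i j‖ ^ 2) (fun _ _ => by positivity)
          (Finset.mem_univ j)
    _ ≤ _ := Finset.single_le_sum (f := fun i => ∑ j, ‖A i j‖ ^ 2) (fun _ _ => by positivity)
          (Finset.mem_univ i)

theorem continuous_hs2 : Continuous (hs2 : Matrix ι κ ℂ → ℝ) := by
  unfold hs2
  refine continuous_finsetSum _ fun i _ => continuous_finsetSum _ fun j _ => ?_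
  exact ((continuous_id.matrix_elem i j).norm).pow 2

/-- For a fixed size, `hs2 → 0` is convergence to zero. -/
theorem tendsto_iff_hs2 {β : Type*} {l : Filter β} {A : β → Matrix ι κ ℂ} {B : Matrix ι κ ℂ} :
    Tendsto A l (𝓝 B) ↔ Tendsto (fun n => hs2 (A n - B)) l (𝓝 0) := by
  constructor
  · intro h
    have h1 : Tendsto (fun n => A n - B) l (𝓝 (B - B)) := h.sub_const B
    have h2 := (continuous_hs2.tendsto _).comp h1
    rwa [sub_self, hs2_zero] at h2
  · intro h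
    refine tendsto_pi_nhds.2 fun i => tendsto_pi_nhds.2 fun j => ?_
    rw [tendsto_iff_norm_sub_tendsto_zero]
    have h2 := (Real.continuous_sqrt.tendsto _).comp h
    rw [Real.sqrt_zero] at h2
    refine squeeze_zero (fun _ => norm_nonneg _) (fun n => ?_) h2
    exact Real.le_sqrt_of_sq_le (norm_entry_sq_le_hs2 (A n - B) i j)

theorem hs2_mul_le_left [DecidableEq κ] (A : Matrix ι κ ℂ) (B : Matrix κ μ ℂ) :
    hs2 (A * B) ≤ ‖A‖ ^ 2 * hs2 B := by
  unfold hs2
  rw [Finset.sum_comm, Finset.sum_comm (s := Finset.univ) (t := Finset.univ)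
    (f := fun i j => ‖B i j‖ ^ 2), Finset.mul_sum]
  refine Finset.sum_le_sum fun j _ => ?_
  have h := l2_opNorm_mulVec A (WithLp.toLp 2 fun k => B k j)
  have h2 := pow_le_pow_left₀ (norm_nonneg _) h 2
  rw [mul_pow, EuclideanSpace.norm_sq_eq, EuclideanSpace.norm_sq_eq] at h2
  exact h2

theorem hs2_mul_le_right [DecidableEq κ] [DecidableEq μ] (A : Matrix ι κ ℂ) (B : Matrix κ μ ℂ) :
    hs2 (A * B) ≤ hs2 A * ‖B‖ ^ 2 := by
  rw [← hs2_conjTranspose, conjTranspose_mul, mul_comm, ← hs2_conjTranspose A,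
    ← l2_opNorm_conjTranspose B]
  exact hs2_mul_le_left _ _

theorem norm_sq_le_hs2 [DecidableEq κ] (A : Matrix ι κ ℂ) : ‖A‖ ^ 2 ≤ hs2 A := by
  have h : ‖A‖ ≤ Real.sqrt (hs2 A) := by
    rw [l2_opNorm_def]
    refine ContinuousLinearMap.opNorm_le_bound _ (Real.sqrt_nonneg _) fun x => ?_
    refine (sq_le_sq₀ (by positivity) (by positivity)).mp ?_
    rw [mul_pow, Real.sq_sqrt (hs2_nonneg A), EuclideanSpace.norm_sq_eq, EuclideanSpace.norm_sq_eq,
      hs2, Finset.sum_mul]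
    refine Finset.sum_le_sum fun i _ => ?_
    have h1 : ‖∑ j, A i j * x j‖ ≤ ∑ j, ‖A i j‖ * ‖x j‖ :=
      (norm_sum_le _ _).trans (Finset.sum_le_sum fun j _ => (norm_mul _ _).le)
    exact (pow_le_pow_left₀ (norm_nonneg _) h1 2).trans
      (Finset.sum_mul_sq_le_sq_mul_sq Finset.univ _ _)
  calc ‖A‖ ^ 2 ≤ Real.sqrt (hs2 A) ^ 2 := pow_le_pow_left₀ (norm_nonneg _) h 2
    _ = hs2 A := Real.sq_sqrt (hs2_nonneg A)

theorem hs2_mul_le (A : Matrix ι κ ℂ) (B : Matrix κ μ ℂ) : hs2 (A * B) ≤ hs2 A * hs2 B := by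
  classical
  exact (hs2_mul_le_left A B).trans
    (mul_le_mul_of_nonneg_right (norm_sq_le_hs2 A) (hs2_nonneg B))

/-- An isometry has operator norm at most one. -/
theorem norm_le_one_of_iso [DecidableEq κ] {P : Matrix ι κ ℂ} (hP : Pᴴ * P = 1) : ‖P‖ ≤ 1 := by
  have h := l2_opNorm_conjTranspose_mul_self P
  rw [hP] at h
  have h1 : ‖(1 : Matrix κ κ ℂ)‖ ≤ 1 := by
    rw [← diagonal_one, l2_opNorm_diagonal]
    exact pi_norm_le_iff_of_nonneg zero_le_one |>.2 fun _ => by simp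
  nlinarith [norm_nonneg P]

end hs

section deriv
variable {ι κ μ : Type*} [Fintype ι] [Fintype κ] [Fintype μ]

theorem hasDerivWithinAt_iff_entry {F : ℝ → Matrix ι κ ℂ} {F' : Matrix ι κ ℂ} {s : Set ℝ}
    {x : ℝ} :
    HasDerivWithinAt F F' s x ↔ ∀ i j, HasDerivWithinAt (fun y => F y i j) (F' i j) s x := by
  have h1 : HasDerivWithinAt F F' s x ↔
      HasDerivWithinAt (F := ι → κ → ℂ) F F' s x := Iff.rfl
  rw [h1, hasDerivWithinAt_pi]
  exact forall_congr' fun i => hasDerivWithinAt_pi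

theorem hasDerivAt_iff_entry {F : ℝ → Matrix ι κ ℂ} {F' : Matrix ι κ ℂ} {x : ℝ} :
    HasDerivAt F F' x ↔ ∀ i j, HasDerivAt (fun y => F y i j) (F' i j) x := by
  have h1 : HasDerivAt F F' x ↔ HasDerivAt (F := ι → κ → ℂ) F F' x := Iff.rfl
  rw [h1, hasDerivAt_pi]
  exact forall_congr' fun i => hasDerivAt_pi

theorem hasDerivAt_iff_univ {F : ℝ → Matrix ι κ ℂ} {F' : Matrix ι κ ℂ} {x : ℝ} :
    HasDerivAt F F' x ↔ HasDerivWithinAt F F' Set.univ x := by
  simp only [hasDerivAt_iff_entry, hasDerivWithinAt_iff_entry, hasDerivWithinAt_univ]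

theorem HasDerivWithinAt.mmul {F : ℝ → Matrix ι κ ℂ} {G : ℝ → Matrix κ μ ℂ} {F' : Matrix ι κ ℂ}
    {G' : Matrix κ μ ℂ} {s : Set ℝ} {x : ℝ} (hF : HasDerivWithinAt F F' s x)
    (hG : HasDerivWithinAt G G' s x) :
    HasDerivWithinAt (fun y => F y * G y) (F' * G x + F x * G') s x := by
  rw [hasDerivWithinAt_iff_entry] at hF hG ⊢
  intro i j
  simp only [mul_apply, Matrix.add_apply, ← Finset.sum_add_distrib]
  exact HasDerivWithinAt.fun_sum fun k _ => (hF i k).mul (hG k j)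

theorem HasDerivAt.mmul {F : ℝ → Matrix ι κ ℂ} {G : ℝ → Matrix κ μ ℂ} {F' : Matrix ι κ ℂ}
    {G' : Matrix κ μ ℂ} {x : ℝ} (hF : HasDerivAt F F' x) (hG : HasDerivAt G G' x) :
    HasDerivAt (fun y => F y * G y) (F' * G x + F x * G') x := by
  rw [hasDerivAt_iff_univ] at hF hG ⊢
  exact HasDerivWithinAt.mmul hF hG

theorem HasDerivWithinAt.mconj {F : ℝ → Matrix ι κ ℂ} {F' : Matrix ι κ ℂ} {s : Set ℝ} {x : ℝ}
    (hF : HasDerivWithinAt F F' s x) : HasDerivWithinAt (fun y => (F y)ᴴ) F'ᴴ s x := by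
  rw [hasDerivWithinAt_iff_entry] at hF ⊢
  intro i j
  simp only [conjTranspose_apply]
  exact (hF j i).star

theorem HasDerivAt.mconj {F : ℝ → Matrix ι κ ℂ} {F' : Matrix ι κ ℂ} {x : ℝ}
    (hF : HasDerivAt F F' x) : HasDerivAt (fun y => (F y)ᴴ) F'ᴴ x := by
  rw [hasDerivAt_iff_univ] at hF ⊢
  exact HasDerivWithinAt.mconj hF

theorem HasDerivWithinAt.retrace {F : ℝ → Matrix ι ι ℂ} {F' : Matrix ι ι ℂ} {s : Set ℝ} {x : ℝ}
    (hF : HasDerivWithinAt F F' s x) :
    HasDerivWithinAt (fun y => (trace (F y)).re) (trace F').re s x := by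
  rw [hasDerivWithinAt_iff_entry] at hF
  have h : HasDerivWithinAt (fun y => trace (F y)) (trace F') s x := by
    simp only [trace, diag_apply]
    exact HasDerivWithinAt.fun_sum fun k _ => hF k k
  exact Complex.reCLM.hasFDerivAt.comp_hasDerivWithinAt x h

theorem HasDerivAt.retrace {F : ℝ → Matrix ι ι ℂ} {F' : Matrix ι ι ℂ} {x : ℝ}
    (hF : HasDerivAt F F' x) : HasDerivAt (fun y => (trace (F y)).re) (trace F').re x := by
  rw [hasDerivAt_iff_univ] at hF
  rw [← hasDerivWithinAt_univ]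
  exact HasDerivWithinAt.retrace hF

theorem HasDerivAt.mhs2 {F : ℝ → Matrix ι κ ℂ} {F' : Matrix ι κ ℂ} {x : ℝ}
    (hF : HasDerivAt F F' x) :
    HasDerivAt (fun y => hs2 (F y)) (2 * (trace ((F x)ᴴ * F')).re) x := by
  have h := HasDerivAt.retrace (HasDerivAt.mmul (HasDerivAt.mconj hF) hF)
  have h1 : (trace (F'ᴴ * F x)).re = (trace ((F x)ᴴ * F')).re := by
    have : F'ᴴ * F x = ((F x)ᴴ * F')ᴴ := by simp
    rw [this, trace_conjTranspose, Complex.star_def, Complex.conj_re]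
  simp only [← hs2_eq_trace, trace_add, Complex.add_re, h1] at h
  convert h using 1
  ring

/-- Derivative of the quadratic form `re ⟨v, F v⟩`. -/
theorem HasDerivWithinAt.quad {F : ℝ → Matrix ι ι ℂ} {F' : Matrix ι ι ℂ} {s : Set ℝ} {x : ℝ}
    (hF : HasDerivWithinAt F F' s x) (v : ι → ℂ) :
    HasDerivWithinAt (fun y => (star v ⬝ᵥ (F y *ᵥ v)).re) (star v ⬝ᵥ (F' *ᵥ v)).re s x := by
  rw [hasDerivWithinAt_iff_entry] at hF
  have h : HasDerivWithinAt (fun y => star v ⬝ᵥ (F y *ᵥ v)) (star v ⬝ᵥ (F' *ᵥ v)) s x := by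
    simp only [dotProduct, mulVec]
    exact HasDerivWithinAt.fun_sum fun i _ =>
      (HasDerivWithinAt.fun_sum fun j _ => (hF i j).mul_const _).const_mul _
  exact Complex.reCLM.hasFDerivAt.comp_hasDerivWithinAt x h

end deriv

section cfc
variable {ι κ : Type*} [Fintype ι] [DecidableEq ι] [Fintype κ] [DecidableEq κ]

theorem dg_isHermitian (k : ι → ℝ) : (dg k).IsHermitian := by
  unfold dg
  rw [isHermitian_diagonal_iff]
  intro i
  exact Complex.conj_ofReal _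

theorem dg_mul_dg (k l : ι → ℝ) : dg k * dg l = dg fun i => k i * l i := by
  simp [dg, diagonal_mul_diagonal]

theorem dg_posSemidef {k : ι → ℝ} (hk : ∀ i, 0 ≤ k i) : (dg k).PosSemidef := by
  unfold dg
  exact PosSemidef.diagonal fun i => Complex.zero_le_real.2 (hk i)

theorem norm_dg_le {k : ι → ℝ} {c : ℝ} (hc : 0 ≤ c) (hk : ∀ i, |k i| ≤ c) : ‖dg k‖ ≤ c := by
  unfold dg
  rw [l2_opNorm_diagonal]
  exact (pi_norm_le_iff_of_nonneg hc).2 fun i => by simpa using hk i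

/-- Spectral theorem in the notation of this development. -/
theorem spectral {A : Matrix ι ι ℂ} (hA : A.IsHermitian) :
    ∃ u : Matrix ι ι ℂ, uᴴ * u = 1 ∧ u * uᴴ = 1 ∧ A = u * dg hA.eigenvalues * uᴴ ∧
      ∀ f : ℝ → ℝ, cfc f A = u * dg (fun i => f (hA.eigenvalues i)) * uᴴ := by
  refine ⟨hA.eigenvectorUnitary, ?_, ?_, ?_, fun f => ?_⟩
  · exact Unitary.coe_star_mul_self hA.eigenvectorUnitary
  · exact Unitary.coe_mul_star_self hA.eigenvectorUnitary
  · exact hA.spectral_theorem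
  · exact hA.cfc_eq f

theorem cfc_isHermitian (f : ℝ → ℝ) (A : Matrix ι ι ℂ) : (cfc f A).IsHermitian := by
  exact (cfc_predicate f A : IsSelfAdjoint _)

theorem cfc_mul_cfc (f g : ℝ → ℝ) (A : Matrix ι ι ℂ) :
    cfc f A * cfc g A = cfc (fun t => f t * g t) A := by
  exact (cfc_mul f g A (A.finite_real_spectrum.continuousOn f)
    (A.finite_real_spectrum.continuousOn g)).symm

theorem cfc_posSemidef {f : ℝ → ℝ} (hf : ∀ t, 0 ≤ f t) (A : Matrix ι ι ℂ) :
    (cfc f A).PosSemidef := by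
  exact nonneg_iff_posSemidef.1 (cfc_nonneg fun t _ => hf t)

theorem trace_cfc_re (f : ℝ → ℝ) {A : Matrix ι ι ℂ} (hA : A.IsHermitian) :
    (trace (cfc f A)).re = ∑ i, f (hA.eigenvalues i) := by
  obtain ⟨u, h1, -, -, h⟩ := spectral hA
  rw [h f, trace_mul_cycle, h1, Matrix.one_mul]
  simp [dg, trace_diagonal]

/-- An eigenvector of `A` is an eigenvector of `cfc f A`. -/
theorem cfc_mulVec_of_eigen (f : ℝ → ℝ) {A : Matrix ι ι ℂ} (hA : A.IsHermitian) {v : ι → ℂ}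
    {c : ℝ} (hv : A *ᵥ v = (c : ℂ) • v) : cfc f A *ᵥ v = (f c : ℂ) • v := by
  obtain ⟨u, h1, h2, hA', h⟩ := spectral hA
  have hw : dg hA.eigenvalues *ᵥ (uᴴ *ᵥ v) = (c : ℂ) • (uᴴ *ᵥ v) := by
    have e : uᴴ * A = dg hA.eigenvalues * uᴴ := by
      conv_lhs => rw [hA']
      rw [← Matrix.mul_assoc, ← Matrix.mul_assoc, h1, Matrix.one_mul]
    rw [mulVec_mulVec, ← e, ← mulVec_mulVec, hv, mulVec_smul]
  have hw2 : dg (fun i => f (hA.eigenvalues i)) *ᵥ (uᴴ *ᵥ v) = (f c : ℂ) • (uᴴ *ᵥ v) := by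
    funext i
    have hi := congrFun hw i
    simp only [dg, mulVec_diagonal, Pi.smul_apply, smul_eq_mul] at hi ⊢
    rcases eq_or_ne ((uᴴ *ᵥ v) i) 0 with h0 | h0
    · simp [h0]
    · have : hA.eigenvalues i = c := by exact_mod_cast mul_right_cancel₀ h0 hi
      rw [this]
  rw [h f, ← mulVec_mulVec, ← mulVec_mulVec, hw2, mulVec_smul, mulVec_mulVec, h2, one_mulVec]

/-- Intertwining. -/
theorem mul_cfc_comm (f : ℝ → ℝ) {A : Matrix ι ι ℂ} {B : Matrix κ κ ℂ} {Y : Matrix ι κ ℂ}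
    (hA : A.IsHermitian) (hB : B.IsHermitian) (h : A * Y = Y * B) :
    cfc f A * Y = Y * cfc f B := by
  obtain ⟨u, h1, h2, hB', hc⟩ := spectral hB
  have e : B * u = u * dg hB.eigenvalues := by
    conv_lhs => rw [hB']
    rw [Matrix.mul_assoc, h1, Matrix.mul_one]
  have e2 : A * (Y * u) = Y * u * dg hB.eigenvalues := by
    rw [← Matrix.mul_assoc, h, Matrix.mul_assoc, e, Matrix.mul_assoc]
  have e3 : cfc f A * (Y * u) = Y * u * dg fun i => f (hB.eigenvalues i) := by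
    ext i j
    have hv : A *ᵥ (fun k => (Y * u) k j) = (hB.eigenvalues j : ℂ) • fun k => (Y * u) k j := by
      funext k
      have := congrFun (congrFun e2 k) j
      simp only [dg, mul_diagonal] at this
      simp only [Pi.smul_apply, smul_eq_mul]
      rw [mul_comm, ← this]
      rfl
    have := congrFun (cfc_mulVec_of_eigen f hA hv) i
    simp only [Pi.smul_apply, smul_eq_mul] at this
    simp only [dg, mul_diagonal]
    rw [mul_comm, ← this]
    rfl
  calc cfc f A * Y = cfc f A * (Y * u) * uᴴ := by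
        rw [Matrix.mul_assoc, Matrix.mul_assoc, h2, Matrix.mul_one]
    _ = Y * cfc f B := by
        rw [e3, hc f]
        simp only [Matrix.mul_assoc]

theorem cfc_dg (f : ℝ → ℝ) (k : ι → ℝ) : cfc f (dg k) = dg fun i => f (k i) := by
  ext i j
  have hv : dg k *ᵥ (Pi.single j 1) = (k j : ℂ) • (Pi.single j 1 : ι → ℂ) := by
    funext l
    by_cases h : l = j
    · subst h
      simp [dg]
    · simp [dg, h]
  have := congrFun (cfc_mulVec_of_eigen f (dg_isHermitian k) hv) i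
  simp only [mulVec_single_one, col_apply, Pi.smul_apply, smul_eq_mul] at this
  rw [this]
  by_cases h : i = j
  · subst h
    simp [dg]
  · simp [dg, h]

theorem cfc_conj (f : ℝ → ℝ) {A u : Matrix ι ι ℂ} (hA : A.IsHermitian) (hu : u * uᴴ = 1) :
    cfc f (uᴴ * A * u) = uᴴ * cfc f A * u := by
  have hu' : uᴴ * u = 1 := mul_eq_one_comm.1 hu
  have hB : (uᴴ * A * u).IsHermitian := isHermitian_conjTranspose_mul_mul u hA
  have h := mul_cfc_comm f hA hB (Y := u) (by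
    rw [← Matrix.mul_assoc, ← Matrix.mul_assoc, hu, Matrix.one_mul])
  rw [Matrix.mul_assoc uᴴ (cfc f A), h, ← Matrix.mul_assoc, hu', Matrix.one_mul]

theorem continuousOn_cfc_herm {f : ℝ → ℝ} (hf : Continuous f) :
    ContinuousOn (fun A : Matrix ι ι ℂ => cfc f A) {A | A.IsHermitian} := by
  exact ContinuousOn.cfc_of_mem_nhdsSet (𝕜 := ℝ) (p := IsSelfAdjoint) (s := Set.univ) f
    (a := fun A : Matrix ι ι ℂ => A) Filter.univ_mem continuousOn_id (fun A hA => hA)
    hf.continuousOn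

theorem trp_eq_sum {A : Matrix ι ι ℂ} (hA : A.IsHermitian) (t : ℝ) :
    trp A t = ∑ i, hA.eigenvalues i ^ t := by
  exact trace_cfc_re _ hA

theorem trp_nonneg {A : Matrix ι ι ℂ} (hA : A.PosSemidef) (t : ℝ) : 0 ≤ trp A t := by
  rw [trp_eq_sum hA.1]
  exact Finset.sum_nonneg fun i _ => Real.rpow_nonneg (hA.eigenvalues_nonneg i) t

theorem mpow_isHermitian (A : Matrix ι ι ℂ) (t : ℝ) : (mpow A t).IsHermitian := by
  exact cfc_isHermitian _ A

theorem mpow_posSemidef {A : Matrix ι ι ℂ} (hA : A.PosSemidef) (t : ℝ) :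
    (mpow A t).PosSemidef := by
  obtain ⟨u, -, -, -, h⟩ := spectral hA.1
  rw [mpow, h]
  exact (dg_posSemidef fun i => Real.rpow_nonneg (hA.eigenvalues_nonneg i) t).mul_mul_conjTranspose_same u

theorem mpow_zero_left {t : ℝ} (ht : t ≠ 0) : mpow (0 : Matrix ι ι ℂ) t = 0 := by
  have h : (0 : Matrix ι ι ℂ) = dg fun _ => 0 := by simp [dg]
  rw [mpow, h, cfc_dg]
  simp [Real.zero_rpow ht]

/-- `cfc` only depends on the values on `[0,∞)` for a PSD matrix. -/
theorem cfc_congr_nonneg {f g : ℝ → ℝ} {A : Matrix ι ι ℂ} (hA : A.PosSemidef)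
    (h : ∀ t, 0 ≤ t → f t = g t) : cfc f A = cfc g A := by
  refine cfc_congr fun t ht => h t ?_
  rw [hA.1.spectrum_real_eq_range_eigenvalues] at ht
  obtain ⟨i, rfl⟩ := ht
  exact hA.eigenvalues_nonneg i

theorem cfc_id_eq {A : Matrix ι ι ℂ} (hA : A.IsHermitian) : cfc (fun t : ℝ => t) A = A :=
  cfc_id' ℝ A hA

theorem mul_mpow {A : Matrix ι ι ℂ} (hA : A.PosSemidef) {t : ℝ} (ht : 0 ≤ t) :
    A * mpow A t = mpow A (1 + t) := by
  have h := cfc_mul_cfc (fun s : ℝ => s) (fun s => s ^ t) A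
  rw [cfc_id_eq hA.1] at h
  rw [mpow, h, mpow]
  refine cfc_congr_nonneg hA fun s hs => ?_
  rw [Real.rpow_add' hs (by linarith), Real.rpow_one]

theorem mpow_eq_mul {A : Matrix ι ι ℂ} (hA : A.PosSemidef) {t : ℝ} (ht : t ≠ 0) :
    mpow A t = mpow A (t - 1) * A := by
  have h := cfc_mul_cfc (fun s : ℝ => s ^ (t - 1)) (fun s => s) A
  rw [cfc_id_eq hA.1] at h
  rw [mpow, mpow, h]
  refine cfc_congr_nonneg hA fun s hs => ?_
  rw [← Real.rpow_add_one' hs (by simpa using ht), sub_add_cancel]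

theorem mpow_mpow {A : Matrix ι ι ℂ} (hA : A.PosSemidef) (s t : ℝ) :
    mpow (mpow A s) t = mpow A (s * t) := by
  obtain ⟨u, h1, h2, -, h⟩ := spectral hA.1
  have hc := cfc_conj (fun x : ℝ => x ^ t) (dg_isHermitian fun i => hA.1.eigenvalues i ^ s)
    (u := uᴴ) (by rwa [conjTranspose_conjTranspose])
  rw [conjTranspose_conjTranspose] at hc
  rw [mpow, mpow, mpow, h, h, hc, cfc_dg]
  congr 3
  funext i
  rw [← Real.rpow_mul (hA.eigenvalues_nonneg i)]

theorem continuousOn_mpow {t : ℝ} (ht : 0 ≤ t) :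
    ContinuousOn (fun A : Matrix ι ι ℂ => mpow A t) {A | A.IsHermitian} := by
  exact continuousOn_cfc_herm (Real.continuous_rpow_const ht)

theorem continuous_mpow_comp {X : Type*} [TopologicalSpace X] {A : X → Matrix ι ι ℂ}
    (hA : Continuous A) (hH : ∀ x, (A x).IsHermitian) {t : ℝ} (ht : 0 ≤ t) :
    Continuous fun x => mpow (A x) t := by
  exact (continuousOn_mpow ht).comp_continuous hA hH

theorem continuous_trp_comp {X : Type*} [TopologicalSpace X] {A : X → Matrix ι ι ℂ}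
    (hA : Continuous A) (hH : ∀ x, (A x).IsHermitian) {t : ℝ} (ht : 0 ≤ t) :
    Continuous fun x => trp (A x) t := by
  exact Complex.continuous_re.comp (continuous_mpow_comp hA hH ht).matrix_trace

theorem mpow_intertwine (Y : Matrix ι κ ℂ) (t : ℝ) :
    mpow (Y * Yᴴ) t * Y = Y * mpow (Yᴴ * Y) t := by
  exact mul_cfc_comm _ (isHermitian_mul_conjTranspose_self Y) (isHermitian_conjTranspose_mul_self Y)
    (Matrix.mul_assoc _ _ _)

theorem trp_comm (Y : Matrix ι κ ℂ) {t : ℝ} (ht : 0 < t) : trp (Y * Yᴴ) t = trp (Yᴴ * Y) t := by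
  rw [trp, trp, mpow_eq_mul (posSemidef_self_mul_conjTranspose Y) ht.ne',
    mpow_eq_mul (posSemidef_conjTranspose_mul_self Y) ht.ne', ← Matrix.mul_assoc, mpow_intertwine,
    trace_mul_cycle, trace_mul_comm]

/-- `-c ≤ F ≤ c` gives `‖F‖ ≤ c`. -/
theorem norm_le_of_posSemidef {F : Matrix ι ι ℂ} {c : ℝ} (hc : 0 ≤ c)
    (h1 : ((c : ℝ) • (1 : Matrix ι ι ℂ) - F).PosSemidef)
    (h2 : ((c : ℝ) • (1 : Matrix ι ι ℂ) + F).PosSemidef) : ‖F‖ ≤ c := by
  have hF : F.IsHermitian := by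
    have h := h1.1
    have hc1 : ((c : ℝ) • (1 : Matrix ι ι ℂ)).IsHermitian := by
      simp [IsHermitian]
    simpa using hc1.sub h
  obtain ⟨u, hu1, hu2, hF', -⟩ := spectral hF
  have e : dg hF.eigenvalues = uᴴ * F * u := by
    conv_rhs => rw [hF']
    simp only [Matrix.mul_assoc]
    rw [hu1, Matrix.mul_one, ← Matrix.mul_assoc, hu1, Matrix.one_mul]
  have hb : ∀ i, |hF.eigenvalues i| ≤ c := by
    intro i
    have a1 := (h1.conjTranspose_mul_mul_same u).diag_nonneg (i := i)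
    have a2 := (h2.conjTranspose_mul_mul_same u).diag_nonneg (i := i)
    rw [Matrix.mul_sub, Matrix.sub_mul, ← e, Matrix.mul_smul, Matrix.mul_one, Matrix.smul_mul,
      hu1] at a1
    rw [Matrix.mul_add, Matrix.add_mul, ← e, Matrix.mul_smul, Matrix.mul_one, Matrix.smul_mul,
      hu1] at a2
    simp only [dg, Matrix.sub_apply, Matrix.add_apply, Matrix.smul_apply, one_apply_eq,
      diagonal_apply_eq, Complex.real_smul, mul_one] at a1 a2
    have b1 : 0 ≤ c - hF.eigenvalues i := by exact_mod_cast a1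
    have b2 : 0 ≤ c + hF.eigenvalues i := by exact_mod_cast a2
    exact abs_le.2 ⟨by linarith, by linarith⟩
  have n1 : ‖u‖ ≤ 1 := norm_le_one_of_iso hu1
  have n2 : ‖uᴴ‖ ≤ 1 := by rwa [l2_opNorm_conjTranspose]
  have n3 := norm_dg_le hc hb
  rw [hF']
  calc ‖u * dg hF.eigenvalues * uᴴ‖ ≤ ‖u‖ * ‖dg hF.eigenvalues‖ * ‖uᴴ‖ :=
        (norm_mul_le _ _).trans (mul_le_mul_of_nonneg_right (norm_mul_le _ _) (norm_nonneg _))
    _ ≤ 1 * c * 1 := by gcongr
    _ = c := by ring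

theorem posSemidef_sub_of_norm_le {F : Matrix ι ι ℂ} (hF : F.IsHermitian) {c : ℝ} (h : ‖F‖ ≤ c) :
    ((c : ℝ) • (1 : Matrix ι ι ℂ) - F).PosSemidef := by
  have h1 : F ≤ algebraMap ℝ (Matrix ι ι ℂ) ‖F‖ :=
    IsSelfAdjoint.le_algebraMap_norm_self (a := F) hF
  rw [Algebra.algebraMap_eq_smul_one, le_iff] at h1
  have h2 : ((c - ‖F‖ : ℝ) • (1 : Matrix ι ι ℂ)).PosSemidef :=
    PosSemidef.one.smul (sub_nonneg.2 h)
  have := h1.add h2
  have e : (c : ℝ) • (1 : Matrix ι ι ℂ) - F =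
      ‖F‖ • (1 : Matrix ι ι ℂ) - F + (c - ‖F‖ : ℝ) • (1 : Matrix ι ι ℂ) := by
    rw [sub_smul]
    abel
  rwa [e]

theorem norm_le_trace {A : Matrix ι ι ℂ} (hA : A.PosSemidef) : ‖A‖ ≤ (trace A).re := by
  obtain ⟨u, hu1, hu2, hA', -⟩ := spectral hA.1
  have ht : (trace A).re = ∑ i, hA.1.eigenvalues i := by
    rw [hA.1.trace_eq_sum_eigenvalues]
    simp
  have hb : ∀ i, |hA.1.eigenvalues i| ≤ ∑ i, hA.1.eigenvalues i := fun i => by
    rw [abs_of_nonneg (hA.eigenvalues_nonneg i)]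
    exact Finset.single_le_sum (fun j _ => hA.eigenvalues_nonneg j) (Finset.mem_univ i)
  have h0 : 0 ≤ ∑ i, hA.1.eigenvalues i := Finset.sum_nonneg fun j _ => hA.eigenvalues_nonneg j
  have n1 : ‖u‖ ≤ 1 := norm_le_one_of_iso hu1
  have n2 : ‖uᴴ‖ ≤ 1 := by rwa [l2_opNorm_conjTranspose]
  have n3 := norm_dg_le h0 hb
  rw [ht]
  conv_lhs => rw [hA']
  calc ‖u * dg hA.1.eigenvalues * uᴴ‖ ≤ ‖u‖ * ‖dg hA.1.eigenvalues‖ * ‖uᴴ‖ :=
        (norm_mul_le _ _).trans (mul_le_mul_of_nonneg_right (norm_mul_le _ _) (norm_nonneg _))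
    _ ≤ 1 * (∑ i, hA.1.eigenvalues i) * 1 := by gcongr
    _ = _ := by ring

theorem norm_mpow_le {A : Matrix ι ι ℂ} (hA : A.PosSemidef) {t c : ℝ} (ht : 0 ≤ t) (h : ‖A‖ ≤ c) :
    ‖mpow A t‖ ≤ c ^ t := by
  have hc : 0 ≤ c := (norm_nonneg _).trans h
  refine norm_cfc_le (Real.rpow_nonneg hc t) fun x hx => ?_
  rw [hA.1.spectrum_real_eq_range_eigenvalues] at hx
  obtain ⟨i, rfl⟩ := hx
  have h0 := hA.eigenvalues_nonneg i
  rw [Real.norm_eq_abs, abs_of_nonneg (Real.rpow_nonneg h0 t)]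
  refine Real.rpow_le_rpow h0 ?_ ht
  have : Nonempty ι := ⟨i⟩
  have := spectrum.norm_le_norm_of_mem (hA.1.eigenvalues_mem_spectrum_real i)
  rw [Real.norm_eq_abs, abs_of_nonneg h0] at this
  exact this.trans h

theorem norm_entry_le (A : Matrix ι κ ℂ) (i : ι) (j : κ) : ‖A i j‖ ≤ ‖A‖ := by
  have h := l2_opNorm_mulVec A (WithLp.toLp 2 (Pi.single j 1))
  have h2 := PiLp.norm_apply_le ((EuclideanSpace.equiv ι ℂ).symm <|
    A *ᵥ (WithLp.toLp 2 (Pi.single j 1) : EuclideanSpace ℂ κ)) i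
  simpa using h2.trans h

theorem re_trace_mul_nonneg {A B : Matrix ι ι ℂ} (hA : A.PosSemidef) (hB : B.PosSemidef) :
    0 ≤ (trace (A * B)).re := by
  obtain ⟨C, rfl⟩ := CStarAlgebra.nonneg_iff_eq_star_mul_self.1 (nonneg_iff_posSemidef.2 hB)
  rw [← Matrix.mul_assoc, trace_mul_cycle]
  have := (hA.mul_mul_conjTranspose_same C).trace_nonneg
  exact (Complex.le_def.1 this).1

/-- Power mean: `(tr A)^t ≤ card^{t-1} tr A^t` for `t ≥ 1`. -/
theorem trace_rpow_le {A : Matrix ι ι ℂ} (hA : A.PosSemidef) {t : ℝ} (ht : 1 ≤ t) :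
    (trace A).re ^ t ≤ (Fintype.card ι : ℝ) ^ (t - 1) * trp A t := by
  have ht' : (trace A).re = ∑ i, hA.1.eigenvalues i := by
    rw [hA.1.trace_eq_sum_eigenvalues]
    simp
  rw [ht', trp_eq_sum hA.1]
  have := Real.rpow_sum_le_const_mul_sum_rpow_of_nonneg Finset.univ (f := hA.1.eigenvalues) ht
    fun i _ => hA.eigenvalues_nonneg i
  simpa using this

theorem trace_le_card_add_trp {A : Matrix ι ι ℂ} (hA : A.PosSemidef) {t : ℝ} (ht : 1 ≤ t) :
    (trace A).re ≤ Fintype.card ι + trp A t := by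
  have ht' : (trace A).re = ∑ i, hA.1.eigenvalues i := by
    rw [hA.1.trace_eq_sum_eigenvalues]
    simp
  rw [ht', trp_eq_sum hA.1]
  have : (Fintype.card ι : ℝ) = ∑ _i : ι, (1 : ℝ) := by simp
  rw [this, ← Finset.sum_add_distrib]
  refine Finset.sum_le_sum fun i _ => ?_
  have h0 := hA.eigenvalues_nonneg i
  rcases le_total (hA.1.eigenvalues i) 1 with h | h
  · linarith [Real.rpow_nonneg h0 t]
  · linarith [Real.self_le_rpow_of_one_le h ht]

/-- The entries of a measurable PSD potential with `tr W^p` integrable are locally integrable. -/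
theorem locallyIntegrable_entry {W : ℝ → Matrix ι ι ℂ} (hW : ∀ i j, Measurable fun x => W x i j)
    (hWp : ∀ x, (W x).PosSemidef) {p : ℝ} (hp : 1 ≤ p) (hWi : Integrable fun x => trp (W x) p)
    (i j : ι) : LocallyIntegrable fun x => W x i j := by
  have h1 : LocallyIntegrable (fun x => (Fintype.card ι : ℝ) + trp (W x) p) :=
    (locallyIntegrable_const _).add hWi.locallyIntegrable
  refine h1.mono (hW i j).aestronglyMeasurable (Eventually.of_forall fun x => ?_)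
  refine (norm_entry_le _ i j).trans ((norm_le_trace (hWp x)).trans ?_)
  exact (trace_le_card_add_trp (hWp x) hp).trans (le_abs_self _)

end cfc

end Crest.Agent.R332
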