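import Crest.Agent.R332.ActTau
import Crest.Agent.R332.Mat

/-!
# Action inequality, part 5: integration in `τ`
-/

set_option autoImplicit false
set_option linter.unusedSectionVars false

open MeasureTheory Matrix Filter Topology Set Real
open scoped ComplexOrder

namespace Crest.Agent.R332.Act

variable {ι : Type*} [Fintype ι] [DecidableEq ι]

/-- `π / sin (π α)`. -/
noncomputable def cI (α : ℝ) : ℝ := ∫ t in Ioi 0, rpowIntegrand₀₁ α t 1

theorem ii_I {α y a b : ℝ} (hα : α ∈ Ioo (0 : ℝ) 1) (hy : 0 ≤ y) (ha : 0 ≤ a) (hab : a ≤ b) :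
    IntervalIntegrable (fun τ => rpowIntegrand₀₁ α τ y) volume a b :=
  (intervalIntegrable_iff_integrableOn_Ioc_of_le hab).2
    ((integrableOn_rpowIntegrand₀₁_Ioi hα hy).mono_set fun _ h => ha.trans_lt h.1)

theorem I_split {α y ε T : ℝ} (hα : α ∈ Ioo (0 : ℝ) 1) (hy : 0 ≤ y) (hε : 0 < ε) (hεT : ε ≤ T) :
    (∫ τ in (0 : ℝ)..ε, rpowIntegrand₀₁ α τ y) + (∫ τ in ε..T, rpowIntegrand₀₁ α τ y) +
      ∫ τ in Ioi T, rpowIntegrand₀₁ α τ y = y ^ α * cI α := by
  have hI := integrableOn_rpowIntegrand₀₁_Ioi hα hy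
  rw [intervalIntegral.integral_add_adjacent_intervals (ii_I hα hy le_rfl hε.le)
    (ii_I hα hy hε.le hεT), intervalIntegral.integral_interval_add_Ioi hI
    (hI.mono_set (Ioi_subset_Ioi (hε.le.trans hεT))),
    integral_rpowIntegrand₀₁_eq_rpow_mul_const hα hy, cI]

theorem I_int_le {α y ε T : ℝ} (hα : α ∈ Ioo (0 : ℝ) 1) (hy : 0 ≤ y) (hε : 0 < ε)
    (hεT : ε ≤ T) : ∫ τ in ε..T, rpowIntegrand₀₁ α τ y ≤ y ^ α * cI α := by
  have h := I_split hα hy hε hεT
  have h1 : 0 ≤ ∫ τ in (0 : ℝ)..ε, rpowIntegrand₀₁ α τ y :=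
    intervalIntegral.integral_nonneg hε.le fun τ hτ => rpowIntegrand₀₁_nonneg hα.1 hτ.1 hy
  have h2 : 0 ≤ ∫ τ in Ioi T, rpowIntegrand₀₁ α τ y :=
    setIntegral_nonneg measurableSet_Ioi fun τ hτ =>
      rpowIntegrand₀₁_nonneg hα.1 ((hε.le.trans hεT).trans (le_of_lt hτ)) hy
  linarith

theorem I_int_ge {α y ε T : ℝ} (hα : α ∈ Ioo (0 : ℝ) 1) (hy : 0 ≤ y) (hε : 0 < ε)
    (hεT : ε ≤ T) : y ^ α * cI α - ε ^ α / α - y * T ^ (α - 1) / (1 - α) ≤
      ∫ τ in ε..T, rpowIntegrand₀₁ α τ y := by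
  have h := I_split hα hy hε hεT
  have hT : 0 < T := hε.trans_le hεT
  have h1 : ∫ τ in (0 : ℝ)..ε, rpowIntegrand₀₁ α τ y ≤ ε ^ α / α := by
    have hr : -1 < α - 1 := by linarith [hα.1]
    refine (intervalIntegral.integral_mono_on hε.le (ii_I hα hy le_rfl hε.le)
      (intervalIntegral.intervalIntegrable_rpow' hr)
      fun τ hτ => rpowIntegrand₀₁_le_rpow_sub_one hα hτ.1 hy).trans (le_of_eq ?_)
    rw [integral_rpow (Or.inl hr), sub_add_cancel, Real.zero_rpow hα.1.ne', sub_zero]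
  have h2 : ∫ τ in Ioi T, rpowIntegrand₀₁ α τ y ≤ y * T ^ (α - 1) / (1 - α) := by
    have hr : α - 2 < -1 := by linarith [hα.2]
    refine (setIntegral_mono_on
      ((integrableOn_rpowIntegrand₀₁_Ioi hα hy).mono_set (Ioi_subset_Ioi hT.le))
      ((integrableOn_Ioi_rpow_of_lt hr hT).mul_const y) measurableSet_Ioi
      fun τ hτ => rpowIntegrand₀₁_le_rpow_sub_two_mul_self hα (hT.trans hτ) hy).trans
      (le_of_eq ?_)
    rw [integral_mul_const, integral_Ioi_rpow_of_lt hr hT, show α - 2 + 1 = α - 1 by ring]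
    have : 1 - α ≠ 0 := by linarith [hα.2]
    have : α - 1 ≠ 0 := by linarith [hα.2]
    field_simp
    ring
  linarith

/-- Clamping to `[-1, 1]`. -/
noncomputable def cl (s : ℝ) : ℝ := max (-1) (min s 1)

theorem cl_mem (s : ℝ) : cl s ∈ Icc (-1 : ℝ) 1 :=
  ⟨le_max_left _ _, max_le (by norm_num) (min_le_right _ _)⟩

theorem cl_eq {s : ℝ} (hs : s ∈ Icc (-1 : ℝ) 1) : cl s = s := by
  rw [cl, min_eq_left hs.2, max_eq_right hs.1]

theorem continuous_cl : Continuous cl := by unfold cl; fun_prop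

theorem continuous_Rs {X : Type*} [TopologicalSpace X] {L F : X → Matrix ι ι ℂ} {s : X → ℝ}
    (hL : Continuous L) (hF : Continuous F) (hs : Continuous s)
    (h₁ : ∀ x, (L x - F x).PosDef) (h₂ : ∀ x, (L x + F x).PosDef)
    (hs' : ∀ x, s x ∈ Icc (-1 : ℝ) 1) : Continuous fun x => Rs (L x) (F x) (s x) := by
  rw [← continuousOn_univ]
  exact continuousOn_inv (by fun_prop) fun x _ => det_ne_zero (Z_posDef (h₁ x) (h₂ x) (hs' x))

theorem gV_eq_cl (L F V : Matrix ι ι ℂ) :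
    gV L F V = ∫ s in (-1 : ℝ)..1, rt (Rs L F (cl s) * V * Rs L F (cl s)) := by
  refine intervalIntegral.integral_congr fun s hs => ?_
  rw [uIcc_of_le (by norm_num)] at hs
  simp only [cl_eq hs]

theorem continuous_gV {X : Type*} [TopologicalSpace X] {L F V : X → Matrix ι ι ℂ}
    (hL : Continuous L) (hF : Continuous F) (hV : Continuous V)
    (h₁ : ∀ x, (L x - F x).PosDef) (h₂ : ∀ x, (L x + F x).PosDef) :
    Continuous fun x => gV (L x) (F x) (V x) := by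
  simp only [gV_eq_cl]
  refine intervalIntegral.continuous_parametric_intervalIntegral_of_continuous' ?_ _ _
  have hR : Continuous fun q : X × ℝ => Rs (L q.1) (F q.1) (cl q.2) :=
    continuous_Rs (hL.comp continuous_fst) (hF.comp continuous_fst)
      (continuous_cl.comp continuous_snd) (fun q => h₁ q.1) (fun q => h₂ q.1) fun q => cl_mem _
  exact continuous_rt.comp ((hR.mul (hV.comp continuous_fst)).mul hR)

theorem continuous_dg : Continuous (dg : (ι → ℝ) → Matrix ι ι ℂ) := by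
  unfold dg
  exact Continuous.matrix_diagonal (by fun_prop)

theorem continuous_Lt (κ : ι → ℝ) : Continuous (Lt κ) :=
  continuous_dg.comp (by fun_prop)

/-- The integrand in `τ`. -/
noncomputable def Qf (α : ℝ) (κ : ι → ℝ) (F V : Matrix ι ι ℂ) (τ : ℝ) : ℝ :=
  τ ^ α * (2 * rt (V - (dg κ * dg κ - F * F)) / τ -
    gV (Lt κ τ) F (V - (dg κ * dg κ - F * F)))

theorem continuousOn_Qf (α : ℝ) {κ : ι → ℝ} {F : Matrix ι ι ℂ} (V : Matrix ι ι ℂ) {a b : ℝ}
    (ha : 0 < a) (h₁ : (dg κ - F).PosSemidef) (h₂ : (dg κ + F).PosSemidef) :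
    ContinuousOn (Qf α κ F V) (Icc a b) := by
  have hg : Continuous fun τ => gV (Lt κ (max τ a)) F (V - (dg κ * dg κ - F * F)) :=
    continuous_gV ((continuous_Lt κ).comp (by fun_prop)) continuous_const continuous_const
      (fun τ => Lt_sub_posDef (ha.trans_le (le_max_right _ _)) h₁)
      (fun τ => Lt_add_posDef (ha.trans_le (le_max_right _ _)) h₂)
  have hg' : ContinuousOn (fun τ => gV (Lt κ τ) F (V - (dg κ * dg κ - F * F))) (Icc a b) :=
    hg.continuousOn.congr fun τ hτ => by simp only [max_eq_left hτ.1]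
  refine ContinuousOn.mul (continuousOn_id.rpow_const fun τ hτ => Or.inl (ha.trans_le hτ.1).ne')
    (ContinuousOn.sub (continuousOn_const.div continuousOn_id
      fun τ hτ => (ha.trans_le hτ.1).ne') hg')

theorem ld_shift {V : Matrix ι ι ℂ} (hV : V.PosSemidef) {τ θ : ℝ} (hτ : 0 < τ) (hθ : 0 ≤ θ) :
    ld (τ • (1 : Matrix ι ι ℂ) + θ • V) = ∑ i, Real.log (τ + θ * hV.1.eigenvalues i) := by
  obtain ⟨U, hU, hU', e⟩ := exists_diag hV.1
  have hpos : ∀ i, 0 < τ + θ * hV.1.eigenvalues i := fun i =>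
    add_pos_of_pos_of_nonneg hτ (mul_nonneg hθ (hV.eigenvalues_nonneg i))
  have e2 : τ • (1 : Matrix ι ι ℂ) + θ • V =
      U * dg (fun i => τ + θ * hV.1.eigenvalues i) * Uᴴ := by
    rw [← dg_add, ← smul_one_eq_dg, ← smul_dg, Matrix.mul_add, Matrix.add_mul, Matrix.mul_smul,
      Matrix.smul_mul, Matrix.mul_smul, Matrix.smul_mul, Matrix.mul_one, hU', ← e]
  have hd : U.det ≠ 0 := by
    intro h
    have := congrArg det hU'
    rw [det_mul, h, zero_mul, det_one] at this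
    exact zero_ne_one this
  have hd' : Uᴴ.det ≠ 0 := by rw [det_conjTranspose]; exact star_ne_zero.2 hd
  have hD := det_ne_zero (dg_posDef hpos)
  have h0 := ld_mul hd hd'
  rw [hU', ld_one] at h0
  rw [e2, ld_mul (by rw [det_mul]; exact mul_ne_zero hd hD) hd', ld_mul hd hD, ld_dg hpos]
  linarith

theorem eig_le {V : Matrix ι ι ℂ} (hV : V.IsHermitian) {v : ℝ}
    (h : (v • (1 : Matrix ι ι ℂ) - V).PosSemidef) (i : ι) : hV.eigenvalues i ≤ v := by
  obtain ⟨U, hU, -, e⟩ := exists_diag hV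
  have h1 := h.conjTranspose_mul_mul_same U
  have e2 : Uᴴ * (v • (1 : Matrix ι ι ℂ) - V) * U = dg fun i => v - hV.eigenvalues i := by
    rw [Matrix.mul_sub, Matrix.sub_mul, Matrix.mul_smul, Matrix.smul_mul, Matrix.mul_one, hU,
      ← dg_sub, ← smul_one_eq_dg]
    congr 1
    conv_lhs => rw [e]
    rw [show Uᴴ * (U * dg hV.eigenvalues * Uᴴ) * U = (Uᴴ * U) * dg hV.eigenvalues * (Uᴴ * U) by
      simp only [Matrix.mul_assoc], hU, Matrix.one_mul, Matrix.mul_one]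
  rw [e2] at h1
  have := (posSemidef_diagonal_iff.1 h1) i
  have h2 : (0 : ℝ) ≤ v - hV.eigenvalues i := by exact_mod_cast this
  linarith

/-- The primitive. -/
noncomputable def Th (α : ℝ) (κ : ι → ℝ) (F : Matrix ι ι ℂ) (y : ι → ℝ) (τ : ℝ) : ℝ :=
  τ ^ (1 + α) / (1 + α) * (om κ F τ - ∑ i, Real.log (τ + y i) +
    (∑ i, y i - rt (dg κ * dg κ - F * F)) / τ)

theorem hd_Th {α : ℝ} (hα : 0 < α) {κ : ι → ℝ} {F : Matrix ι ι ℂ} {y : ι → ℝ} {τ : ℝ}
    (hτ : 0 < τ) (hy : ∀ i, 0 ≤ y i)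
    (h₁ : (dg κ - F).PosSemidef) (h₂ : (dg κ + F).PosSemidef) :
    HasDerivAt (Th α κ F y)
      (τ ^ α * ((∑ i, y i) / τ - ∑ i, Real.log (τ + y i) + om κ F τ -
          α / (1 + α) * rt (dg κ * dg κ - F * F) / τ +
          (1 - α / (1 + α)) * (τ * om' κ F τ - 2 * Fintype.card ι) / 2) -
        ∑ i, y i / (1 + α) * rpowIntegrand₀₁ α τ (y i)) τ := by
  have a1 : HasDerivAt (fun τ : ℝ => τ ^ (1 + α) / (1 + α)) (τ ^ α) τ := by
    refine ((Real.hasDerivAt_rpow_const (p := 1 + α) (Or.inl hτ.ne')).div_const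
      (1 + α)).congr_deriv ?_
    rw [add_sub_cancel_left]
    field_simp
  have a2 : HasDerivAt (fun τ : ℝ => ∑ i, Real.log (τ + y i)) (∑ i, (τ + y i)⁻¹) τ := by
    refine HasDerivAt.fun_sum fun i _ => ?_
    have := ((hasDerivAt_id τ).add_const (y i)).log
      (by simp only [id]; linarith [hy i] : id τ + y i ≠ 0)
    simpa using this
  have a3 : HasDerivAt (fun τ : ℝ => (∑ i, y i - rt (dg κ * dg κ - F * F)) / τ)
      (-(∑ i, y i - rt (dg κ * dg κ - F * F)) / τ ^ 2) τ := by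
    have := (hasDerivAt_inv hτ.ne').const_mul (∑ i, y i - rt (dg κ * dg κ - F * F))
    simp only [div_eq_mul_inv]
    refine this.congr_deriv ?_
    ring
  refine (a1.mul (((hd_om hτ h₁ h₂).sub a2).add a3)).congr_deriv ?_
  have e1 : ∑ i, y i / (1 + α) * rpowIntegrand₀₁ α τ (y i) =
      τ ^ α / (1 + α) * ((∑ i, y i) / τ - Fintype.card ι + τ * ∑ i, (τ + y i)⁻¹) := by
    rw [Finset.sum_div, Finset.mul_sum,
      show (Fintype.card ι : ℝ) = ∑ _i : ι, (1 : ℝ) by simp, ← Finset.sum_sub_distrib,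
      ← Finset.sum_add_distrib, Finset.mul_sum]
    refine Finset.sum_congr rfl fun i _ => ?_
    have : τ + y i ≠ 0 := by linarith [hy i]
    rw [rpowIntegrand₀₁]
    field_simp
    ring
  rw [e1, Real.rpow_add hτ, Real.rpow_one]
  simp only [Pi.add_apply, Pi.sub_apply]
  field_simp
  ring

theorem seg {α : ℝ} (hα : α ∈ Ioo (0 : ℝ) 1) {κ : ι → ℝ} {F V : Matrix ι ι ℂ}
    (hV : V.PosSemidef) (h₁ : (dg κ - F).PosSemidef) (h₂ : (dg κ + F).PosSemidef) {a b d : ℝ}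
    (ha : 0 < a) (hab : a ≤ b)
    (hd : ∀ τ ∈ Icc a b, d ≤ τ ^ α * (S1 κ F τ (τ • 1 + (α / (1 + α)) • V) +
      (1 - α / (1 + α)) * τ * S3 κ F τ)) :
    α / (1 + α) * (∫ τ in a..b, Qf α κ F V τ) + d * (b - a) -
        ∑ i, 2 * (α / (1 + α) * hV.1.eigenvalues i / (1 + α)) *
          ∫ τ in a..b, rpowIntegrand₀₁ α τ (α / (1 + α) * hV.1.eigenvalues i) ≤
      2 * Th α κ F (fun i => α / (1 + α) * hV.1.eigenvalues i) b -
        2 * Th α κ F (fun i => α / (1 + α) * hV.1.eigenvalues i) a := by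
  have hα0 := hα.1
  set θ := α / (1 + α) with hθ
  have hθ0 : 0 ≤ θ := by positivity
  set y : ι → ℝ := fun i => θ * hV.1.eigenvalues i with hy
  have hy0 : ∀ i, 0 ≤ y i := fun i => mul_nonneg hθ0 (hV.eigenvalues_nonneg i)
  have hQ : IntervalIntegrable (Qf α κ F V) volume a b :=
    (continuousOn_Qf α V ha h₁ h₂).intervalIntegrable_of_Icc hab
  have hI : ∀ i, IntervalIntegrable
      (fun τ => 2 * (y i / (1 + α)) * rpowIntegrand₀₁ α τ (y i)) volume a b :=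
    fun i => (ii_I hα (hy0 i) ha.le hab).const_mul _
  have hI' : IntervalIntegrable
      (fun τ => ∑ i, 2 * (y i / (1 + α)) * rpowIntegrand₀₁ α τ (y i)) volume a b := by
    have := IntervalIntegrable.sum Finset.univ fun i _ => hI i
    rwa [Finset.sum_fn] at this
  have hφ : IntervalIntegrable (fun τ => θ * Qf α κ F V τ + d -
      ∑ i, 2 * (y i / (1 + α)) * rpowIntegrand₀₁ α τ (y i)) volume a b :=
    ((hQ.const_mul θ).add intervalIntegrable_const).sub hI'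
  have hD := fun τ (hτ : τ ∈ Icc a b) =>
    (hd_Th hα0 (ha.trans_le hτ.1) hy0 h₁ h₂).const_mul 2
  have := intervalIntegral.integral_le_sub_of_hasDeriv_right_of_le hab
    (fun τ hτ => (hD τ hτ).continuousAt.continuousWithinAt)
    (fun τ hτ => (hD τ (Ioo_subset_Icc_self hτ)).hasDerivWithinAt)
    ((intervalIntegrable_iff_integrableOn_Icc_of_le hab).1 hφ) ?_
  · rw [intervalIntegral.integral_sub ((hQ.const_mul θ).add intervalIntegrable_const) hI',
      intervalIntegral.integral_add (hQ.const_mul θ) intervalIntegrable_const,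
      intervalIntegral.integral_const_mul, intervalIntegral.integral_const,
      intervalIntegral.integral_finsetSum fun i _ => hI i] at this
    simp only [intervalIntegral.integral_const_mul, smul_eq_mul] at this
    rw [mul_comm d]
    exact this
  intro τ hτ
  have hτ0 : 0 < τ := ha.trans hτ.1
  have h3 := tau_main (V := V) hτ0 hθ0 h₁ h₂
  rw [ld_shift hV hτ0 hθ0, rt_herm hV.1, Finset.mul_sum] at h3
  have h4 := mul_le_mul_of_nonneg_left h3 (Real.rpow_nonneg hτ0.le α)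
  have h5 := hd τ (Ioo_subset_Icc_self hτ)
  have e : ∑ i, 2 * (y i / (1 + α)) * rpowIntegrand₀₁ α τ (y i) =
      2 * ∑ i, y i / (1 + α) * rpowIntegrand₀₁ α τ (y i) := by
    rw [Finset.mul_sum]
    exact Finset.sum_congr rfl fun i _ => by ring
  rw [e, Qf]
  simp only [hy]
  nlinarith

theorem Th_le {α : ℝ} (hα : 0 < α) {κ : ι → ℝ} {F : Matrix ι ι ℂ} {y : ι → ℝ} {τ k v : ℝ}
    (hτ : 0 < τ) (hκ : ∀ i, 0 < κ i) (hκk : ∀ i, κ i ≤ k) (hy : ∀ i, 0 ≤ y i)
    (hyv : ∀ i, y i ≤ v) (h₁ : (dg κ - F).PosSemidef) (h₂ : (dg κ + F).PosSemidef) :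
    Th α κ F y τ ≤ (k ^ 2 * (∑ i, κ i ^ 2) + Fintype.card ι * v ^ 2) * τ ^ (α - 1) := by
  have h3 := om_le hτ hκ hκk h₁ h₂
  have h4 : Fintype.card ι * Real.log τ - ∑ i, Real.log (τ + y i) + (∑ i, y i) / τ ≤
      Fintype.card ι * v ^ 2 / τ ^ 2 := by
    rw [Finset.sum_div, show (Fintype.card ι : ℝ) * Real.log τ = ∑ _i : ι, Real.log τ by simp,
      show (Fintype.card ι : ℝ) * v ^ 2 / τ ^ 2 = ∑ _i : ι, v ^ 2 / τ ^ 2 by simp; ring,
      ← Finset.sum_sub_distrib, ← Finset.sum_add_distrib]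
    refine Finset.sum_le_sum fun i _ => ?_
    have hi := hy i
    have h := Real.log_le_sub_one_of_pos (show 0 < τ / (τ + y i) by positivity)
    rw [Real.log_div hτ.ne' (by positivity)] at h
    have e : τ / (τ + y i) - 1 + y i / τ = y i ^ 2 / (τ * (τ + y i)) := by field_simp; ring
    have h5 : y i ^ 2 / (τ * (τ + y i)) ≤ v ^ 2 / τ ^ 2 := by
      have := hyv i
      gcongr
      nlinarith
    linarith
  have h6 : om κ F τ - ∑ i, Real.log (τ + y i) + (∑ i, y i - rt (dg κ * dg κ - F * F)) / τ ≤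
      (k ^ 2 * (∑ i, κ i ^ 2) + Fintype.card ι * v ^ 2) / τ ^ 2 := by
    rw [sub_div, add_div]
    linarith
  have hE : 0 ≤ k ^ 2 * (∑ i, κ i ^ 2) + Fintype.card ι * v ^ 2 := by positivity
  calc Th α κ F y τ ≤ τ ^ (1 + α) / (1 + α) *
        ((k ^ 2 * (∑ i, κ i ^ 2) + Fintype.card ι * v ^ 2) / τ ^ 2) :=
        mul_le_mul_of_nonneg_left h6 (by positivity)
    _ ≤ τ ^ (1 + α) * ((k ^ 2 * (∑ i, κ i ^ 2) + Fintype.card ι * v ^ 2) / τ ^ 2) := by
        gcongr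
        exact div_le_self (by positivity) (by linarith)
    _ = _ := by
        rw [Real.rpow_add hτ, Real.rpow_one, Real.rpow_sub hτ, Real.rpow_one]
        field_simp

theorem Th_ge {α : ℝ} (hα : 0 < α) {κ : ι → ℝ} {F : Matrix ι ι ℂ} {y : ι → ℝ} {τ k v : ℝ}
    (hτ : 0 < τ) (hτ1 : τ ≤ 1) (hk : 0 ≤ k) (hv : 0 ≤ v)
    (hκ : ∀ i, 0 < κ i) (hκk : ∀ i, κ i ≤ k) (hy : ∀ i, 0 ≤ y i)
    (hyv : ∀ i, y i ≤ v) (h₁ : (dg κ - F).PosSemidef) (h₂ : (dg κ + F).PosSemidef) :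
    -Th α κ F y τ ≤
      (Fintype.card ι * v + 2 * Fintype.card ι * (2 * k + 1) + ∑ i, κ i ^ 2) * τ ^ α := by
  have h3 := om_ge hτ hτ1 hκ hκk h₁ h₂
  have h4 : ∑ i, Real.log (τ + y i) ≤ Fintype.card ι * v / τ := by
    rw [show (Fintype.card ι : ℝ) * v / τ = ∑ _i : ι, v / τ by simp; ring]
    refine Finset.sum_le_sum fun i _ => ?_
    have hi := hy i
    have h := Real.log_le_sub_one_of_pos (show 0 < τ + y i by positivity)
    have h5 : v ≤ v / τ := le_div_self hv hτ hτ1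
    linarith [hyv i]
  have h5 : rt (dg κ * dg κ - F * F) ≤ ∑ i, κ i ^ 2 := by
    have eK : rt (dg κ * dg κ) = ∑ i, κ i ^ 2 := by
      rw [dg_mul_dg, rt_dg]; exact Finset.sum_congr rfl fun i _ => by ring
    have eF : rt (F * F) = hs2 F := by rw [hs2_eq, K_herm_F h₁]
    rw [rt_sub, eK, eF]
    linarith [Act.hs2_nonneg F]
  have h6 : 0 ≤ ∑ i, y i := Finset.sum_nonneg fun i _ => hy i
  have h7 : -(om κ F τ - ∑ i, Real.log (τ + y i) + (∑ i, y i - rt (dg κ * dg κ - F * F)) / τ) ≤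
      (Fintype.card ι * v + 2 * Fintype.card ι * (2 * k + 1) + ∑ i, κ i ^ 2) / τ := by
    have : -((∑ i, y i - rt (dg κ * dg κ - F * F)) / τ) ≤ (∑ i, κ i ^ 2) / τ := by
      rw [← neg_div]
      gcongr
      linarith
    rw [add_div, add_div]
    linarith
  calc -Th α κ F y τ = τ ^ (1 + α) / (1 + α) * -(om κ F τ - ∑ i, Real.log (τ + y i) +
        (∑ i, y i - rt (dg κ * dg κ - F * F)) / τ) := by rw [Th]; ring
    _ ≤ τ ^ (1 + α) / (1 + α) *
        ((Fintype.card ι * v + 2 * Fintype.card ι * (2 * k + 1) + ∑ i, κ i ^ 2) / τ) :=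
        mul_le_mul_of_nonneg_left h7 (by positivity)
    _ ≤ τ ^ (1 + α) *
        ((Fintype.card ι * v + 2 * Fintype.card ι * (2 * k + 1) + ∑ i, κ i ^ 2) / τ) := by
        gcongr
        exact div_le_self (by positivity) (by linarith)
    _ = _ := by
        rw [Real.rpow_add hτ, Real.rpow_one]
        field_simp

/-- The Hamilton–Jacobi inequality, truncated to `τ ∈ [ε, T]`. -/
theorem point_ineq {α : ℝ} (hα : α ∈ Ioo (0 : ℝ) 1) {k v : ℝ} (hk : 0 < k) (hv : 0 < v) :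
    ∃ c : ℝ, 0 < c ∧ ∀ (ι : Type) [Fintype ι] [DecidableEq ι] (κ : ι → ℝ),
      (∀ i, 0 < κ i) → (∀ i, κ i ≤ k) → ∃ E : ℝ, ∀ (F V : Matrix ι ι ℂ) (ε T : ℝ),
      0 < ε → ε ≤ 1 → 2 * (k ^ 2 + 1) ≤ T →
      V.PosSemidef → (v • (1 : Matrix ι ι ℂ) - V).PosSemidef →
      (dg κ - F).PosSemidef → (dg κ + F).PosSemidef →
      (∫ τ in ε..T, Qf α κ F V τ) + c * (hs2 (dg κ * dg κ * F - F * (dg κ * dg κ)) +
          hs2 ((1 + α⁻¹) • (dg κ * dg κ - F * F) - V)) ≤
        2 * cI α * ca α * trp V (1 + α) + E * (ε ^ α + T ^ (α - 1)) := by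
  have hα0 := hα.1
  set θ := α / (1 + α) with hθ
  have hθ0 : 0 < θ := by positivity
  have hθ1 : θ < 1 := by rw [hθ, div_lt_one (by positivity)]; linarith
  obtain ⟨c, hc, hsl⟩ := slack_ge hθ0 hθ1 hk hv
  refine ⟨c / θ, by positivity, fun ι _ _ κ hκ hκk => ?_⟩
  set E1 := k ^ 2 * (∑ i, κ i ^ 2) + Fintype.card ι * v ^ 2 with hE1
  set E2 := Fintype.card ι * v + 2 * Fintype.card ι * (2 * k + 1) + ∑ i, κ i ^ 2 with hE2
  have hE10 : 0 ≤ E1 := by positivity
  have hE20 : 0 ≤ E2 := by positivity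
  refine ⟨2 * (E1 + E2) / θ, fun F V ε T hε hε1 hT hV hVv h₁ h₂ => ?_⟩
  have eβ : 1 + α⁻¹ = θ⁻¹ := by rw [hθ]; field_simp; ring
  rw [eβ]
  set D := hs2 (dg κ * dg κ * F - F * (dg κ * dg κ)) + hs2 (θ⁻¹ • (dg κ * dg κ - F * F) - V)
    with hD
  have hD0 : 0 ≤ D := add_nonneg (Act.hs2_nonneg _) (Act.hs2_nonneg _)
  set t := k ^ 2 + 1 with ht
  have ht1 : 1 ≤ t := by nlinarith
  have hεt : ε ≤ t := hε1.trans ht1
  have hsl0 : ∀ τ, 0 < τ → 0 ≤ τ ^ α * (S1 κ F τ (τ • 1 + θ • V) + (1 - θ) * τ * S3 κ F τ) :=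
    fun τ hτ => mul_nonneg (by positivity) (add_nonneg (S1_nonneg hτ h₁ h₂
      ((PosDef.one.smul hτ).add_posSemidef (hV.smul hθ0.le)))
      (mul_nonneg (mul_nonneg (by linarith) hτ.le) (S3_nonneg hτ h₁ h₂)))
  have s1 := seg hα hV h₁ h₂ (d := 0) hε hεt fun τ hτ => hsl0 τ (hε.trans_le hτ.1)
  have s2 := seg hα hV h₁ h₂ (d := c * D) (a := t) (b := 2 * t) (by linarith) (by linarith)
    fun τ hτ => by
      have h1 := hsl ι κ F V τ hτ.1 hτ.2 hκ hκk hV hVv h₁ h₂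
      have h2 : 1 ≤ τ ^ α := Real.one_le_rpow (ht1.trans hτ.1) hα0.le
      refine h1.trans (le_mul_of_one_le_left ?_ h2)
      exact le_trans (by positivity) h1
  have s3 := seg hα hV h₁ h₂ (d := 0) (a := 2 * t) (b := T) (by linarith) hT
    fun τ hτ => hsl0 τ (by linarith [hτ.1])
  rw [← hθ] at s1 s2 s3
  set y : ι → ℝ := fun i => θ * hV.1.eigenvalues i with hy
  have hy0 : ∀ i, 0 ≤ y i := fun i => mul_nonneg hθ0.le (hV.eigenvalues_nonneg i)
  have hyv : ∀ i, y i ≤ v := fun i =>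
    (mul_le_of_le_one_left (hV.eigenvalues_nonneg i) hθ1.le).trans (eig_le hV.1 hVv i)
  have hQ : ∀ a b, 0 < a → a ≤ b → IntervalIntegrable (Qf α κ F V) volume a b :=
    fun a b ha hab => (continuousOn_Qf α V ha h₁ h₂).intervalIntegrable_of_Icc hab
  have eQ : ∫ τ in ε..T, Qf α κ F V τ = (∫ τ in ε..t, Qf α κ F V τ) +
      (∫ τ in t..2 * t, Qf α κ F V τ) + ∫ τ in 2 * t..T, Qf α κ F V τ := by
    rw [intervalIntegral.integral_add_adjacent_intervals (hQ _ _ hε hεt)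
      (hQ _ _ (by linarith) (by linarith)),
      intervalIntegral.integral_add_adjacent_intervals (hQ _ _ hε (by linarith))
      (hQ _ _ (by linarith) hT)]
  have hI : ∑ i, 2 * (y i / (1 + α)) * (∫ τ in ε..t, rpowIntegrand₀₁ α τ (y i)) +
      ∑ i, 2 * (y i / (1 + α)) * (∫ τ in t..2 * t, rpowIntegrand₀₁ α τ (y i)) +
      ∑ i, 2 * (y i / (1 + α)) * (∫ τ in 2 * t..T, rpowIntegrand₀₁ α τ (y i)) ≤
      θ * (2 * cI α * ca α * trp V (1 + α)) := by
    rw [trp_eq_sum hV.1, Finset.mul_sum, Finset.mul_sum, ← Finset.sum_add_distrib,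
      ← Finset.sum_add_distrib]
    refine Finset.sum_le_sum fun i _ => ?_
    rw [← mul_add, ← mul_add,
      intervalIntegral.integral_add_adjacent_intervals (ii_I hα (hy0 i) hε.le hεt)
        (ii_I hα (hy0 i) (by linarith) (by linarith)),
      intervalIntegral.integral_add_adjacent_intervals (ii_I hα (hy0 i) hε.le (by linarith))
        (ii_I hα (hy0 i) (by linarith) hT)]
    have h1 := I_int_le hα (hy0 i) hε (show ε ≤ T by linarith)
    have := hy0 i
    refine (mul_le_mul_of_nonneg_left h1 (by positivity)).trans (le_of_eq ?_)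
    simp only [hy]
    rw [Real.mul_rpow hθ0.le (hV.eigenvalues_nonneg i),
      Real.rpow_add' (hV.eigenvalues_nonneg i) (by positivity), Real.rpow_one, ca, ← hθ]
    ring
  have b1 := Th_le hα0 (y := y) (τ := T) (by linarith) hκ hκk hy0 hyv h₁ h₂
  have b2 := Th_ge hα0 (y := y) hε hε1 hk.le hv.le hκ hκk hy0 hyv h₁ h₂
  rw [← hE1] at b1
  rw [← hE2] at b2
  have hεα : 0 ≤ ε ^ α := by positivity
  have hTα : 0 ≤ T ^ (α - 1) := Real.rpow_nonneg (by linarith) _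
  have hcD : c * D ≤ c * D * (2 * t - t) := le_mul_of_one_le_right (by positivity) (by linarith)
  have key : θ * (∫ τ in ε..T, Qf α κ F V τ) + c * D ≤
      θ * (2 * cI α * ca α * trp V (1 + α)) + 2 * (E1 + E2) * (ε ^ α + T ^ (α - 1)) := by
    rw [eQ]
    have := mul_nonneg hE10 hεα
    have := mul_nonneg hE20 hTα
    simp only [hy] at hI b1 b2
    linarith
  have e1 : (∫ τ in ε..T, Qf α κ F V τ) + c / θ * D =
      (θ * (∫ τ in ε..T, Qf α κ F V τ) + c * D) / θ := by field_simp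
  have e2 : 2 * cI α * ca α * trp V (1 + α) + 2 * (E1 + E2) / θ * (ε ^ α + T ^ (α - 1)) =
      (θ * (2 * cI α * ca α * trp V (1 + α)) + 2 * (E1 + E2) * (ε ^ α + T ^ (α - 1))) / θ := by
    field_simp
  rw [e1, e2]
  gcongr

end Crest.Agent.R332.Act
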