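import Crest.Agent.R332.Basic

/-!
# Action inequality, part 1: traces, log-determinants, Hilbert–Schmidt bounds
-/

set_option autoImplicit false

open MeasureTheory Matrix Filter Topology
open scoped ComplexOrder

namespace Crest.Agent.R332.Act

variable {ι : Type*} [Fintype ι] [DecidableEq ι]

/-- Real part of the trace. -/
noncomputable def rt (A : Matrix ι ι ℂ) : ℝ := (trace A).re

/-- `log |det A|`. -/
noncomputable def ld (A : Matrix ι ι ℂ) : ℝ := Real.log ‖A.det‖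

omit [DecidableEq ι] in
theorem rt_add (A B : Matrix ι ι ℂ) : rt (A + B) = rt A + rt B := by simp [rt]

omit [DecidableEq ι] in
theorem rt_sub (A B : Matrix ι ι ℂ) : rt (A - B) = rt A - rt B := by simp [rt]

omit [DecidableEq ι] in
theorem rt_neg (A : Matrix ι ι ℂ) : rt (-A) = -rt A := by simp [rt]

omit [DecidableEq ι] in
theorem rt_smul (c : ℝ) (A : Matrix ι ι ℂ) : rt (c • A) = c * rt A := by simp [rt]

omit [DecidableEq ι] in
theorem rt_mul_comm (A B : Matrix ι ι ℂ) : rt (A * B) = rt (B * A) := by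
  simp only [rt]; rw [trace_mul_comm]

theorem rt_one : rt (1 : Matrix ι ι ℂ) = Fintype.card ι := by simp [rt]

theorem rt_dg (k : ι → ℝ) : rt (dg k) = ∑ i, k i := by simp [rt, dg]

omit [DecidableEq ι] in
theorem rt_nonneg {A : Matrix ι ι ℂ} (hA : A.PosSemidef) : 0 ≤ rt A :=
  (Complex.nonneg_iff.1 hA.trace_nonneg).1

omit [DecidableEq ι] in
theorem hs2_eq (A : Matrix ι ι ℂ) : hs2 A = rt (Aᴴ * A) := by
  simp only [hs2, rt, trace, diag, mul_apply, conjTranspose_apply, Complex.re_sum]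
  rw [Finset.sum_comm]
  refine Finset.sum_congr rfl fun i _ => Finset.sum_congr rfl fun j _ => ?_
  rw [Complex.star_def, Complex.conj_mul', ← Complex.ofReal_pow, Complex.ofReal_re]

omit [DecidableEq ι] in
theorem hs2_nonneg (A : Matrix ι ι ℂ) : 0 ≤ hs2 A :=
  Finset.sum_nonneg fun _ _ => Finset.sum_nonneg fun _ _ => by positivity

omit [DecidableEq ι] in
theorem hs2_smul (c : ℝ) (A : Matrix ι ι ℂ) : hs2 (c • A) = c ^ 2 * hs2 A := by
  simp only [hs2, Finset.mul_sum, Matrix.smul_apply, norm_smul, mul_pow, Real.norm_eq_abs, sq_abs]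

omit [DecidableEq ι] in
theorem hs2_neg (A : Matrix ι ι ℂ) : hs2 (-A) = hs2 A := by
  simp only [hs2, Matrix.neg_apply, norm_neg]

omit [DecidableEq ι] in
theorem hs2_conjTranspose (A : Matrix ι ι ℂ) : hs2 Aᴴ = hs2 A := by
  simp only [hs2, conjTranspose_apply, norm_star]
  rw [Finset.sum_comm]

theorem dg_mul_dg (a b : ι → ℝ) : dg a * dg b = dg fun i => a i * b i := by
  simp [dg, diagonal_mul_diagonal]

omit [Fintype ι] in
theorem dg_conjTranspose (a : ι → ℝ) : (dg a)ᴴ = dg a := by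
  simp only [dg, diagonal_conjTranspose]
  congr 1
  funext i
  simp

omit [Fintype ι] in
theorem dg_one : dg (fun _ : ι => (1 : ℝ)) = 1 := by simp [dg]

omit [Fintype ι] in
theorem dg_sub (a b : ι → ℝ) : dg a - dg b = dg fun i => a i - b i := by
  simp [dg, diagonal_sub]

omit [Fintype ι] in
theorem dg_add (a b : ι → ℝ) : dg a + dg b = dg fun i => a i + b i := by
  simp [dg, diagonal_add]

omit [Fintype ι] in
theorem smul_dg (c : ℝ) (a : ι → ℝ) : c • dg a = dg fun i => c * a i := by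
  ext i j
  by_cases h : i = j
  · subst h; simp [dg]
  · simp [dg, h]

omit [Fintype ι] in
theorem smul_one_eq_dg (c : ℝ) : c • (1 : Matrix ι ι ℂ) = dg fun _ => c := by
  rw [← dg_one, smul_dg]; simp

omit [Fintype ι] in
theorem dg_posSemidef {a : ι → ℝ} (h : ∀ i, 0 ≤ a i) : (dg a).PosSemidef :=
  PosSemidef.diagonal fun i => by simpa using h i

omit [Fintype ι] in
theorem dg_posDef {a : ι → ℝ} (h : ∀ i, 0 < a i) : (dg a).PosDef :=
  PosDef.diagonal fun i => by simpa using h i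

theorem dg_inv {a : ι → ℝ} (h : ∀ i, a i ≠ 0) : (dg a)⁻¹ = dg fun i => (a i)⁻¹ := by
  apply inv_eq_right_inv
  rw [dg_mul_dg, ← dg_one]
  congr 1
  funext i
  exact mul_inv_cancel₀ (h i)

theorem ld_dg {a : ι → ℝ} (h : ∀ i, 0 < a i) : ld (dg a) = ∑ i, Real.log (a i) := by
  rw [ld, dg, det_diagonal, norm_prod, Real.log_prod]
  · refine Finset.sum_congr rfl fun i _ => ?_
    rw [Complex.norm_real, Real.norm_eq_abs, abs_of_pos (h i)]
  · intro i _
    rw [Complex.norm_real, Real.norm_eq_abs, abs_of_pos (h i)]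
    exact (h i).ne'

theorem exists_diag {A : Matrix ι ι ℂ} (hA : A.IsHermitian) :
    ∃ U : Matrix ι ι ℂ, Uᴴ * U = 1 ∧ U * Uᴴ = 1 ∧ A = U * dg hA.eigenvalues * Uᴴ := by
  refine ⟨hA.eigenvectorUnitary, ?_, ?_, ?_⟩
  · exact Unitary.coe_star_mul_self hA.eigenvectorUnitary
  · exact Unitary.coe_mul_star_self hA.eigenvectorUnitary
  · conv_lhs => rw [hA.spectral_theorem]
    rfl

theorem exists_factor {A : Matrix ι ι ℂ} (hA : A.PosSemidef) :
    ∃ S : Matrix ι ι ℂ, A = S * Sᴴ := by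
  obtain ⟨U, -, -, h⟩ := exists_diag hA.1
  refine ⟨U * dg fun i => √(hA.1.eigenvalues i), ?_⟩
  rw [conjTranspose_mul, dg_conjTranspose, Matrix.mul_assoc, ← Matrix.mul_assoc (dg _), dg_mul_dg]
  conv_lhs => rw [h]
  rw [Matrix.mul_assoc]
  congr 3
  funext i
  exact (Real.mul_self_sqrt (hA.eigenvalues_nonneg i)).symm

theorem rt_mul_nonneg {P Q : Matrix ι ι ℂ} (hP : P.PosSemidef) (hQ : Q.PosSemidef) :
    0 ≤ rt (P * Q) := by
  obtain ⟨S, rfl⟩ := exists_factor hP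
  rw [Matrix.mul_assoc, rt_mul_comm]
  exact rt_nonneg (hQ.conjTranspose_mul_mul_same S)

theorem det_ne_zero {A : Matrix ι ι ℂ} (hA : A.PosDef) : A.det ≠ 0 := hA.det_pos.ne'

theorem ld_mul {A B : Matrix ι ι ℂ} (hA : A.det ≠ 0) (hB : B.det ≠ 0) :
    ld (A * B) = ld A + ld B := by
  rw [ld, det_mul, norm_mul, Real.log_mul (norm_ne_zero_iff.2 hA) (norm_ne_zero_iff.2 hB)]
  rfl

theorem ld_conjTranspose (A : Matrix ι ι ℂ) : ld Aᴴ = ld A := by
  rw [ld, det_conjTranspose, norm_star]; rfl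

theorem ld_one : ld (1 : Matrix ι ι ℂ) = 0 := by simp [ld]

theorem ld_inv {A : Matrix ι ι ℂ} (hA : A.det ≠ 0) : ld A⁻¹ = -ld A := by
  have h1 : A⁻¹.det ≠ 0 := by
    rw [det_nonsing_inv, Ring.inverse_eq_inv']; exact inv_ne_zero hA
  have := ld_mul h1 hA
  rw [nonsing_inv_mul _ (Ne.isUnit hA), ld_one] at this
  linarith

theorem ld_posDef {A : Matrix ι ι ℂ} (hA : A.PosDef) :
    ld A = ∑ i, Real.log (hA.1.eigenvalues i) := by
  rw [← ld_dg hA.eigenvalues_pos, ld, ld, hA.1.det_eq_prod_eigenvalues, dg, det_diagonal]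
  rfl

theorem rt_herm {A : Matrix ι ι ℂ} (hA : A.IsHermitian) : rt A = ∑ i, hA.eigenvalues i := by
  rw [rt, hA.trace_eq_sum_eigenvalues]
  simp

theorem ld_le_rt {A : Matrix ι ι ℂ} (hA : A.PosDef) : ld A ≤ rt A - Fintype.card ι := by
  rw [ld_posDef hA, rt_herm hA.1]
  calc ∑ i, Real.log (hA.1.eigenvalues i) ≤ ∑ i, (hA.1.eigenvalues i - 1) :=
        Finset.sum_le_sum fun i _ => Real.log_le_sub_one_of_pos (hA.eigenvalues_pos i)
    _ = _ := by simp

theorem posDef_conj {A S : Matrix ι ι ℂ} (hA : A.PosDef) (hS : S.det ≠ 0) :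
    (S * A * Sᴴ).PosDef := by
  have : IsUnit S := (isUnit_iff_isUnit_det S).2 (Ne.isUnit hS)
  exact (IsUnit.posDef_star_right_conjugate_iff this).2 hA

/-- Concavity of `log det`: tangent inequality. -/
theorem ld_tangent {A B : Matrix ι ι ℂ} (hA : A.PosDef) (hB : B.PosDef) :
    ld B ≤ ld A + rt (A⁻¹ * B) - Fintype.card ι := by
  obtain ⟨S, hS⟩ := exists_factor hA.inv.posSemidef
  have hdet : S.det ≠ 0 := by
    intro h
    apply det_ne_zero hA.inv
    rw [hS, det_mul, h, zero_mul]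
  have hdet' : Sᴴ.det ≠ 0 := by rw [det_conjTranspose]; exact star_ne_zero.2 hdet
  have h1 := ld_le_rt (posDef_conj hB hdet')
  rw [conjTranspose_conjTranspose, ld_mul (by rw [det_mul]; exact mul_ne_zero hdet' (det_ne_zero hB))
    hdet, ld_mul hdet' (det_ne_zero hB), rt_mul_comm, ← Matrix.mul_assoc, ← hS] at h1
  have h2 := ld_inv (det_ne_zero hA)
  rw [hS, ld_mul hdet hdet'] at h2
  linarith

theorem ld_mono {A B : Matrix ι ι ℂ} (hB : B.PosDef) (hAB : (A - B).PosSemidef) :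
    ld B ≤ ld A := by
  have hA : A.PosDef := by
    have := hB.add_posSemidef hAB
    rwa [add_sub_cancel] at this
  have h1 := ld_tangent hA hB
  have h2 := rt_mul_nonneg hA.inv.posSemidef hAB
  rw [Matrix.mul_sub, nonsing_inv_mul _ (Ne.isUnit (det_ne_zero hA)), rt_sub, rt_one] at h2
  linarith

/-- Strong concavity of `log det` at the midpoint. -/
theorem ld_mid {M D : Matrix ι ι ℂ} (h₁ : (M - D).PosDef) (h₂ : (M + D).PosDef) :
    ld (M - D) + ld (M + D) ≤ 2 * ld M - rt (M⁻¹ * D * M⁻¹ * D) := by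
  have hM : M.PosDef := by
    have := (h₁.add h₂).smul (show (0 : ℝ) < 1 / 2 by norm_num)
    convert this using 1
    ext i j; simp; ring
  have hMu : IsUnit M.det := Ne.isUnit (det_ne_zero hM)
  have h1u : IsUnit (M - D).det := Ne.isUnit (det_ne_zero h₁)
  have h2u : IsUnit (M + D).det := Ne.isUnit (det_ne_zero h₂)
  have hP : ((M - D) * M⁻¹ * (M + D)).PosDef := by
    rw [← posDef_inv_iff]
    have := (h₁.inv.add h₂.inv).smul (show (0 : ℝ) < 1 / 2 by norm_num)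
    convert this using 1
    rw [Matrix.mul_inv_rev, Matrix.mul_inv_rev, nonsing_inv_nonsing_inv _ hMu]
    have e : M = (1 / 2 : ℝ) • ((M + D) + (M - D)) := by ext i j; simp; ring
    conv_lhs => rw [show M * (M - D)⁻¹ = ((1 / 2 : ℝ) • ((M + D) + (M - D))) * (M - D)⁻¹ by
      rw [← e]]
    rw [Matrix.smul_mul, Matrix.mul_smul, Matrix.add_mul, Matrix.mul_add,
      mul_nonsing_inv _ h1u, Matrix.mul_one, ← Matrix.mul_assoc, nonsing_inv_mul _ h2u,
      Matrix.one_mul]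
  have h3 := ld_tangent hM hP
  have hMi : M⁻¹.det ≠ 0 := det_ne_zero hM.inv
  rw [ld_mul (by rw [det_mul]; exact mul_ne_zero h1u.ne_zero hMi) h2u.ne_zero,
    ld_mul h1u.ne_zero hMi, ld_inv hMu.ne_zero] at h3
  have e : M⁻¹ * ((M - D) * M⁻¹ * (M + D)) = 1 - M⁻¹ * D * M⁻¹ * D := by
    simp only [Matrix.sub_mul, Matrix.mul_add, Matrix.mul_sub, mul_nonsing_inv _ hMu,
      Matrix.one_mul, Matrix.mul_assoc, nonsing_inv_mul _ hMu, Matrix.mul_one]
    abel
  rw [e, rt_sub, rt_one] at h3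
  linarith

/-- `log det` of a skew perturbation. -/
theorem ld_skew {T C : Matrix ι ι ℂ} (hT : T.PosDef) (hC : Cᴴ = -C) (hd : (T + C).det ≠ 0) :
    2 * ld (T + C) ≤ 2 * ld T + rt (T⁻¹ * Cᴴ * T⁻¹ * C) := by
  have hTu : IsUnit T.det := Ne.isUnit (det_ne_zero hT)
  have hP : (T + Cᴴ * T⁻¹ * C).PosDef :=
    hT.add_posSemidef (hT.inv.posSemidef.conjTranspose_mul_mul_same C)
  have e : T + Cᴴ * T⁻¹ * C = (T + C)ᴴ * T⁻¹ * (T + C) := by
    rw [conjTranspose_add, hT.1.eq, hC]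
    simp only [Matrix.add_mul, Matrix.mul_add, mul_nonsing_inv _ hTu, Matrix.one_mul,
      Matrix.mul_assoc, nonsing_inv_mul _ hTu, Matrix.mul_one, Matrix.neg_mul]
    abel
  have h3 := ld_tangent hT hP
  have hd' : (T + C)ᴴ.det ≠ 0 := by rw [det_conjTranspose]; exact star_ne_zero.2 hd
  have hTi : T⁻¹.det ≠ 0 := det_ne_zero hT.inv
  rw [Matrix.mul_add, nonsing_inv_mul _ hTu, rt_add, rt_one, e,
    ld_mul (by rw [det_mul]; exact mul_ne_zero hd' hTi) hd, ld_mul hd' hTi, ld_conjTranspose,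
    ld_inv hTu.ne_zero] at h3
  simp only [Matrix.mul_assoc] at h3 ⊢
  linarith

theorem quad_ge {P Q C : Matrix ι ι ℂ} {p q : ℝ} (hp : 0 ≤ p) (hQ : Q.PosSemidef)
    (hP' : (P - p • (1 : Matrix ι ι ℂ)).PosSemidef)
    (hQ' : (Q - q • (1 : Matrix ι ι ℂ)).PosSemidef) :
    p * q * hs2 C ≤ rt (P * Cᴴ * Q * C) := by
  have h1 := rt_mul_nonneg hP' (hQ.conjTranspose_mul_mul_same C)
  have h2 := rt_nonneg (hQ'.conjTranspose_mul_mul_same C)
  rw [Matrix.sub_mul, Matrix.smul_mul, Matrix.one_mul, rt_sub, rt_smul] at h1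
  rw [Matrix.mul_sub, Matrix.sub_mul, Matrix.mul_smul, Matrix.smul_mul, Matrix.mul_one, rt_sub,
    rt_smul, ← hs2_eq] at h2
  simp only [Matrix.mul_assoc] at h1 h2 ⊢
  nlinarith

theorem quad_le {P Q C : Matrix ι ι ℂ} {p q : ℝ} (hp : 0 ≤ p) (hQ : Q.PosSemidef)
    (hP' : (p • (1 : Matrix ι ι ℂ) - P).PosSemidef)
    (hQ' : (q • (1 : Matrix ι ι ℂ) - Q).PosSemidef) :
    rt (P * Cᴴ * Q * C) ≤ p * q * hs2 C := by
  have h1 := rt_mul_nonneg hP' (hQ.conjTranspose_mul_mul_same C)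
  have h2 := rt_nonneg (hQ'.conjTranspose_mul_mul_same C)
  rw [Matrix.sub_mul, Matrix.smul_mul, Matrix.one_mul, rt_sub, rt_smul] at h1
  rw [Matrix.mul_sub, Matrix.sub_mul, Matrix.mul_smul, Matrix.smul_mul, Matrix.mul_one, rt_sub,
    rt_smul, ← hs2_eq] at h2
  simp only [Matrix.mul_assoc] at h1 h2 ⊢
  nlinarith

theorem inv_ge {M : Matrix ι ι ℂ} {b : ℝ} (hb : 0 < b) (hM : M.PosDef)
    (h : (b • (1 : Matrix ι ι ℂ) - M).PosSemidef) :
    (M⁻¹ - b⁻¹ • (1 : Matrix ι ι ℂ)).PosSemidef := by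
  have hMu : IsUnit M.det := Ne.isUnit (det_ne_zero hM)
  have h1 := (h.add (hM.inv.posSemidef.conjTranspose_mul_mul_same
    (b • (1 : Matrix ι ι ℂ) - M))).smul (show (0 : ℝ) ≤ b⁻¹ * b⁻¹ by positivity)
  convert h1 using 1
  rw [h.1.eq]
  simp only [Matrix.sub_mul, Matrix.mul_sub, Matrix.smul_mul, Matrix.mul_smul, Matrix.one_mul,
    Matrix.mul_one, mul_nonsing_inv _ hMu, nonsing_inv_mul _ hMu]
  ext i j
  have : (b : ℂ) ≠ 0 := by exact_mod_cast hb.ne'
  simp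
  field_simp

theorem inv_le {T : Matrix ι ι ℂ} {a : ℝ} (ha : 0 < a)
    (h : (T - a • (1 : Matrix ι ι ℂ)).PosSemidef) :
    (a⁻¹ • (1 : Matrix ι ι ℂ) - T⁻¹).PosSemidef := by
  have hT : T.PosDef := by
    have := (PosDef.one.smul ha).add_posSemidef h
    rwa [add_sub_cancel] at this
  have hTu : IsUnit T.det := Ne.isUnit (det_ne_zero hT)
  have h0 := (posSemidef_conjTranspose_mul_self (T - a • (1 : Matrix ι ι ℂ))).smul
    (show (0 : ℝ) ≤ a⁻¹ by positivity)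
  have h1 := (h0.add h).conjTranspose_mul_mul_same T⁻¹
  convert h1 using 1
  rw [h.1.eq, hT.inv.1.eq]
  simp only [Matrix.sub_mul, Matrix.mul_sub, Matrix.smul_mul, Matrix.mul_smul, Matrix.one_mul,
    Matrix.mul_one, mul_nonsing_inv _ hTu, nonsing_inv_mul _ hTu, Matrix.mul_add, Matrix.add_mul,
    ← Matrix.mul_assoc]
  ext i j
  have : (a : ℂ) ≠ 0 := by exact_mod_cast ha.ne'
  simp
  field_simp
  ring

theorem sq_le {Z : Matrix ι ι ℂ} {b : ℝ} (hb : 0 < b)
    (h₁ : (b • (1 : Matrix ι ι ℂ) - Z).PosSemidef) (h₂ : (b • (1 : Matrix ι ι ℂ) + Z).PosSemidef) :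
    ((b ^ 2) • (1 : Matrix ι ι ℂ) - Z * Z).PosSemidef := by
  have h := ((h₁.conjTranspose_mul_mul_same (b • (1 : Matrix ι ι ℂ) + Z)).add
    (h₂.conjTranspose_mul_mul_same (b • (1 : Matrix ι ι ℂ) - Z))).smul
    (show (0 : ℝ) ≤ (2 * b)⁻¹ by positivity)
  convert h using 1
  rw [h₁.1.eq, h₂.1.eq]
  simp only [Matrix.sub_mul, Matrix.mul_sub, Matrix.smul_mul, Matrix.mul_smul, Matrix.one_mul,
    Matrix.mul_one, Matrix.mul_add, Matrix.add_mul]
  ext i j
  have : (b : ℂ) ≠ 0 := by exact_mod_cast hb.ne'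
  simp
  field_simp
  ring

theorem hs2_conj_le {Z A : Matrix ι ι ℂ} {b : ℝ} (hb : 0 < b)
    (h₁ : (b • (1 : Matrix ι ι ℂ) - Z).PosSemidef) (h₂ : (b • (1 : Matrix ι ι ℂ) + Z).PosSemidef) :
    hs2 (Z * A * Z) ≤ b ^ 4 * hs2 A := by
  have hZ : Zᴴ = Z := by
    have := h₂.1.eq
    rw [conjTranspose_add, conjTranspose_smul, conjTranspose_one] at this
    simpa using this
  have hs := sq_le hb h₁ h₂
  have hZZ : (Z * Z).PosSemidef := by
    have := posSemidef_conjTranspose_mul_self Z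
    rwa [hZ] at this
  have := quad_le (C := A) (sq_nonneg b) hZZ hs hs
  rw [hs2_eq, conjTranspose_mul, conjTranspose_mul, hZ]
  have e : rt (Z * (Aᴴ * Z) * (Z * A * Z)) = rt (Z * Z * Aᴴ * (Z * Z) * A) := by
    rw [show Z * (Aᴴ * Z) * (Z * A * Z) = (Z * Aᴴ * (Z * Z) * A) * Z by
      simp only [Matrix.mul_assoc], rt_mul_comm]
    simp only [Matrix.mul_assoc]
  rw [e]
  linarith

end Crest.Agent.R332.Act
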