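import Crest.Agent.R332.ActCalc

/-!
# Action inequality, part 3: three inequalities for `G = avg_s (L - sF)⁻²`
-/

set_option autoImplicit false
set_option linter.unusedSectionVars false

open MeasureTheory Matrix Filter Topology Set
open scoped ComplexOrder

namespace Crest.Agent.R332.Act

variable {ι : Type*} [Fintype ι] [DecidableEq ι]

/-- The resolvent `(L - sF)⁻¹`. -/
noncomputable def Rs (L F : Matrix ι ι ℂ) (s : ℝ) : Matrix ι ι ℂ := (L - s • F)⁻¹

/-- `2 tr (G V)`. -/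
noncomputable def gV (L F V : Matrix ι ι ℂ) : ℝ :=
  ∫ s in (-1 : ℝ)..1, rt (Rs L F s * V * Rs L F s)

theorem Z_posDef {L F : Matrix ι ι ℂ} (h₁ : (L - F).PosDef) (h₂ : (L + F).PosDef) {s : ℝ}
    (hs : s ∈ Icc (-1 : ℝ) 1) : (L - s • F).PosDef := by
  have e : L - s • F = ((1 + s) / 2) • (L - F) + ((1 - s) / 2) • (L + F) := by
    ext i j; simp; ring
  rw [e]
  rcases le_total s 0 with h | h
  · exact PosDef.posSemidef_add (h₁.posSemidef.smul (by linarith [hs.1] : (0 : ℝ) ≤ (1 + s) / 2))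
      (h₂.smul (by linarith : (0 : ℝ) < (1 - s) / 2))
  · exact (h₁.smul (by linarith : (0 : ℝ) < (1 + s) / 2)).add_posSemidef
      (h₂.posSemidef.smul (by linarith [hs.2] : (0 : ℝ) ≤ (1 - s) / 2))

theorem L_posDef {L F : Matrix ι ι ℂ} (h₁ : (L - F).PosDef) (h₂ : (L + F).PosDef) :
    L.PosDef := by
  simpa using Z_posDef h₁ h₂ (s := 0) (by simp)

theorem F_herm {L F : Matrix ι ι ℂ} (h₁ : (L - F).PosDef) (h₂ : (L + F).PosDef) :
    F.IsHermitian := by
  have := (L_posDef h₁ h₂).1.sub h₁.1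
  rwa [sub_sub_cancel] at this

theorem continuousOn_Rs {L F : Matrix ι ι ℂ} (h₁ : (L - F).PosDef) (h₂ : (L + F).PosDef) :
    ContinuousOn (Rs L F) (Icc (-1 : ℝ) 1) :=
  continuousOn_inv (by fun_prop) fun _ hs => det_ne_zero (Z_posDef h₁ h₂ hs)

theorem continuousOn_rt_Rs {L F : Matrix ι ι ℂ} (h₁ : (L - F).PosDef) (h₂ : (L + F).PosDef)
    (V : Matrix ι ι ℂ) :
    ContinuousOn (fun s => rt (Rs L F s * V * Rs L F s)) (Icc (-1 : ℝ) 1) :=
  continuous_rt.comp_continuousOn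
    (((continuousOn_Rs h₁ h₂).mul continuousOn_const).mul (continuousOn_Rs h₁ h₂))

theorem ii_rt_Rs {L F : Matrix ι ι ℂ} (h₁ : (L - F).PosDef) (h₂ : (L + F).PosDef)
    (V : Matrix ι ι ℂ) :
    IntervalIntegrable (fun s => rt (Rs L F s * V * Rs L F s)) volume (-1) 1 :=
  (continuousOn_rt_Rs h₁ h₂ V).intervalIntegrable_of_Icc (by norm_num)

theorem gV_add {L F : Matrix ι ι ℂ} (h₁ : (L - F).PosDef) (h₂ : (L + F).PosDef)
    (V W : Matrix ι ι ℂ) : gV L F (V + W) = gV L F V + gV L F W := by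
  simp only [gV, Matrix.mul_add, Matrix.add_mul, rt_add]
  exact intervalIntegral.integral_add (ii_rt_Rs h₁ h₂ V) (ii_rt_Rs h₁ h₂ W)

theorem gV_smul (L F : Matrix ι ι ℂ) (c : ℝ) (V : Matrix ι ι ℂ) :
    gV L F (c • V) = c * gV L F V := by
  simp only [gV, Matrix.mul_smul, Matrix.smul_mul, rt_smul]
  exact intervalIntegral.integral_const_mul _ _

theorem gV_sub {L F : Matrix ι ι ℂ} (h₁ : (L - F).PosDef) (h₂ : (L + F).PosDef)
    (V W : Matrix ι ι ℂ) : gV L F (V - W) = gV L F V - gV L F W := by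
  simp only [gV, Matrix.mul_sub, Matrix.sub_mul, rt_sub]
  exact intervalIntegral.integral_sub (ii_rt_Rs h₁ h₂ V) (ii_rt_Rs h₁ h₂ W)

theorem hd_Rs {L F : Matrix ι ι ℂ} {s : ℝ} (h : (L - s • F).PosDef) :
    HasDerivAt (Rs L F) (Rs L F s * F * Rs L F s) s := by
  have := hd_inv (hd_sub (hd_const L s) (hd_smul_const F s)) (det_ne_zero h)
  simp only [zero_sub, Matrix.mul_neg, Matrix.neg_mul, neg_neg] at this
  exact this

theorem rt_quad (M : Matrix ι ι ℂ) (p q : ι → ℝ) :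
    rt (Mᴴ * dg q * M * dg p) = ∑ a, ∑ b, ‖M b a‖ ^ 2 * (q b * p a) := by
  simp only [rt, trace, diag, dg, mul_diagonal, Complex.re_sum]
  refine Finset.sum_congr rfl fun a _ => ?_
  rw [mul_apply, Finset.sum_mul, Complex.re_sum]
  refine Finset.sum_congr rfl fun b _ => ?_
  rw [mul_diagonal, conjTranspose_apply, Complex.star_def]
  have : (starRingEnd ℂ) (M b a) * (q b : ℂ) * M b a * (p a : ℂ) =
      ((‖M b a‖ ^ 2 * (q b * p a) : ℝ) : ℂ) := by
    push_cast
    rw [← Complex.conj_mul']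
    ring
  rw [this, Complex.ofReal_re]

theorem rt_dg_mul (e : ι → ℝ) (A : Matrix ι ι ℂ) : rt (dg e * A) = ∑ i, e i * (A i i).re := by
  simp [rt, trace, dg, diagonal_mul]

/-- The doubly stochastic lemma. -/
theorem exists_ds {P Q : Matrix ι ι ℂ} (hP : P.PosDef) (hQ : Q.PosDef) :
    ∃ l : ι → ℝ, ∑ i, l i = Fintype.card ι + ld P + ld Q ∧
      ∀ e : ι → ℝ, ∑ i, e i ^ 2 * l i ≤ rt (dg e * Q * dg e * P) := by
  obtain ⟨U, hU, hU', eP⟩ := exists_diag hP.1
  obtain ⟨W, hW, hW', eQ⟩ := exists_diag hQ.1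
  set p := hP.1.eigenvalues
  set q := hQ.1.eigenvalues
  set LP := U * dg (fun i => Real.log (p i)) * Uᴴ with hLP
  set LQ := W * dg (fun i => Real.log (q i)) * Wᴴ with hLQ
  refine ⟨fun i => 1 + (LP i i).re + (LQ i i).re, ?_, fun e => ?_⟩
  · have h1 : ∑ i, (LP i i).re = ld P := by
      have : rt LP = ld P := by
        rw [hLP, rt_mul_comm, ← Matrix.mul_assoc, hU, Matrix.one_mul, rt_dg, ld_posDef hP]
      simpa [rt, trace] using this
    have h2 : ∑ i, (LQ i i).re = ld Q := by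
      have : rt LQ = ld Q := by
        rw [hLQ, rt_mul_comm, ← Matrix.mul_assoc, hW, Matrix.one_mul, rt_dg, ld_posDef hQ]
      simpa [rt, trace] using this
    rw [Finset.sum_add_distrib, Finset.sum_add_distrib, h1, h2]
    simp
  · set M := Wᴴ * dg e * U with hM
    have hMH : Mᴴ = Uᴴ * dg e * W := by
      rw [hM, conjTranspose_mul, conjTranspose_mul, dg_conjTranspose, conjTranspose_conjTranspose,
        Matrix.mul_assoc]
    have key : ∀ a b : ι → ℝ, rt (dg e * (W * dg b * Wᴴ) * dg e * (U * dg a * Uᴴ)) =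
        ∑ i, ∑ j, ‖M j i‖ ^ 2 * (b j * a i) := by
      intro a b
      rw [← rt_quad, hMH, hM, show dg e * (W * dg b * Wᴴ) * dg e * (U * dg a * Uᴴ) =
        (dg e * W * dg b * (Wᴴ * dg e * U) * dg a) * Uᴴ by simp only [Matrix.mul_assoc],
        rt_mul_comm]
      simp only [Matrix.mul_assoc]
    have k0 := key (fun _ => 1) (fun _ => 1)
    have k1 := key (fun i => Real.log (p i)) (fun _ => 1)
    have k2 := key (fun _ => 1) (fun i => Real.log (q i))
    have k3 := key p q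
    rw [← eP, ← eQ] at k3
    rw [dg_one, Matrix.mul_one, Matrix.mul_one, hU', hW', Matrix.mul_one, Matrix.mul_one,
      dg_mul_dg, rt_dg] at k0
    rw [dg_one, Matrix.mul_one, hW', Matrix.mul_one, dg_mul_dg, ← hLP, rt_dg_mul] at k1
    rw [dg_one, Matrix.mul_one, hU', Matrix.mul_one, ← hLQ, rt_mul_comm, ← Matrix.mul_assoc,
      dg_mul_dg, rt_dg_mul] at k2
    rw [k3]
    have : ∑ i, e i ^ 2 * (1 + (LP i i).re + (LQ i i).re) =
        ∑ i, e i * e i + ∑ i, e i * e i * (LP i i).re + ∑ i, e i * e i * (LQ i i).re := by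
      rw [← Finset.sum_add_distrib, ← Finset.sum_add_distrib]
      exact Finset.sum_congr rfl fun i _ => by ring
    rw [this, k0, k1, k2, ← Finset.sum_add_distrib, ← Finset.sum_add_distrib]
    refine Finset.sum_le_sum fun i _ => ?_
    rw [← Finset.sum_add_distrib, ← Finset.sum_add_distrib]
    refine Finset.sum_le_sum fun j _ => ?_
    have hp := hP.eigenvalues_pos i
    have hq := hQ.eigenvalues_pos j
    have h1 := Real.log_le_sub_one_of_pos (mul_pos hq hp)
    rw [Real.log_mul hq.ne' hp.ne'] at h1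
    have h2 := sq_nonneg ‖M j i‖
    nlinarith

theorem exists_simul {L F : Matrix ι ι ℂ} (hL : L.PosDef) (hF : F.IsHermitian) :
    ∃ (T : Matrix ι ι ℂ) (b : ι → ℝ), T.det ≠ 0 ∧ T * L * Tᴴ = 1 ∧ T * F * Tᴴ = dg b := by
  obtain ⟨S, hS⟩ := exists_factor hL.inv.posSemidef
  have hLu : IsUnit L.det := Ne.isUnit (det_ne_zero hL)
  have h1 : Sᴴ * L * S = 1 := by
    have : S * (Sᴴ * L) = 1 := by rw [← Matrix.mul_assoc, ← hS, nonsing_inv_mul _ hLu]
    exact mul_eq_one_comm.1 this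
  have hB : (Sᴴ * F * S).IsHermitian := isHermitian_conjTranspose_mul_mul S hF
  obtain ⟨U, hU, -, eB⟩ := exists_diag hB
  have h2 : Uᴴ * Sᴴ * L * (Uᴴ * Sᴴ)ᴴ = 1 := by
    rw [conjTranspose_mul, conjTranspose_conjTranspose, conjTranspose_conjTranspose,
      show Uᴴ * Sᴴ * L * (S * U) = Uᴴ * (Sᴴ * L * S) * U by simp only [Matrix.mul_assoc], h1,
      Matrix.mul_one, hU]
  refine ⟨Uᴴ * Sᴴ, hB.eigenvalues, ?_, h2, ?_⟩
  · intro h
    have := congrArg det h2
    rw [det_mul, det_mul, h] at this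
    simp at this
  · rw [conjTranspose_mul, conjTranspose_conjTranspose, conjTranspose_conjTranspose,
      show Uᴴ * Sᴴ * F * (S * U) = Uᴴ * (Sᴴ * F * S) * U by simp only [Matrix.mul_assoc]]
    conv_lhs => rw [eB]
    rw [show Uᴴ * (U * dg hB.eigenvalues * Uᴴ) * U = (Uᴴ * U) * dg hB.eigenvalues * (Uᴴ * U) by
      simp only [Matrix.mul_assoc], hU, Matrix.one_mul, Matrix.mul_one]

theorem integral_inv_sq {b : ℝ} (h₁ : 0 < 1 - b) (h₂ : 0 < 1 + b) :
    ∫ s in (-1 : ℝ)..1, (√(1 - b ^ 2) / (1 - s * b)) ^ 2 = 2 := by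
  have hb : 0 < 1 - b ^ 2 := by nlinarith
  have hpos : ∀ s ∈ Icc (-1 : ℝ) 1, 0 < 1 - s * b := by
    intro s hs
    rcases le_total 0 b with h | h
    · nlinarith [hs.2]
    · nlinarith [hs.1]
  have : ∀ s ∈ uIcc (-1 : ℝ) 1, HasDerivAt (fun s => (1 - b ^ 2) * (s / (1 - s * b)))
      ((√(1 - b ^ 2) / (1 - s * b)) ^ 2) s := by
    intro s hs
    rw [uIcc_of_le (by norm_num)] at hs
    have h := (((hasDerivAt_id s).div (((hasDerivAt_id s).mul_const b).const_sub 1)
      (hpos s hs).ne')).const_mul (1 - b ^ 2)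
    refine h.congr_deriv ?_
    have := hpos s hs
    rw [div_pow, Real.sq_sqrt hb.le]
    simp only [id]
    field_simp
    ring
  rw [intervalIntegral.integral_eq_sub_of_hasDerivAt this]
  · rw [show 1 - -1 * b = 1 + b by ring, one_mul, show 1 - b ^ 2 = (1 - b) * (1 + b) by ring]
    field_simp
    ring
  · apply ContinuousOn.intervalIntegrable_of_Icc (by norm_num)
    exact (continuousOn_const.div (by fun_prop) fun s hs => (hpos s hs).ne').pow 2

/-- Inequality (1). -/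
theorem ineq1 {L F V : Matrix ι ι ℂ} (h₁ : (L - F).PosDef) (h₂ : (L + F).PosDef)
    (hV : V.PosDef) :
    2 * (Fintype.card ι + ld V - ld (L - F) - ld (L + F)) ≤ gV L F V := by
  obtain ⟨T, b, hT, hTL, hTF⟩ := exists_simul (L_posDef h₁ h₂) (F_herm h₁ h₂)
  have hT' : Tᴴ.det ≠ 0 := by rw [det_conjTranspose]; exact star_ne_zero.2 hT
  have hZ : ∀ s : ℝ, T * (L - s • F) * Tᴴ = dg fun i => 1 - s * b i := by
    intro s
    rw [Matrix.mul_sub, Matrix.sub_mul, Matrix.mul_smul, Matrix.smul_mul, hTL, hTF, smul_dg,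
      ← dg_one, dg_sub]
  have hpos : ∀ s ∈ Icc (-1 : ℝ) 1, ∀ i, 0 < 1 - s * b i := by
    intro s hs i
    have := posDef_conj (Z_posDef h₁ h₂ hs) hT
    rw [hZ s] at this
    have := (posDef_diagonal_iff.1 this) i
    exact_mod_cast this
  have hb1 : ∀ i, 0 < 1 - b i := fun i => by simpa using hpos 1 (by simp) i
  have hb2 : ∀ i, 0 < 1 + b i := fun i => by simpa using hpos (-1) (by simp) i
  have hb : ∀ i, 0 < 1 - b i ^ 2 := fun i => by nlinarith [hb1 i, hb2 i]
  have hR : ∀ s ∈ Icc (-1 : ℝ) 1, Rs L F s = Tᴴ * dg (fun i => (1 - s * b i)⁻¹) * T := by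
    intro s hs
    rw [← dg_inv fun i => (hpos s hs i).ne', ← hZ s, Matrix.mul_inv_rev, Matrix.mul_inv_rev,
      ← Matrix.mul_assoc, mul_nonsing_inv _ (Ne.isUnit hT'), Matrix.one_mul, Matrix.mul_assoc,
      nonsing_inv_mul _ (Ne.isUnit hT), Matrix.mul_one, Rs]
  set D : Matrix ι ι ℂ := dg fun i => (√(1 - b i ^ 2))⁻¹ with hD
  have hDp : D.PosDef := dg_posDef fun i => inv_pos.2 (Real.sqrt_pos.2 (hb i))
  have hP : (T * Tᴴ).PosDef := by simpa using posDef_conj PosDef.one hT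
  have hQ : (D * (T * V * Tᴴ) * D).PosDef := by
    have := posDef_conj (posDef_conj hV hT) (det_ne_zero hDp)
    rwa [hDp.1.eq] at this
  obtain ⟨l, hl, hle⟩ := exists_ds hP hQ
  have key : ∀ s ∈ Icc (-1 : ℝ) 1, ∑ i, (√(1 - b i ^ 2) / (1 - s * b i)) ^ 2 * l i ≤
      rt (Rs L F s * V * Rs L F s) := by
    intro s hs
    refine (hle _).trans (le_of_eq ?_)
    have e1 : dg (fun i => √(1 - b i ^ 2) / (1 - s * b i)) * D = dg fun i => (1 - s * b i)⁻¹ := by
      rw [hD, dg_mul_dg]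
      congr 1
      funext i
      have := Real.sqrt_pos.2 (hb i)
      field_simp
    have e2 : D * dg (fun i => √(1 - b i ^ 2) / (1 - s * b i)) = dg fun i => (1 - s * b i)⁻¹ := by
      rw [hD, dg_mul_dg]
      congr 1
      funext i
      have := Real.sqrt_pos.2 (hb i)
      field_simp
    rw [hR s hs, show ∀ E : Matrix ι ι ℂ, E * (D * (T * V * Tᴴ) * D) * E * (T * Tᴴ) =
      ((E * D) * (T * V * Tᴴ) * (D * E) * T) * Tᴴ from fun E => by simp only [Matrix.mul_assoc],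
      e1, e2, rt_mul_comm]
    simp only [Matrix.mul_assoc]
  have hii : ∀ i, IntervalIntegrable (fun s => (√(1 - b i ^ 2) / (1 - s * b i)) ^ 2 * l i)
      volume (-1) 1 := fun i => by
    apply ContinuousOn.intervalIntegrable_of_Icc (by norm_num)
    exact ((continuousOn_const.div (by fun_prop) fun s hs => (hpos s hs i).ne').pow 2).mul
      continuousOn_const
  have h3 := intervalIntegral.integral_mono_on (by norm_num)
    (IntervalIntegrable.sum Finset.univ fun i _ => hii i) (ii_rt_Rs h₁ h₂ V)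
    (fun s hs => by rw [Finset.sum_apply]; exact key s hs)
  simp only [Finset.sum_apply] at h3
  rw [intervalIntegral.integral_finsetSum fun i _ => hii i] at h3
  simp only [intervalIntegral.integral_mul_const, integral_inv_sq (hb1 _) (hb2 _)] at h3
  rw [← Finset.mul_sum, hl] at h3
  refine le_trans (le_of_eq ?_) h3
  have e1 := congrArg ld (hZ 1)
  have e2 := congrArg ld (hZ (-1))
  rw [one_smul, ld_mul (by rw [det_mul]; exact mul_ne_zero hT (det_ne_zero h₁)) hT',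
    ld_mul hT (det_ne_zero h₁), ld_dg (hpos 1 (by simp))] at e1
  rw [neg_smul, one_smul, sub_neg_eq_add,
    ld_mul (by rw [det_mul]; exact mul_ne_zero hT (det_ne_zero h₂)) hT',
    ld_mul hT (det_ne_zero h₂), ld_dg (hpos (-1) (by simp))] at e2
  have hTV := posDef_conj hV hT
  have e3 : 2 * ld D = -(∑ i, Real.log (1 - 1 * b i) + ∑ i, Real.log (1 - -1 * b i)) := by
    rw [hD, ld_dg fun i => inv_pos.2 (Real.sqrt_pos.2 (hb i)), Finset.mul_sum,
      ← Finset.sum_add_distrib, ← Finset.sum_neg_distrib]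
    refine Finset.sum_congr rfl fun i _ => ?_
    rw [Real.log_inv, Real.log_sqrt (hb i).le,
      ← Real.log_mul (hpos 1 (by simp) i).ne' (hpos (-1) (by simp) i).ne',
      show (1 - 1 * b i) * (1 - -1 * b i) = 1 - b i ^ 2 by ring]
    ring
  rw [ld_mul hT hT',
    ld_mul (by rw [det_mul]; exact mul_ne_zero (det_ne_zero hDp) (det_ne_zero hTV))
      (det_ne_zero hDp), ld_mul (det_ne_zero hDp) (det_ne_zero hTV),
    ld_mul (by rw [det_mul]; exact mul_ne_zero hT (det_ne_zero hV)) hT',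
    ld_mul hT (det_ne_zero hV)]
  linarith

/-- Inequality (2). -/
theorem ineq2 {L F : Matrix ι ι ℂ} (h₁ : (L - F).PosDef) (h₂ : (L + F).PosDef) :
    gV L F (L * L - F * F) ≤ 2 * Fintype.card ι := by
  have hF := F_herm h₁ h₂
  have hd : ∀ s ∈ Icc (-1 : ℝ) 1, HasDerivAt
      (fun s => Fintype.card ι * s - (1 - s ^ 2) * rt (Rs L F s * F))
      (Fintype.card ι + 2 * s * rt (Rs L F s * F) -
        (1 - s ^ 2) * rt (Rs L F s * F * Rs L F s * F)) s := by
    intro s hs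
    have a1 := hd_rt (hd_mul (hd_Rs (Z_posDef h₁ h₂ hs)) (hd_const F s))
    have a2 := ((hasDerivAt_id s).const_mul (Fintype.card ι : ℝ)).sub
      (((hasDerivAt_pow 2 s).const_sub 1).mul a1)
    refine a2.congr_deriv ?_
    simp
    ring
  have := intervalIntegral.integral_le_sub_of_hasDeriv_right_of_le (by norm_num : (-1 : ℝ) ≤ 1)
    (fun s hs => (hd s hs).continuousAt.continuousWithinAt)
    (fun s hs => (hd s (Ioo_subset_Icc_self hs)).hasDerivWithinAt)
    ((continuousOn_rt_Rs h₁ h₂ (L * L - F * F)).integrableOn_Icc) ?_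
  · refine this.trans (le_of_eq ?_)
    ring
  intro s hs
  have hZ := Z_posDef h₁ h₂ (Ioo_subset_Icc_self hs)
  have hZu : IsUnit (L - s • F).det := Ne.isUnit (det_ne_zero hZ)
  set R := Rs L F s with hR
  have hRH : Rᴴ = R := hZ.inv.1.eq
  have e1 : R * L = 1 + s • (R * F) := by
    have := nonsing_inv_mul _ hZu
    rw [Matrix.mul_sub, Matrix.mul_smul] at this
    rw [← this, hR, Rs, sub_add_cancel]
  have e2 : L * R = 1 + s • (F * R) := by
    have := mul_nonsing_inv _ hZu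
    rw [Matrix.sub_mul, Matrix.smul_mul] at this
    rw [← this, hR, Rs, sub_add_cancel]
  have e3 : R * (L * L - F * F) * R = (R * L) * (L * R) - R * F * (F * R) := by
    simp only [Matrix.mul_sub, Matrix.sub_mul, Matrix.mul_assoc]
  have h4 := hs2_nonneg (F * R - R * F)
  rw [hs2_eq, conjTranspose_sub, conjTranspose_mul, conjTranspose_mul, hRH, hF.eq] at h4
  simp only [Matrix.mul_sub, Matrix.sub_mul, rt_sub] at h4
  have c1 : rt (F * R * (F * R)) = rt (R * F * R * F) := by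
    rw [← Matrix.mul_assoc, rt_mul_comm]; simp only [Matrix.mul_assoc]
  have c2 : rt (F * R * (R * F)) = rt (R * F * (F * R)) := rt_mul_comm _ _
  have c3 : rt (R * F * (R * F)) = rt (R * F * R * F) := by simp only [Matrix.mul_assoc]
  rw [e3, e1, e2]
  simp only [Matrix.mul_add, Matrix.add_mul, Matrix.one_mul, Matrix.mul_one, Matrix.mul_smul,
    Matrix.smul_mul, rt_sub, rt_add, rt_smul, rt_one, rt_mul_comm F R]
  have hs2 : 0 ≤ 1 - s ^ 2 := by nlinarith [hs.1, hs.2]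
  have h5 : rt (R * F * R * F) ≤ rt (R * F * (F * R)) := by linarith
  nlinarith [mul_le_mul_of_nonneg_left h5 hs2]

theorem hs2_comm_dg (l : ι → ℝ) (R : Matrix ι ι ℂ) :
    hs2 (dg l * R - R * dg l) = ∑ i, ∑ j, ‖R i j‖ ^ 2 * (l i - l j) ^ 2 := by
  simp only [hs2, dg, Matrix.sub_apply, diagonal_mul, mul_diagonal]
  refine Finset.sum_congr rfl fun i _ => Finset.sum_congr rfl fun j _ => ?_
  rw [show (l i : ℂ) * R i j - R i j * l j = R i j * ((l i - l j : ℝ) : ℂ) by push_cast; ring,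
    norm_mul, mul_pow, Complex.norm_real, Real.norm_eq_abs, sq_abs]

/-- Inequality (3), with its slack. -/
theorem ineq3 {l : ι → ℝ} {F : Matrix ι ι ℂ} {b : ℝ} (hb : 0 < b) (hl : ∀ i, 0 < l i)
    (hlb : ∀ i, l i ≤ b) (h₁ : (dg l - F).PosDef) (h₂ : (dg l + F).PosDef) :
    gV (dg l) F 1 + hs2 (dg l * F - F * dg l) / (48 * b ^ 6) ≤
      rt ((dg l - F)⁻¹ * (dg l)⁻¹) + rt ((dg l + F)⁻¹ * (dg l)⁻¹) := by
  set L : Matrix ι ι ℂ := dg l with hL
  set C := hs2 (L * F - F * L) with hC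
  have hd : ∀ s ∈ Icc (-1 : ℝ) 1, HasDerivAt
      (fun s => s * rt (Rs L F s * L⁻¹) - s ^ 3 * (C / (96 * b ^ 6)))
      (rt (Rs L F s * L⁻¹) + s * rt (Rs L F s * F * Rs L F s * L⁻¹) -
        s ^ 2 * (C / (32 * b ^ 6))) s := by
    intro s hs
    have a1 := hd_rt (hd_mul (hd_Rs (Z_posDef h₁ h₂ hs)) (hd_const L⁻¹ s))
    have a2 := ((hasDerivAt_id s).mul a1).sub ((hasDerivAt_pow 3 s).mul_const (C / (96 * b ^ 6)))
    refine a2.congr_deriv ?_
    simp
    ring
  have := intervalIntegral.integral_le_sub_of_hasDeriv_right_of_le (by norm_num : (-1 : ℝ) ≤ 1)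
    (fun s hs => (hd s hs).continuousAt.continuousWithinAt)
    (fun s hs => (hd s (Ioo_subset_Icc_self hs)).hasDerivWithinAt)
    ((continuousOn_rt_Rs h₁ h₂ 1).integrableOn_Icc) ?_
  · simp only [Rs, one_smul, neg_smul, sub_neg_eq_add] at this
    have e : C / (48 * b ^ 6) = 2 * (C / (96 * b ^ 6)) := by field_simp; ring
    rw [e]
    simp only [gV, Rs]
    linarith
  intro s hs
  have hZ := Z_posDef h₁ h₂ (Ioo_subset_Icc_self hs)
  have hZu : IsUnit (L - s • F).det := Ne.isUnit (det_ne_zero hZ)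
  set R := Rs L F s with hR
  have hRH : Rᴴ = R := hZ.inv.1.eq
  have e1 : R * (L - s • F) = 1 := nonsing_inv_mul _ hZu
  have e2 : (L - s • F) * R = 1 := mul_nonsing_inv _ hZu
  have e3 : R * L * R = R + s • (R * F * R) := by
    have : R * (L - s • F) * R = R := by rw [e1, Matrix.one_mul]
    rw [Matrix.mul_sub, Matrix.sub_mul, Matrix.mul_smul, Matrix.smul_mul] at this
    rw [eq_add_of_sub_eq this]
  have e4 : rt (R * L⁻¹) + s * rt (R * F * R * L⁻¹) = rt (Rᴴ * L * R * L⁻¹) := by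
    rw [hRH, e3, Matrix.add_mul, Matrix.smul_mul, rt_add, rt_smul]
  have e5 : s • (L * F - F * L) = (L - s • F) * (L * R - R * L) * (L - s • F) := by
    rw [Matrix.mul_sub (L - s • F), ← Matrix.mul_assoc (L - s • F) R, e2, Matrix.sub_mul,
      Matrix.mul_assoc, Matrix.mul_assoc L, e1]
    simp only [Matrix.mul_sub, Matrix.sub_mul, Matrix.mul_smul, Matrix.smul_mul, Matrix.mul_one,
      Matrix.one_mul, smul_sub]
    abel
  have hbL : (b • (1 : Matrix ι ι ℂ) - L).PosSemidef := by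
    rw [hL, smul_one_eq_dg, dg_sub]
    exact dg_posSemidef fun i => sub_nonneg.2 (hlb i)
  have hb1 : ((2 * b) • (1 : Matrix ι ι ℂ) - (L - s • F)).PosSemidef := by
    have := (hbL.smul (show (0 : ℝ) ≤ 2 by norm_num)).add
      (Z_posDef h₁ h₂ (s := -s) ⟨by linarith [hs.2], by linarith [hs.1]⟩).posSemidef
    convert this using 1
    ext i j; simp; ring
  have hb2 : ((2 * b) • (1 : Matrix ι ι ℂ) + (L - s • F)).PosSemidef :=
    (PosSemidef.one.smul (show (0 : ℝ) ≤ 2 * b by positivity)).add hZ.posSemidef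
  have h6 := hs2_conj_le (A := L * R - R * L) (by positivity) hb1 hb2
  rw [← e5, hs2_smul, ← hC, hL, hs2_comm_dg] at h6
  rw [e4, Matrix.mul_one, hL, dg_inv fun i => (hl i).ne', rt_quad]
  have e6 : rt (R * R) = ∑ i, ∑ j, ‖R i j‖ ^ 2 := by
    have := hs2_eq R
    rw [hRH] at this
    rw [← this]
    rfl
  have hsym : ∀ i j, ‖R j i‖ = ‖R i j‖ := fun i j => by
    rw [← hRH, conjTranspose_apply, norm_star, hRH]
  have e7 : ∑ i, ∑ j, ‖R j i‖ ^ 2 * (l j * (l i)⁻¹) = ∑ i, ∑ j, ‖R i j‖ ^ 2 * (l i * (l j)⁻¹) :=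
    Finset.sum_comm
  have h8 : 2 * ∑ i, ∑ j, ‖R i j‖ ^ 2 + (∑ i, ∑ j, ‖R i j‖ ^ 2 * (l i - l j) ^ 2) / b ^ 2 ≤
      ∑ i, ∑ j, ‖R j i‖ ^ 2 * (l j * (l i)⁻¹) + ∑ i, ∑ j, ‖R i j‖ ^ 2 * (l i * (l j)⁻¹) := by
    simp only [Finset.mul_sum, Finset.sum_div, ← Finset.sum_add_distrib]
    refine Finset.sum_le_sum fun i _ => Finset.sum_le_sum fun j _ => ?_
    rw [hsym i j]
    have hi := hl i
    have hj := hl j
    have h9 : (l i - l j) ^ 2 / b ^ 2 ≤ (l i - l j) ^ 2 / (l i * l j) :=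
      div_le_div_of_nonneg_left (sq_nonneg _) (mul_pos hi hj)
        (by nlinarith [mul_le_mul (hlb i) (hlb j) hj.le hb.le])
    have h10 : (l i - l j) ^ 2 / (l i * l j) = l j * (l i)⁻¹ + l i * (l j)⁻¹ - 2 := by
      field_simp; ring
    have h11 := mul_le_mul_of_nonneg_left (h9.trans_eq h10) (sq_nonneg ‖R i j‖)
    rw [mul_div_assoc]
    linarith
  rw [e6]
  rw [← e7] at h8
  have h12 : s ^ 2 * (C / (32 * b ^ 6)) ≤
      (∑ i, ∑ j, ‖R i j‖ ^ 2 * (l i - l j) ^ 2) / b ^ 2 / 2 := by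
    rw [mul_div_assoc', div_div, div_le_div_iff₀ (by positivity) (by positivity)]
    have := mul_le_mul_of_nonneg_right h6 (show 0 ≤ b ^ 2 * 2 by positivity)
    refine this.trans (le_of_eq ?_)
    ring
  linarith

end Crest.Agent.R332.Act
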