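import Crest.Agent.R332.ActRes

/-!
# Action inequality, part 4: the inequality at a fixed value of the parameter `τ`
-/

set_option autoImplicit false
set_option linter.unusedSectionVars false

open MeasureTheory Matrix Filter Topology Set
open scoped ComplexOrder

namespace Crest.Agent.R332.Act

variable {ι : Type*} [Fintype ι] [DecidableEq ι]

/-- `L = (K² + τ)^{1/2}`. -/
noncomputable def Lt (κ : ι → ℝ) (τ : ℝ) : Matrix ι ι ℂ := dg fun i => √(κ i ^ 2 + τ)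

/-- `ω = log det (L - F) + log det (L + F)`. -/
noncomputable def om (κ : ι → ℝ) (F : Matrix ι ι ℂ) (τ : ℝ) : ℝ :=
  ld (Lt κ τ - F) + ld (Lt κ τ + F)

/-- `2 dω/dτ`. -/
noncomputable def om' (κ : ι → ℝ) (F : Matrix ι ι ℂ) (τ : ℝ) : ℝ :=
  rt ((Lt κ τ - F)⁻¹ * (Lt κ τ)⁻¹) + rt ((Lt κ τ + F)⁻¹ * (Lt κ τ)⁻¹)

theorem lt_sqrt {k τ : ℝ} (hτ : 0 < τ) : k < √(k ^ 2 + τ) :=
  Real.lt_sqrt_of_sq_lt (by linarith)

theorem sqrt_pos' {k τ : ℝ} (hτ : 0 < τ) : 0 < √(k ^ 2 + τ) :=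
  Real.sqrt_pos.2 (by positivity)

theorem Lt_sub_posDef {κ : ι → ℝ} {F : Matrix ι ι ℂ} {τ : ℝ} (hτ : 0 < τ)
    (h : (dg κ - F).PosSemidef) : (Lt κ τ - F).PosDef := by
  have := (dg_posDef (a := fun i => √(κ i ^ 2 + τ) - κ i)
    fun i => sub_pos.2 (lt_sqrt hτ)).add_posSemidef h
  rwa [← dg_sub, sub_add_sub_cancel] at this

theorem Lt_add_posDef {κ : ι → ℝ} {F : Matrix ι ι ℂ} {τ : ℝ} (hτ : 0 < τ)
    (h : (dg κ + F).PosSemidef) : (Lt κ τ + F).PosDef := by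
  have := Lt_sub_posDef (F := -F) hτ (by rwa [sub_neg_eq_add])
  rwa [sub_neg_eq_add] at this

theorem Lt_mul_Lt (κ : ι → ℝ) {τ : ℝ} (hτ : 0 < τ) :
    Lt κ τ * Lt κ τ = τ • (1 : Matrix ι ι ℂ) + dg κ * dg κ := by
  rw [Lt, dg_mul_dg, dg_mul_dg, smul_one_eq_dg, dg_add]
  congr 1
  funext i
  rw [Real.mul_self_sqrt (by positivity)]
  ring

theorem hd_Lt (κ : ι → ℝ) {τ : ℝ} (hτ : 0 < τ) :
    HasDerivAt (Lt κ) ((1 / 2 : ℝ) • (Lt κ τ)⁻¹) τ := by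
  rw [Lt, dg_inv fun i => (sqrt_pos' hτ).ne', smul_dg]
  refine hd_dg fun i => ?_
  have h := ((hasDerivAt_id τ).const_add (κ i ^ 2)).sqrt (by simp only [id]; positivity)
  refine h.congr_deriv ?_
  simp only [id]
  field_simp

theorem hd_om {κ : ι → ℝ} {F : Matrix ι ι ℂ} {τ : ℝ} (hτ : 0 < τ)
    (h₁ : (dg κ - F).PosSemidef) (h₂ : (dg κ + F).PosSemidef) :
    HasDerivAt (om κ F) (om' κ F τ / 2) τ := by
  have a1 := hd_ld (hd_sub (hd_Lt κ hτ) (hd_const F τ)) (det_ne_zero (Lt_sub_posDef hτ h₁))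
  have a2 := hd_ld (hd_add (hd_Lt κ hτ) (hd_const F τ)) (det_ne_zero (Lt_add_posDef hτ h₂))
  refine (a1.add a2).congr_deriv ?_
  rw [sub_zero, add_zero, Matrix.mul_smul, Matrix.mul_smul, rt_smul, rt_smul, om']
  ring

/-- The slack of inequality (1). -/
noncomputable def S1 (κ : ι → ℝ) (F : Matrix ι ι ℂ) (τ : ℝ) (W : Matrix ι ι ℂ) : ℝ :=
  gV (Lt κ τ) F W - 2 * (Fintype.card ι + ld W - om κ F τ)

theorem S1_nonneg {κ : ι → ℝ} {F W : Matrix ι ι ℂ} {τ : ℝ} (hτ : 0 < τ)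
    (h₁ : (dg κ - F).PosSemidef) (h₂ : (dg κ + F).PosSemidef) (hW : W.PosDef) :
    0 ≤ S1 κ F τ W := by
  have := ineq1 (Lt_sub_posDef hτ h₁) (Lt_add_posDef hτ h₂) hW
  simp only [S1, om]
  linarith

/-- The slack of inequality (3). -/
noncomputable def S3 (κ : ι → ℝ) (F : Matrix ι ι ℂ) (τ : ℝ) : ℝ :=
  om' κ F τ - gV (Lt κ τ) F 1

theorem S3_ge {κ : ι → ℝ} {F : Matrix ι ι ℂ} {τ b : ℝ} (hτ : 0 < τ) (hb : 0 < b)
    (hlb : ∀ i, √(κ i ^ 2 + τ) ≤ b)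
    (h₁ : (dg κ - F).PosSemidef) (h₂ : (dg κ + F).PosSemidef) :
    hs2 (Lt κ τ * F - F * Lt κ τ) / (48 * b ^ 6) ≤ S3 κ F τ := by
  have := ineq3 hb (fun i => sqrt_pos' hτ) hlb (Lt_sub_posDef hτ h₁) (Lt_add_posDef hτ h₂)
  simp only [S3, om', Lt]
  linarith

theorem S3_nonneg {κ : ι → ℝ} {F : Matrix ι ι ℂ} {τ : ℝ} (hτ : 0 < τ)
    (h₁ : (dg κ - F).PosSemidef) (h₂ : (dg κ + F).PosSemidef) : 0 ≤ S3 κ F τ := by
  have hb : 0 < 1 + ∑ i, √(κ i ^ 2 + τ) := by positivity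
  refine le_trans ?_ (S3_ge hτ hb (fun i => ?_) h₁ h₂)
  · exact div_nonneg (hs2_nonneg _) (by positivity)
  · have := Finset.single_le_sum (f := fun i => √(κ i ^ 2 + τ)) (fun i _ => Real.sqrt_nonneg _)
      (Finset.mem_univ i)
    linarith

/-- The main inequality at fixed `τ`; `θ = α / (1 + α)`, `w = θ V`, `x = K² - F²`. -/
theorem tau_main {κ : ι → ℝ} {F V : Matrix ι ι ℂ} {τ θ : ℝ} (hτ : 0 < τ) (hθ : 0 ≤ θ)
    (h₁ : (dg κ - F).PosSemidef) (h₂ : (dg κ + F).PosSemidef) :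
    θ * (2 * rt (V - (dg κ * dg κ - F * F)) / τ - gV (Lt κ τ) F (V - (dg κ * dg κ - F * F))) +
        (S1 κ F τ (τ • 1 + θ • V) + (1 - θ) * τ * S3 κ F τ) ≤
      2 * (θ * rt V / τ - ld (τ • 1 + θ • V) + om κ F τ - θ * rt (dg κ * dg κ - F * F) / τ) +
        (1 - θ) * (τ * om' κ F τ - 2 * Fintype.card ι) := by
  have hL1 := Lt_sub_posDef hτ h₁
  have hL2 := Lt_add_posDef hτ h₂
  have h2 := ineq2 hL1 hL2
  rw [Lt_mul_Lt κ hτ, add_sub_assoc, gV_add hL1 hL2, gV_smul] at h2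
  rw [S1, S3, gV_add hL1 hL2, gV_smul, gV_smul, gV_sub hL1 hL2 V, rt_sub V]
  have h3 := mul_le_mul_of_nonneg_left h2 hθ
  have e : θ * (2 * (rt V - rt (dg κ * dg κ - F * F)) / τ) =
      2 * (θ * rt V / τ) - 2 * (θ * rt (dg κ * dg κ - F * F) / τ) := by ring
  nlinarith

theorem K_herm_F {κ : ι → ℝ} {F : Matrix ι ι ℂ} (h₁ : (dg κ - F).PosSemidef) : Fᴴ = F := by
  have := h₁.1.eq
  rw [conjTranspose_sub, dg_conjTranspose] at this
  exact sub_right_injective this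

/-- Dimension-free lower bound for the slack. -/
theorem slack_ge {θ k v : ℝ} (hθ : 0 < θ) (hθ1 : θ < 1) (hk : 0 < k) (hv : 0 < v) :
    ∃ c : ℝ, 0 < c ∧ ∀ (ι : Type) [Fintype ι] [DecidableEq ι] (κ : ι → ℝ) (F V : Matrix ι ι ℂ)
      (τ : ℝ), k ^ 2 + 1 ≤ τ → τ ≤ 2 * (k ^ 2 + 1) → (∀ i, 0 < κ i) → (∀ i, κ i ≤ k) →
      V.PosSemidef → (v • (1 : Matrix ι ι ℂ) - V).PosSemidef →
      (dg κ - F).PosSemidef → (dg κ + F).PosSemidef →
      c * (hs2 (dg κ * dg κ * F - F * (dg κ * dg κ)) +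
          hs2 (θ⁻¹ • (dg κ * dg κ - F * F) - V)) ≤
        S1 κ F τ (τ • 1 + θ • V) + (1 - θ) * τ * S3 κ F τ := by
  set b := 2 * (k + 1) with hb
  set B := 2 * (k ^ 2 + 1) + v + k ^ 2 with hB
  set η := (1 - θ) / (96 * b ^ 6) with hη
  have hb1 : 1 ≤ b := by linarith
  have hb0 : 0 < b := by linarith
  have hB0 : 0 < B := by positivity
  have h1θ : 0 < 1 - θ := by linarith
  have hη0 : 0 < η := by positivity
  have hη1 : η ≤ 1 := by
    rw [hη, div_le_one (by positivity)]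
    have : 1 ≤ b ^ 6 := one_le_pow₀ hb1
    linarith
  refine ⟨η * min (θ ^ 2 / (2 * B ^ 2)) (1 / (4 * b ^ 2)), by positivity, ?_⟩
  intro ι _ _ κ F V τ hτ1 hτ2 hκ hκk hV hVv h₁ h₂
  have hτ : 0 < τ := by nlinarith
  have hτ1' : 1 ≤ τ := by nlinarith
  have hF := K_herm_F h₁
  have hL1 := Lt_sub_posDef hτ h₁
  have hL2 := Lt_add_posDef hτ h₂
  set x := dg κ * dg κ - F * F with hx
  set C := Lt κ τ * F - F * Lt κ τ with hC
  have hlb : ∀ i, √(κ i ^ 2 + τ) ≤ b := fun i => by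
    rw [Real.sqrt_le_left hb0.le]
    nlinarith [hκ i, hκk i]
  have hS3 := S3_ge hτ hb0 hlb h₁ h₂
  rw [← hC] at hS3
  have hkK : (k • (1 : Matrix ι ι ℂ) - dg κ).PosSemidef := by
    rw [smul_one_eq_dg, dg_sub]
    exact dg_posSemidef fun i => sub_nonneg.2 (hκk i)
  have hF2 : ((k ^ 2) • (1 : Matrix ι ι ℂ) - F * F).PosSemidef := by
    refine sq_le hk ?_ ?_
    · have := hkK.add h₁
      rwa [sub_add_sub_cancel] at this
    · have := hkK.add h₂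
      rwa [← add_assoc, sub_add_cancel] at this
  have hKK : (dg κ * dg κ : Matrix ι ι ℂ).PosSemidef := by
    rw [dg_mul_dg]; exact dg_posSemidef fun i => mul_self_nonneg _
  have hT1 : (τ • 1 + x - (1 : ℝ) • (1 : Matrix ι ι ℂ)).PosSemidef := by
    have := ((PosSemidef.one.smul (show (0 : ℝ) ≤ τ - (k ^ 2 + 1) by linarith)).add hF2).add hKK
    convert this using 1
    rw [hx]
    ext i j; simp; ring
  have hT : (τ • 1 + x).PosDef := by
    have := (PosDef.one.smul (show (0 : ℝ) < 1 by norm_num)).add_posSemidef hT1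
    rwa [add_sub_cancel] at this
  have hW : (τ • 1 + θ • V : Matrix ι ι ℂ).PosDef :=
    (PosDef.one.smul hτ).add_posSemidef (hV.smul hθ.le)
  -- upper bound for `S1 (τ + x)`
  have hCH : Cᴴ = -C := by
    rw [hC, conjTranspose_sub, conjTranspose_mul, conjTranspose_mul, hF, Lt, dg_conjTranspose,
      neg_sub]
  have eTC : τ • 1 + x + C = (Lt κ τ - F) * (Lt κ τ + F) := by
    rw [hx, hC, Matrix.sub_mul, Matrix.mul_add, Matrix.mul_add, Lt_mul_Lt κ hτ]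
    abel
  have hsk := ld_skew hT hCH (by
    rw [eTC, det_mul]; exact mul_ne_zero (det_ne_zero hL1) (det_ne_zero hL2))
  rw [eTC, ld_mul (det_ne_zero hL1) (det_ne_zero hL2)] at hsk
  have hTi := inv_le one_pos hT1
  have hq1 := quad_le (C := C) (by norm_num) hT.inv.posSemidef hTi hTi
  have h2 := ineq2 hL1 hL2
  rw [Lt_mul_Lt κ hτ, add_sub_assoc, ← hx] at h2
  have hS1x : S1 κ F τ (τ • 1 + x) ≤ hs2 C := by
    simp only [S1, om]
    norm_num at hq1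
    linarith
  -- midpoint
  set M : Matrix ι ι ℂ := τ • 1 + (1 / 2 : ℝ) • (θ • V + x) with hM
  set D : Matrix ι ι ℂ := (1 / 2 : ℝ) • (θ • V - x) with hD
  have eM1 : M - D = τ • 1 + x := by rw [hM, hD]; ext i j; simp; ring
  have eM2 : M + D = τ • 1 + θ • V := by rw [hM, hD]; ext i j; simp; ring
  have hmid := ld_mid (eM1 ▸ hT) (eM2 ▸ hW)
  have hMp : M.PosDef := L_posDef (eM1 ▸ hT) (eM2 ▸ hW)
  have hDH : Dᴴ = D := (F_herm (eM1 ▸ hT) (eM2 ▸ hW)).eq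
  have hMB : (B • (1 : Matrix ι ι ℂ) - M).PosSemidef := by
    have hk2 : ((k ^ 2) • (1 : Matrix ι ι ℂ) - dg κ * dg κ).PosSemidef := by
      rw [smul_one_eq_dg, dg_mul_dg, dg_sub]
      exact dg_posSemidef fun i => by nlinarith [hκ i, hκk i]
    have hFF : (F * F).PosSemidef := by
      have := posSemidef_conjTranspose_mul_self F
      rwa [hF] at this
    have := ((PosSemidef.one.smul
      (show (0 : ℝ) ≤ 2 * (k ^ 2 + 1) - τ + (1 - θ / 2) * v + k ^ 2 / 2 by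
        have : 0 ≤ (1 - θ / 2) * v := mul_nonneg (by linarith) hv.le
        nlinarith)).add (hVv.smul (show (0 : ℝ) ≤ θ / 2 by linarith))).add
      ((hk2.add hFF).smul (show (0 : ℝ) ≤ 1 / 2 by norm_num))
    convert this using 1
    rw [hM, hx, hB]
    ext i j; simp; ring
  have hMi := inv_ge hB0 hMp hMB
  have hq2 := quad_ge (C := D) (by positivity) hMp.inv.posSemidef hMi hMi
  rw [hDH] at hq2
  have hSM := S1_nonneg hτ h₁ h₂ hMp
  have hg : gV (Lt κ τ) F (τ • 1 + x) + gV (Lt κ τ) F (τ • 1 + θ • V) =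
      2 * gV (Lt κ τ) F M := by
    rw [← eM1, ← eM2, gV_sub hL1 hL2 M D, gV_add hL1 hL2 M D]
    ring
  have hS1w : 2 * (B⁻¹ * B⁻¹ * hs2 D) - hs2 C ≤ S1 κ F τ (τ • 1 + θ • V) := by
    rw [eM1, eM2] at hmid
    simp only [S1] at hSM hS1x ⊢
    linarith
  have hS1w0 := S1_nonneg hτ h₁ h₂ hW
  have eD : hs2 D = θ ^ 2 / 4 * hs2 (θ⁻¹ • x - V) := by
    have : D = (-(θ / 2)) • (θ⁻¹ • x - V) := by
      rw [hD]
      ext i j
      have : (θ : ℂ) ≠ 0 := by exact_mod_cast hθ.ne'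
      simp
      field_simp
      ring
    rw [this, hs2_smul]
    ring
  have hcomm : hs2 (dg κ * dg κ * F - F * (dg κ * dg κ)) ≤ 4 * b ^ 2 * hs2 C := by
    rw [hC, Lt, dg_mul_dg, hs2_comm_dg, hs2_comm_dg, Finset.mul_sum]
    refine Finset.sum_le_sum fun i _ => ?_
    rw [Finset.mul_sum]
    refine Finset.sum_le_sum fun j _ => ?_
    have e : κ i * κ i - κ j * κ j =
        (√(κ i ^ 2 + τ) + √(κ j ^ 2 + τ)) * (√(κ i ^ 2 + τ) - √(κ j ^ 2 + τ)) := by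
      have h1 := Real.mul_self_sqrt (show 0 ≤ κ i ^ 2 + τ by positivity)
      have h2 := Real.mul_self_sqrt (show 0 ≤ κ j ^ 2 + τ by positivity)
      linear_combination h2 - h1
    rw [e, mul_pow]
    have h3 : (√(κ i ^ 2 + τ) + √(κ j ^ 2 + τ)) ^ 2 ≤ 4 * b ^ 2 := by
      have := hlb i
      have := hlb j
      have := Real.sqrt_nonneg (κ i ^ 2 + τ)
      have := Real.sqrt_nonneg (κ j ^ 2 + τ)
      nlinarith
    have h4 := mul_le_mul_of_nonneg_right h3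
      (mul_nonneg (sq_nonneg ‖F i j‖) (sq_nonneg (√(κ i ^ 2 + τ) - √(κ j ^ 2 + τ))))
    linarith
  set m := min (θ ^ 2 / (2 * B ^ 2)) (1 / (4 * b ^ 2)) with hm
  have hC0 := hs2_nonneg C
  have hE0 := hs2_nonneg (θ⁻¹ • x - V)
  have hm0 : 0 ≤ m := by positivity
  have a1 : m * hs2 (dg κ * dg κ * F - F * (dg κ * dg κ)) ≤ hs2 C := by
    calc _ ≤ 1 / (4 * b ^ 2) * (4 * b ^ 2 * hs2 C) :=
          mul_le_mul (min_le_right _ _) hcomm (hs2_nonneg _) (by positivity)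
      _ = _ := by field_simp
  have a2 : m * hs2 (θ⁻¹ • x - V) ≤ 2 * (B⁻¹ * B⁻¹ * hs2 D) := by
    calc _ ≤ θ ^ 2 / (2 * B ^ 2) * hs2 (θ⁻¹ • x - V) :=
          mul_le_mul_of_nonneg_right (min_le_left _ _) hE0
      _ = _ := by rw [eD]; field_simp; ring
  have a3 : 2 * η * hs2 C ≤ (1 - θ) * τ * S3 κ F τ := by
    calc 2 * η * hs2 C = (1 - θ) * 1 * (hs2 C / (48 * b ^ 6)) := by rw [hη]; field_simp; ring
      _ ≤ _ := by gcongr
  have a4 : η * S1 κ F τ (τ • 1 + θ • V) ≤ S1 κ F τ (τ • 1 + θ • V) :=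
    mul_le_of_le_one_left hS1w0 hη1
  have a5 := mul_le_mul_of_nonneg_left hS1w hη0.le
  have a6 := mul_le_mul_of_nonneg_left (add_le_add a1 a2) hη0.le
  nlinarith

/-- Behaviour of `ω` for large `τ`. -/
theorem om_le {κ : ι → ℝ} {F : Matrix ι ι ℂ} {τ k : ℝ} (hτ : 0 < τ)
    (hκ : ∀ i, 0 < κ i) (hκk : ∀ i, κ i ≤ k)
    (h₁ : (dg κ - F).PosSemidef) (h₂ : (dg κ + F).PosSemidef) :
    om κ F τ - Fintype.card ι * Real.log τ - rt (dg κ * dg κ - F * F) / τ ≤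
      k ^ 2 * (∑ i, κ i ^ 2) / τ ^ 2 := by
  have hF := K_herm_F h₁
  have hL1 := Lt_sub_posDef hτ h₁
  have hL2 := Lt_add_posDef hτ h₂
  have hmid := ld_mid hL1 hL2
  have hb : 0 < √(k ^ 2 + τ) := sqrt_pos' hτ
  have hLb : (√(k ^ 2 + τ) • (1 : Matrix ι ι ℂ) - Lt κ τ).PosSemidef := by
    rw [smul_one_eq_dg, Lt, dg_sub]
    exact dg_posSemidef fun i => sub_nonneg.2 (Real.sqrt_le_sqrt (by nlinarith [hκ i, hκk i]))
  have hLi := inv_ge hb (L_posDef hL1 hL2) hLb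
  have hq := quad_ge (C := F) (by positivity) (L_posDef hL1 hL2).inv.posSemidef hLi hLi
  rw [hF, ← mul_inv, Real.mul_self_sqrt (by positivity)] at hq
  have h3 : 2 * ld (Lt κ τ) ≤ Fintype.card ι * Real.log τ + (∑ i, κ i ^ 2) / τ := by
    rw [Lt, ld_dg fun i => sqrt_pos' hτ, Finset.mul_sum, Finset.sum_div,
      show (Fintype.card ι : ℝ) * Real.log τ = ∑ _i : ι, Real.log τ by simp,
      ← Finset.sum_add_distrib]
    refine Finset.sum_le_sum fun i _ => ?_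
    rw [Real.log_sqrt (by positivity)]
    have h := Real.log_le_sub_one_of_pos (show 0 < (κ i ^ 2 + τ) / τ by positivity)
    rw [Real.log_div (by positivity) hτ.ne', add_div, div_self hτ.ne'] at h
    linarith
  have eK : rt (dg κ * dg κ) = ∑ i, κ i ^ 2 := by
    rw [dg_mul_dg, rt_dg]; exact Finset.sum_congr rfl fun i _ => by ring
  have eF : rt (F * F) = hs2 F := by rw [hs2_eq, hF]
  have h4 := rt_mul_nonneg h₁ h₂
  rw [Matrix.sub_mul, Matrix.mul_add, Matrix.mul_add, rt_sub, rt_add, rt_add,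
    rt_mul_comm F (dg κ), eK, eF] at h4
  rw [rt_sub, eK, eF, om, sub_div]
  have hF0 := hs2_nonneg F
  have h5 : hs2 F / τ - (k ^ 2 + τ)⁻¹ * hs2 F ≤ k ^ 2 * (∑ i, κ i ^ 2) / τ ^ 2 := by
    have e : hs2 F / τ - (k ^ 2 + τ)⁻¹ * hs2 F = k ^ 2 * hs2 F / (τ * (k ^ 2 + τ)) := by
      field_simp; ring
    rw [e]
    have : hs2 F ≤ ∑ i, κ i ^ 2 := by linarith
    gcongr
    nlinarith [sq_nonneg k]
  linarith

/-- Behaviour of `ω` for small `τ`. -/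
theorem om_ge {κ : ι → ℝ} {F : Matrix ι ι ℂ} {τ k : ℝ} (hτ : 0 < τ) (hτ1 : τ ≤ 1)
    (hκ : ∀ i, 0 < κ i) (hκk : ∀ i, κ i ≤ k)
    (h₁ : (dg κ - F).PosSemidef) (h₂ : (dg κ + F).PosSemidef) :
    -om κ F τ ≤ 2 * Fintype.card ι * (2 * k + 1) / τ := by
  have hP := dg_posDef (a := fun i => √(κ i ^ 2 + τ) - κ i) fun i => sub_pos.2 (lt_sqrt hτ)
  have a1 : ld (dg fun i => √(κ i ^ 2 + τ) - κ i) ≤ ld (Lt κ τ - F) := by
    refine ld_mono hP ?_
    rwa [← dg_sub, Lt, sub_sub_sub_cancel_left]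
  have a2 : ld (dg fun i => √(κ i ^ 2 + τ) - κ i) ≤ ld (Lt κ τ + F) := by
    refine ld_mono hP ?_
    rwa [← dg_sub, Lt, add_sub_sub_cancel, add_comm]
  have a3 : -(Fintype.card ι * (2 * k + 1) / τ) ≤ ld (dg fun i => √(κ i ^ 2 + τ) - κ i) := by
    rw [ld_dg fun i => sub_pos.2 (lt_sqrt hτ),
      show -(Fintype.card ι * (2 * k + 1) / τ) = ∑ _i : ι, -((2 * k + 1) / τ) by simp; ring]
    refine Finset.sum_le_sum fun i _ => ?_
    have hpos : 0 < √(κ i ^ 2 + τ) - κ i := sub_pos.2 (lt_sqrt hτ)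
    have h := Real.one_sub_inv_le_log_of_pos hpos
    have h5 : (√(κ i ^ 2 + τ) - κ i)⁻¹ ≤ (2 * k + 1) / τ := by
      rw [inv_eq_one_div, div_le_div_iff₀ hpos hτ]
      have h6 : √(κ i ^ 2 + τ) ≤ κ i + 1 := by
        rw [Real.sqrt_le_left (by linarith [hκ i])]
        nlinarith [hκ i]
      have h7 := Real.mul_self_sqrt (show 0 ≤ κ i ^ 2 + τ by positivity)
      nlinarith [hκk i]
    linarith
  rw [om, mul_assoc, mul_div_assoc]
  linarith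

end Crest.Agent.R332.Act
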