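import Crest.Agent.R332.ActInt

/-!
# The matrix action inequality (B), with dimension-free deficits  (owner: helper5)

Calibration: `L = (K² + τ)^{1/2}`, `R_s = (L - sF)⁻¹`, `H = ∫ τ^α avg_s (τ⁻¹ - R_s²) dτ` is a
gradient in `F` (so `∫ tr H (-F') dx` only depends on the end points), and it satisfies the
Hamilton–Jacobi inequality `point_ineq`.
-/

set_option autoImplicit false

open MeasureTheory Matrix Filter Topology Set Real
open scoped ComplexOrder

namespace Crest.Agent.R332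

namespace Act

variable {ι : Type*} [Fintype ι] [DecidableEq ι]

theorem swap_cont {f : ℝ → ℝ → ℝ} (hf : Continuous f.uncurry) (a b c d : ℝ) :
    ∫ x in a..b, ∫ y in c..d, f x y = ∫ y in c..d, ∫ x in a..b, f x y :=
  intervalIntegral_intervalIntegral_swap
    ((hf.continuousOn.integrableOn_compact (isCompact_uIcc.prod isCompact_uIcc)).mono_set
      (prod_mono uIoc_subset_uIcc uIoc_subset_uIcc))

theorem g_dg {κ f : ι → ℝ} {τ s : ℝ} (hτ : 0 < τ) (h : ∀ i, √(κ i ^ 2 + τ) - s * f i ≠ 0) :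
    rt (Rs (Lt κ τ) (dg f) s * dg f * (Lt κ τ)⁻¹) =
      ∑ i, (√(κ i ^ 2 + τ) - s * f i)⁻¹ * f i * (√(κ i ^ 2 + τ))⁻¹ := by
  rw [Rs, Lt, smul_dg, dg_sub, dg_inv h, dg_inv fun i => (sqrt_pos' hτ).ne', Act.dg_mul_dg,
    Act.dg_mul_dg, rt_dg]

theorem t_integral (α : ℝ) {κ : ι → ℝ} {F V : ℝ → Matrix ι ι ℂ} {x₀ x₁ τ s : ℝ}
    (hκ : ∀ i, 0 < κ i) (hV : Continuous V)
    (hF : ∀ x, HasDerivAt F (dg κ * dg κ - F x * F x - V x) x) (h₀ : F x₀ = dg κ)
    (h₁ : F x₁ = -dg κ) (hF1 : ∀ x, (dg κ - F x).PosSemidef) (hF2 : ∀ x, (dg κ + F x).PosSemidef)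
    (hτ : 0 < τ) (hs : s ∈ Icc (-1 : ℝ) 1) :
    ∫ x in x₀..x₁, τ ^ α * (rt (V x - (dg κ * dg κ - F x * F x)) / τ -
      rt (Rs (Lt κ τ) (F x) s * (V x - (dg κ * dg κ - F x * F x)) * Rs (Lt κ τ) (F x) s)) =
      ∑ i, 2 * κ i * rpowIntegrand₀₁ α τ (κ i ^ 2 * (1 - s ^ 2)) := by
  have hFc : Continuous F := continuous_iff_continuousAt.2 fun x => hd_continuousAt (hF x)
  have hL1 := fun x => Lt_sub_posDef hτ (hF1 x)
  have hL2 := fun x => Lt_add_posDef hτ (hF2 x)
  have hd : ∀ x, HasDerivAt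
      (fun x => τ ^ α * (-rt (F x) / τ + rt (Rs (Lt κ τ) (F x) s * F x * (Lt κ τ)⁻¹)))
      (τ ^ α * (rt (V x - (dg κ * dg κ - F x * F x)) / τ -
        rt (Rs (Lt κ τ) (F x) s * (V x - (dg κ * dg κ - F x * F x)) * Rs (Lt κ τ) (F x) s))) x := by
    intro x
    have hZ := Z_posDef (hL1 x) (hL2 x) hs
    have a1 := hd_inv (hd_sub (hd_const (Lt κ τ) x) (hd_const_smul s (hF x))) (det_ne_zero hZ)
    have a2 := hd_rt (hd_mul (hd_mul a1 (hF x)) (hd_const (Lt κ τ)⁻¹ x))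
    have a3 := (((hd_rt (hF x)).neg.div_const τ).add a2).const_mul (τ ^ α)
    refine a3.congr_deriv ?_
    congr 1
    set F' := dg κ * dg κ - F x * F x - V x with hF'
    have e0 : V x - (dg κ * dg κ - F x * F x) = -F' := by rw [hF', neg_sub]
    rw [e0, Rs]
    set R := (Lt κ τ - s • F x)⁻¹ with hR
    have e1 : R * Lt κ τ = 1 + s • (R * F x) := by
      have := nonsing_inv_mul _ (Ne.isUnit (det_ne_zero hZ))
      rw [Matrix.mul_sub, Matrix.mul_smul] at this
      rw [← this, hR, sub_add_cancel]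
    have e2 : (-(R * (0 - s • F') * R) * F x + R * F') * (Lt κ τ)⁻¹ = R * F' * R := by
      have : -(R * (0 - s • F') * R) * F x + R * F' = R * F' * (R * Lt κ τ) := by
        rw [e1]
        simp only [zero_sub, Matrix.mul_neg, Matrix.neg_mul, neg_neg, Matrix.mul_smul,
          Matrix.smul_mul, Matrix.mul_add, Matrix.mul_one, Matrix.mul_assoc]
        abel
      rw [this, Matrix.mul_assoc, Matrix.mul_assoc R (Lt κ τ),
        mul_nonsing_inv _ (Ne.isUnit (det_ne_zero (L_posDef (hL1 x) (hL2 x)))), Matrix.mul_one]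
    rw [Matrix.mul_zero, add_zero, e2, Matrix.mul_neg, Matrix.neg_mul, rt_neg, rt_neg]
    ring
  have hR : Continuous fun x => Rs (Lt κ τ) (F x) s :=
    continuous_Rs continuous_const hFc continuous_const hL1 hL2 fun _ => hs
  have hW : Continuous fun x => V x - (dg κ * dg κ - F x * F x) := by fun_prop
  rw [intervalIntegral.integral_eq_sub_of_hasDerivAt (fun x _ => hd x)
    (Continuous.intervalIntegrable (continuous_const.mul (((continuous_rt.comp hW).div_const τ).sub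
      (continuous_rt.comp ((hR.mul hW).mul hR)))) _ _)]
  have hp : ∀ i, 0 < √(κ i ^ 2 + τ) - s * κ i := fun i => by
    have := lt_sqrt (k := κ i) hτ
    nlinarith [hκ i, hs.2]
  have hm : ∀ i, 0 < √(κ i ^ 2 + τ) - s * -κ i := fun i => by
    have := lt_sqrt (k := κ i) hτ
    nlinarith [hκ i, hs.1]
  have e : -dg κ = dg fun i => -κ i := by
    have := smul_dg (-1) κ
    simpa using this
  rw [h₀, h₁, e, g_dg hτ fun i => (hp i).ne', g_dg hτ fun i => (hm i).ne', rt_dg, rt_dg,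
    ← mul_sub, ← Finset.sum_neg_distrib, ← Finset.sum_neg_distrib, Finset.sum_div,
    Finset.sum_div, ← Finset.sum_add_distrib, ← Finset.sum_add_distrib, ← Finset.sum_sub_distrib,
    Finset.mul_sum]
  refine Finset.sum_congr rfl fun i _ => ?_
  have h3 := Real.mul_self_sqrt (show 0 ≤ κ i ^ 2 + τ by positivity)
  have h4 : τ + κ i ^ 2 * (1 - s ^ 2) =
      (√(κ i ^ 2 + τ) - s * κ i) * (√(κ i ^ 2 + τ) - s * -κ i) := by
    linear_combination -h3
  have h5 := hp i
  have h6 := hm i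
  have h7 := sqrt_pos' (k := κ i) hτ
  rw [rpowIntegrand₀₁, h4, mul_inv]
  have e2 : (√(κ i ^ 2 + τ) - s * κ i)⁻¹ + (√(κ i ^ 2 + τ) - s * -κ i)⁻¹ =
      2 * √(κ i ^ 2 + τ) * ((√(κ i ^ 2 + τ) - s * κ i)⁻¹ * (√(κ i ^ 2 + τ) - s * -κ i)⁻¹) := by
    generalize hA : √(κ i ^ 2 + τ) - s * κ i = A at h5 ⊢
    generalize hB : √(κ i ^ 2 + τ) - s * -κ i = B at h6 ⊢
    have : 2 * √(κ i ^ 2 + τ) = A + B := by linarith
    rw [this]
    field_simp
    ring
  have e3 := mul_inv_cancel₀ h7.ne'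
  linear_combination (-τ ^ α * κ i * (√(κ i ^ 2 + τ))⁻¹) * e2 - 2 * τ ^ α * κ i *
    ((√(κ i ^ 2 + τ) - s * κ i)⁻¹ * (√(κ i ^ 2 + τ) - s * -κ i)⁻¹) * e3

theorem triple {α : ℝ} (hα : α ∈ Ioo (0 : ℝ) 1) {κ : ι → ℝ} {F V : ℝ → Matrix ι ι ℂ}
    {x₀ x₁ ε T : ℝ} (hκ : ∀ i, 0 < κ i) (hV : Continuous V)
    (hF : ∀ x, HasDerivAt F (dg κ * dg κ - F x * F x - V x) x) (h₀ : F x₀ = dg κ)
    (h₁ : F x₁ = -dg κ) (hF1 : ∀ x, (dg κ - F x).PosSemidef) (hF2 : ∀ x, (dg κ + F x).PosSemidef)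
    (hε : 0 < ε) (hεT : ε ≤ T) :
    (Continuous fun x => ∫ τ in ε..T, Qf α κ (F x) (V x) τ) ∧
      2 * cI α * ((∑ i, κ i ^ (2 * α + 1)) * Ia α) -
        (∑ i, 4 * κ i * (ε ^ α / α + κ i ^ 2 * T ^ (α - 1) / (1 - α))) ≤
      ∫ x in x₀..x₁, ∫ τ in ε..T, Qf α κ (F x) (V x) τ := by
  have hFc : Continuous F := continuous_iff_continuousAt.2 fun x => hd_continuousAt (hF x)
  have hm : ∀ τ : ℝ, 0 < max τ ε := fun τ => hε.trans_le (le_max_right _ _)
  set H : ℝ → ℝ → ℝ → ℝ := fun x τ s => (max τ ε) ^ α *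
    (rt (V x - (dg κ * dg κ - F x * F x)) / max τ ε -
      rt (Rs (Lt κ (max τ ε)) (F x) (cl s) * (V x - (dg κ * dg κ - F x * F x)) *
        Rs (Lt κ (max τ ε)) (F x) (cl s))) with hH
  have hHc : Continuous fun q : (ℝ × ℝ) × ℝ => H q.1.1 q.1.2 q.2 := by
    have hR : Continuous fun q : (ℝ × ℝ) × ℝ =>
        Rs (Lt κ (max q.1.2 ε)) (F q.1.1) (cl q.2) :=
      continuous_Rs ((continuous_Lt κ).comp (by fun_prop)) (by fun_prop)
        (continuous_cl.comp continuous_snd) (fun q => Lt_sub_posDef (hm _) (hF1 _))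
        (fun q => Lt_add_posDef (hm _) (hF2 _)) fun q => cl_mem _
    have hW : Continuous fun q : (ℝ × ℝ) × ℝ =>
        V q.1.1 - (dg κ * dg κ - F q.1.1 * F q.1.1) := by fun_prop
    exact (Continuous.rpow_const (by fun_prop) fun q => Or.inl (hm _).ne').mul
      (((continuous_rt.comp hW).div (by fun_prop) fun q => (hm _).ne').sub
        (continuous_rt.comp ((hR.mul hW).mul hR)))
  have hA : Continuous fun q : ℝ × ℝ => ∫ s in (-1 : ℝ)..1, H q.1 q.2 s :=
    intervalIntegral.continuous_parametric_intervalIntegral_of_continuous'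
      (f := fun q : ℝ × ℝ => H q.1 q.2) hHc _ _
  have eQ : ∀ x, ∫ τ in ε..T, Qf α κ (F x) (V x) τ =
      ∫ τ in ε..T, ∫ s in (-1 : ℝ)..1, H x τ s := by
    intro x
    refine intervalIntegral.integral_congr fun τ hτ => ?_
    rw [uIcc_of_le hεT] at hτ
    have hτ0 := hε.trans_le hτ.1
    simp only [hH, max_eq_left hτ.1, Qf]
    have hR : Continuous fun s => Rs (Lt κ τ) (F x) (cl s) :=
      continuous_Rs continuous_const continuous_const continuous_cl
        (fun _ => Lt_sub_posDef hτ0 (hF1 x)) (fun _ => Lt_add_posDef hτ0 (hF2 x)) cl_mem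
    have hR' : Continuous fun s => rt (Rs (Lt κ τ) (F x) (cl s) *
        (V x - (dg κ * dg κ - F x * F x)) * Rs (Lt κ τ) (F x) (cl s)) :=
      continuous_rt.comp ((hR.mul continuous_const).mul hR)
    rw [intervalIntegral.integral_const_mul, intervalIntegral.integral_sub intervalIntegrable_const
      (hR'.intervalIntegrable _ _),
      ← gV_eq_cl, intervalIntegral.integral_const, smul_eq_mul]
    ring
  simp only [eQ]
  refine ⟨intervalIntegral.continuous_parametric_intervalIntegral_of_continuous'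
    (f := fun x τ => ∫ s in (-1 : ℝ)..1, H x τ s) hA _ _, ?_⟩
  set B : ℝ → ℝ → ℝ := fun τ s =>
    ∑ i, 2 * κ i * rpowIntegrand₀₁ α (max τ ε) (κ i ^ 2 * (1 - cl s ^ 2)) with hB
  have hcl : ∀ s, 0 ≤ 1 - cl s ^ 2 := fun s => by nlinarith [(cl_mem s).1, (cl_mem s).2]
  have hIc : ∀ i, Continuous fun q : ℝ × ℝ =>
      rpowIntegrand₀₁ α (max q.1 ε) (κ i ^ 2 * (1 - cl q.2 ^ 2)) := fun i => by
    have := continuous_cl
    exact (continuousOn_rpowIntegrand₀₁_uncurry hα (Ici 0) le_rfl).comp_continuous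
      (f := fun q : ℝ × ℝ => (max q.1 ε, κ i ^ 2 * (1 - cl q.2 ^ 2))) (by fun_prop)
      fun q => ⟨hm _, mul_nonneg (sq_nonneg _) (hcl _)⟩
  have hBc : Continuous B.uncurry :=
    continuous_finsetSum _ fun i _ => continuous_const.mul (hIc i)
  have e1 : ∀ τ, ∫ x in x₀..x₁, ∫ s in (-1 : ℝ)..1, H x τ s = ∫ s in (-1 : ℝ)..1, B τ s := by
    intro τ
    rw [swap_cont (f := fun x s => H x τ s)
      (hHc.comp (f := fun q : ℝ × ℝ => ((q.1, τ), q.2)) (by fun_prop))]
    congr 1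
    funext s
    exact t_integral α hκ hV hF h₀ h₁ hF1 hF2 (hm τ) (cl_mem s)
  rw [swap_cont (f := fun x τ => ∫ s in (-1 : ℝ)..1, H x τ s) hA]
  simp only [e1]
  rw [swap_cont hBc]
  have hpc : Continuous fun s : ℝ => (1 - s ^ 2) ^ α :=
    Continuous.rpow_const (by fun_prop) fun _ => Or.inr hα.1.le
  have hlow : ∀ s ∈ Icc (-1 : ℝ) 1,
      2 * cI α * (∑ i, κ i ^ (2 * α + 1)) * (1 - s ^ 2) ^ α -
        ∑ i, 2 * κ i * (ε ^ α / α + κ i ^ 2 * T ^ (α - 1) / (1 - α)) ≤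
      ∫ τ in ε..T, B τ s := by
    intro s hs
    have hs2 : 0 ≤ 1 - s ^ 2 := by nlinarith [hs.1, hs.2]
    have e2 : ∫ τ in ε..T, B τ s =
        ∑ i, 2 * κ i * ∫ τ in ε..T, rpowIntegrand₀₁ α τ (κ i ^ 2 * (1 - s ^ 2)) := by
      simp only [← intervalIntegral.integral_const_mul]
      rw [← intervalIntegral.integral_finsetSum fun i _ =>
        (ii_I hα (mul_nonneg (sq_nonneg _) hs2) hε.le hεT).const_mul _]
      refine intervalIntegral.integral_congr fun τ hτ => ?_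
      rw [uIcc_of_le hεT] at hτ
      simp only [hB, max_eq_left hτ.1, cl_eq hs]
    rw [e2, Finset.mul_sum, Finset.sum_mul, ← Finset.sum_sub_distrib]
    refine Finset.sum_le_sum fun i _ => ?_
    have hi := hκ i
    have h3 := I_int_ge hα (mul_nonneg (sq_nonneg (κ i)) hs2) hε hεT
    have h4 : κ i ^ 2 * (1 - s ^ 2) * T ^ (α - 1) / (1 - α) ≤ κ i ^ 2 * T ^ (α - 1) / (1 - α) := by
      have : 0 < 1 - α := by linarith [hα.2]
      have : 0 ≤ T ^ (α - 1) := Real.rpow_nonneg (hε.le.trans hεT) _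
      gcongr
      nlinarith [sq_nonneg (κ i * s)]
    have e3 : κ i ^ (2 * α + 1) * (1 - s ^ 2) ^ α = κ i * (κ i ^ 2 * (1 - s ^ 2)) ^ α := by
      rw [Real.mul_rpow (sq_nonneg _) hs2, Real.rpow_add hi, Real.rpow_one, Real.rpow_mul hi.le,
        Real.rpow_two]
      ring
    have h5 := mul_le_mul_of_nonneg_left (le_trans (sub_le_sub_left h4 _) h3)
      (show 0 ≤ 2 * κ i by positivity)
    refine le_trans (le_of_eq ?_) h5
    linear_combination 2 * cI α * e3
  refine le_trans (le_of_eq ?_) (intervalIntegral.integral_mono_on (by norm_num)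
    (((hpc.intervalIntegrable _ _).const_mul _).sub intervalIntegrable_const)
    ((intervalIntegral.continuous_parametric_intervalIntegral_of_continuous'
      (f := fun s τ => B τ s) (hBc.comp continuous_swap) _ _).intervalIntegrable _ _) hlow)
  rw [intervalIntegral.integral_sub ((hpc.intervalIntegrable _ _).const_mul _)
    intervalIntegrable_const, intervalIntegral.integral_const_mul, intervalIntegral.integral_const,
    Ia, smul_eq_mul, Finset.mul_sum _ _ (1 - -1 : ℝ)]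
  congr 1
  · ring
  · exact Finset.sum_congr rfl fun i _ => by ring

end Act

open Act in
/-- If `F' = K² - F² - V` goes from `K` to `-K` inside `-K ≤ F ≤ K`, then
`(∑ κ^{2α+1}) I_α ≤ c_α ∫ tr V^{1+α}`, with a deficit controlling `[K², F]` and
`β (K² - F²) - V`; the constant `c` does not depend on the dimension `N`. -/
theorem action {α : ℝ} (hα : 0 < α) (hα1 : α < 1) (kmax vmax : ℝ) :
    ∃ c : ℝ, 0 < c ∧ ∀ (N : ℕ) (κ : Fin N → ℝ) (F V : ℝ → Matrix (Fin N) (Fin N) ℂ) (x₀ x₁ : ℝ),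
      x₀ ≤ x₁ → (∀ i, 0 < κ i) → (∀ i, κ i ≤ kmax) → Continuous V →
      (∀ x, (V x).PosSemidef) →
      (∀ x, ((vmax : ℝ) • (1 : Matrix (Fin N) (Fin N) ℂ) - V x).PosSemidef) →
      (∀ x, HasDerivAt F (dg κ * dg κ - F x * F x - V x) x) →
      F x₀ = dg κ → F x₁ = -dg κ →
      (∀ x, (dg κ - F x).PosSemidef) → (∀ x, (dg κ + F x).PosSemidef) →
      (∑ i, κ i ^ (2 * α + 1)) * Ia α +
          c * ∫ x in x₀..x₁, (hs2 (dg κ * dg κ * F x - F x * (dg κ * dg κ)) +
            hs2 ((1 + α⁻¹ : ℝ) • (dg κ * dg κ - F x * F x) - V x)) ≤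
        ca α * ∫ x in x₀..x₁, trp (V x) (1 + α) := by
  have hα' : α ∈ Ioo (0 : ℝ) 1 := ⟨hα, hα1⟩
  have hI : 0 < cI α := integral_rpowIntegrand₀₁_one_pos hα'
  obtain ⟨c, hc, hpt⟩ := point_ineq hα' (k := max kmax 1) (v := max vmax 1)
    (one_pos.trans_le (le_max_right _ _)) (one_pos.trans_le (le_max_right _ _))
  refine ⟨c / (2 * cI α), by positivity, ?_⟩
  intro N κ F V x₀ x₁ hx hκ hκk hV hVp hVv hF h₀ h₁ hF1 hF2
  obtain ⟨E, hE⟩ := hpt (Fin N) κ hκ fun i => (hκk i).trans (le_max_left _ _)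
  have hVv' : ∀ x, ((max vmax 1) • (1 : Matrix (Fin N) (Fin N) ℂ) - V x).PosSemidef := by
    intro x
    have := (PosSemidef.one.smul (sub_nonneg.2 (le_max_left vmax 1))).add (hVv x)
    rwa [sub_smul, sub_add_sub_cancel] at this
  have hFc : Continuous F := continuous_iff_continuousAt.2 fun x => hd_continuousAt (hF x)
  have hDc : Continuous fun x => hs2 (dg κ * dg κ * F x - F x * (dg κ * dg κ)) +
      hs2 ((1 + α⁻¹ : ℝ) • (dg κ * dg κ - F x * F x) - V x) :=
    (Act.continuous_hs2.comp (by fun_prop)).add (Act.continuous_hs2.comp (by fun_prop))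
  have hTc : Continuous fun x => trp (V x) (1 + α) :=
    continuous_trp_comp hV (fun x => (hVp x).1) (by linarith)
  set D := ∫ x in x₀..x₁, (hs2 (dg κ * dg κ * F x - F x * (dg κ * dg κ)) +
    hs2 ((1 + α⁻¹ : ℝ) • (dg κ * dg κ - F x * F x) - V x)) with hD
  set P := ∫ x in x₀..x₁, trp (V x) (1 + α) with hP
  set S := (∑ i, κ i ^ (2 * α + 1)) * Ia α with hS
  have main : ∀ T : ℝ, 2 * (max kmax 1 ^ 2 + 1) ≤ T →
      2 * cI α * S + c * D ≤ 2 * cI α * ca α * P +
        ((x₁ - x₀) * (E * (T⁻¹ ^ α + T ^ (α - 1))) +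
          ∑ i, 4 * κ i * (T⁻¹ ^ α / α + κ i ^ 2 * T ^ (α - 1) / (1 - α))) := by
    intro T hT
    have hT1 : 1 ≤ T := by nlinarith [sq_nonneg (max kmax 1)]
    have hε : 0 < T⁻¹ := by positivity
    have hε1 : T⁻¹ ≤ 1 := inv_le_one_of_one_le₀ hT1
    obtain ⟨hc1, hlow⟩ := triple hα' hκ hV hF h₀ h₁ hF1 hF2 hε (hε1.trans hT1)
    have h3 := intervalIntegral.integral_mono_on hx
      ((hc1.intervalIntegrable (μ := volume) _ _).add
        ((hDc.intervalIntegrable _ _).const_mul _))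
      (((hTc.intervalIntegrable _ _).const_mul _).add intervalIntegrable_const)
      fun x _ => hE (F x) (V x) T⁻¹ T hε hε1 hT (hVp x) (hVv' x) (hF1 x) (hF2 x)
    rw [intervalIntegral.integral_add (hc1.intervalIntegrable _ _)
      ((hDc.intervalIntegrable _ _).const_mul _),
      intervalIntegral.integral_add ((hTc.intervalIntegrable _ _).const_mul _)
      intervalIntegrable_const, intervalIntegral.integral_const_mul,
      intervalIntegral.integral_const_mul, intervalIntegral.integral_const, smul_eq_mul] at h3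
    linarith
  have t1 : Tendsto (fun T : ℝ => T⁻¹ ^ α) atTop (𝓝 0) := by
    refine (tendsto_rpow_neg_atTop hα).congr' ?_
    filter_upwards [eventually_ge_atTop 0] with T hT
    rw [Real.inv_rpow hT, Real.rpow_neg hT]
  have t2 : Tendsto (fun T : ℝ => T ^ (α - 1)) atTop (𝓝 0) := by
    have := tendsto_rpow_neg_atTop (show 0 < 1 - α by linarith)
    rwa [neg_sub] at this
  have t3 : Tendsto (fun T : ℝ => 2 * cI α * ca α * P +
      ((x₁ - x₀) * (E * (T⁻¹ ^ α + T ^ (α - 1))) +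
        ∑ i, 4 * κ i * (T⁻¹ ^ α / α + κ i ^ 2 * T ^ (α - 1) / (1 - α)))) atTop
      (𝓝 (2 * cI α * ca α * P + ((x₁ - x₀) * (E * (0 + 0)) +
        ∑ i, 4 * κ i * (0 / α + κ i ^ 2 * 0 / (1 - α))))) :=
    tendsto_const_nhds.add ((((t1.add t2).const_mul E).const_mul _).add
      (tendsto_finsetSum _ fun i _ =>
        ((t1.div_const α).add ((t2.const_mul _).div_const _)).const_mul _))
  have h4 := ge_of_tendsto t3 ((eventually_ge_atTop _).mono main)
  simp only [add_zero, mul_zero, zero_div, Finset.sum_const_zero] at h4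
  have e : S + c / (2 * cI α) * D = (2 * cI α * S + c * D) / (2 * cI α) := by field_simp
  rw [e, div_le_iff₀ (by positivity)]
  linarith

end Crest.Agent.R332
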