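import Crest.Prelude.Def_LiebThirring

/-!
# Sharp one-dimensional matrix Lieb–Thirring inequality: definitions

Notation: `p = γ + 1/2 = 1 + α`, `α ∈ (0,1)`, `r = α⁻¹`, `β = 1 + r`.

Outline of the proof.  From a trial family we get `U : ℝ → ℂ^{m×N}` with `∫ UᴴU = 1` and energy
matrix `-diag k²` (`Pre`).  By a shooting argument (Brouwer) we find `Y = U C u` and a Hermitian
path `F` with `F' = K² - F² - V`, `V = (YᴴY)^r`, going from `K` to `-K` (`Datum`).  Then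
`∫ tr W^p = ∫ tr V^p + ∫ d1 + p ∫ d2` and the action inequality gives
`(∑ κ^{2γ}) I_α + c ∫ (d3 + d4) ≤ c_α ∫ tr V^p`.
-/

set_option autoImplicit false

open MeasureTheory Matrix Filter Topology
open scoped ComplexOrder

namespace Crest.Agent.R332

/-- Squared Hilbert–Schmidt norm. -/
noncomputable def hs2 {ι κ : Type*} [Fintype ι] [Fintype κ] (A : Matrix ι κ ℂ) : ℝ :=
  ∑ i, ∑ j, ‖A i j‖ ^ 2

/-- Real power of a (positive semidefinite) matrix. -/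
noncomputable def mpow {ι : Type*} [Fintype ι] [DecidableEq ι] (A : Matrix ι ι ℂ) (t : ℝ) :
    Matrix ι ι ℂ :=
  cfc (fun s : ℝ => s ^ t) A

/-- `tr A^t`; this is `tracePow` for a general index type. -/
noncomputable def trp {ι : Type*} [Fintype ι] [DecidableEq ι] (A : Matrix ι ι ℂ) (t : ℝ) : ℝ :=
  (trace (mpow A t)).re

theorem tracePow_eq {m : ℕ} (A : Matrix (Fin m) (Fin m) ℂ) (t : ℝ) :
    Crest.MathPhysics.LiebThirring.tracePow A t = trp A t := rfl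

/-- Real diagonal matrix. -/
noncomputable def dg {ι : Type*} [DecidableEq ι] (k : ι → ℝ) : Matrix ι ι ℂ :=
  diagonal fun i => (k i : ℂ)

/-- `I_α = ∫_{-1}^1 (1 - f²)^α df`. -/
noncomputable def Ia (α : ℝ) : ℝ := ∫ f in (-1 : ℝ)..1, (1 - f ^ 2) ^ α

/-- `c_α = α^α / (1+α)^{1+α}`. -/
noncomputable def ca (α : ℝ) : ℝ := (α / (1 + α)) ^ α / (1 + α)

/-- The deficit in the trace Young inequality `p tr(Wρ) ≤ tr W^p + (p-1) tr ρ^{p'}`. -/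
noncomputable def klein {ι : Type*} [Fintype ι] [DecidableEq ι] (α : ℝ) (W ρ : Matrix ι ι ℂ) : ℝ :=
  trp W (1 + α) - (1 + α) * (trace (W * ρ)).re + α * trp ρ (1 + α⁻¹)

/-- An orthonormal family `U` (columns) diagonalising the energy, with negative energies `-k²`. -/
structure Pre (m : ℕ) (W : ℝ → Matrix (Fin m) (Fin m) ℂ) where
  N : ℕ
  k : Fin N → ℝ
  U : ℝ → Matrix (Fin m) (Fin N) ℂ
  U' : ℝ → Matrix (Fin m) (Fin N) ℂ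
  a : ℝ
  b : ℝ
  hab : a < b
  k_pos : ∀ i, 0 < k i
  U_deriv : ∀ x, HasDerivAt U (U' x) x
  U'_cont : Continuous U'
  U_supp : ∀ x, x ∉ Set.Ioo a b → U x = 0
  U'_supp : ∀ x, x ∉ Set.Ioo a b → U' x = 0
  orth : ∀ i j, ∫ x, ((U x)ᴴ * U x) i j = (1 : Matrix (Fin N) (Fin N) ℂ) i j
  int_W : ∀ i j, Integrable fun x => ((U x)ᴴ * W x * U x) i j
  energy : ∀ i j, ∫ x, ((U' x)ᴴ * U' x - (U x)ᴴ * W x * U x) i j = (-(dg k * dg k)) i j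

/-- The output of the shooting argument. -/
structure Datum (m : ℕ) (α : ℝ) (W : ℝ → Matrix (Fin m) (Fin m) ℂ) where
  N : ℕ
  κ : Fin N → ℝ
  Y : ℝ → Matrix (Fin m) (Fin N) ℂ
  Y' : ℝ → Matrix (Fin m) (Fin N) ℂ
  F : ℝ → Matrix (Fin N) (Fin N) ℂ
  a : ℝ
  b : ℝ
  hab : a ≤ b
  κ_pos : ∀ i, 0 < κ i
  Y_deriv : ∀ x, HasDerivAt Y (Y' x) x
  Y'_cont : Continuous Y'
  Y_supp : ∀ x, x ∉ Set.Ioo a b → Y x = 0
  Y'_supp : ∀ x, x ∉ Set.Ioo a b → Y' x = 0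
  F_deriv : ∀ x, HasDerivAt F (dg κ * dg κ - F x * F x - mpow ((Y x)ᴴ * Y x) α⁻¹) x
  F_left : ∀ x, x ≤ a → F x = dg κ
  F_right : ∀ x, b ≤ x → F x = -dg κ
  F_le : ∀ x, (dg κ - F x).PosSemidef
  F_ge : ∀ x, (dg κ + F x).PosSemidef
  energy : ∫ x, (trace (W x * (Y x * (Y x)ᴴ))).re =
    ∫ x, (hs2 (Y' x) + (trace (dg κ * dg κ * ((Y x)ᴴ * Y x))).re)

namespace Datum

variable {m : ℕ} {α : ℝ} {W : ℝ → Matrix (Fin m) (Fin m) ℂ} (D : Datum m α W)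

/-- `K²`. -/
noncomputable def K2 : Matrix (Fin D.N) (Fin D.N) ℂ := dg D.κ * dg D.κ
/-- `B = YᴴY`. -/
noncomputable def B (x : ℝ) : Matrix (Fin D.N) (Fin D.N) ℂ := (D.Y x)ᴴ * D.Y x
/-- `V = B^r`. -/
noncomputable def V (x : ℝ) : Matrix (Fin D.N) (Fin D.N) ℂ := mpow (D.B x) α⁻¹
/-- `ρ = YYᴴ`. -/
noncomputable def ρ (x : ℝ) : Matrix (Fin m) (Fin m) ℂ := D.Y x * (D.Y x)ᴴ
/-- `A = K² - F²`. -/
noncomputable def A (x : ℝ) : Matrix (Fin D.N) (Fin D.N) ℂ := D.K2 - D.F x * D.F x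
/-- Young deficit. -/
noncomputable def d1 (x : ℝ) : ℝ := klein α (W x) (D.ρ x)
/-- `|Y' - YF|²`. -/
noncomputable def d2 (x : ℝ) : ℝ := hs2 (D.Y' x - D.Y x * D.F x)
/-- `|[K², F]|²`. -/
noncomputable def d3 (x : ℝ) : ℝ := hs2 (D.K2 * D.F x - D.F x * D.K2)
/-- `|βA - V|²`. -/
noncomputable def d4 (x : ℝ) : ℝ := hs2 ((1 + α⁻¹ : ℝ) • D.A x - D.V x)

theorem hasDerivAt_F (x : ℝ) : HasDerivAt D.F (D.A x - D.V x) x := D.F_deriv x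

end Datum

/-- A sequence of data along which all deficits tend to zero. -/
structure Near {m : ℕ} {α : ℝ} {W : ℝ → Matrix (Fin m) (Fin m) ℂ} (D : ℕ → Datum m α W)
    (C : ℝ) : Prop where
  κ_le : ∀ n i, (D n).κ i ≤ C
  sum_le : ∀ n, ∑ i, (D n).κ i ^ (2 * α + 1) ≤ C
  Y_le : ∀ n x, hs2 ((D n).Y x) ≤ C
  t2 : Tendsto (fun n => ∫ x, (D n).d2 x) atTop (𝓝 0)
  t3 : Tendsto (fun n => ∫ x, (D n).d3 x) atTop (𝓝 0)
  t4 : Tendsto (fun n => ∫ x, (D n).d4 x) atTop (𝓝 0)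
  ae4 : ∀ᵐ x, Tendsto (fun n => (D n).d4 x) atTop (𝓝 0)
  ae1 : ∀ᵐ x, Tendsto (fun n => mpow ((D n).ρ x) α⁻¹) atTop (𝓝 (W x))

theorem Near.comp {m : ℕ} {α : ℝ} {W : ℝ → Matrix (Fin m) (Fin m) ℂ} {D : ℕ → Datum m α W}
    {C : ℝ} (h : Near D C) {φ : ℕ → ℕ} (hφ : Tendsto φ atTop atTop) :
    Near (fun n => D (φ n)) C where
  κ_le n := h.κ_le (φ n)
  sum_le n := h.sum_le (φ n)
  Y_le n := h.Y_le (φ n)
  t2 := h.t2.comp hφ
  t3 := h.t3.comp hφ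
  t4 := h.t4.comp hφ
  ae4 := h.ae4.mono fun _ hx => hx.comp hφ
  ae1 := h.ae1.mono fun _ hx => hx.comp hφ

/-- The top block of a near-extremal sequence: `P n` is an isometry whose columns are asymptotic
joint eigenvectors of `K²` and `F 0`, and `K² ≤ κ₀²` off the range of `P n`. -/
structure Top {m : ℕ} {α : ℝ} {W : ℝ → Matrix (Fin m) (Fin m) ℂ} (D : ℕ → Datum m α W)
    (C κ₀ : ℝ) where
  J : ℕ
  P : ∀ n, Matrix (Fin (D n).N) (Fin J) ℂ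
  a : Fin J → ℝ
  f : Fin J → ℝ
  y : Matrix (Fin m) (Fin J) ℂ
  iso : ∀ n, (P n)ᴴ * P n = 1
  rest : ∀ n, ((κ₀ ^ 2 : ℝ) • (1 : Matrix (Fin (D n).N) (Fin (D n).N) ℂ) +
    (C ^ 2 : ℝ) • (P n * (P n)ᴴ) - (D n).K2).PosSemidef
  a_pos : ∀ l, 0 < a l
  f_le : ∀ l, |f l| ≤ a l
  tK : Tendsto (fun n => hs2 ((D n).K2 * P n - P n * (dg a * dg a))) atTop (𝓝 0)
  tF : Tendsto (fun n => hs2 ((D n).F 0 * P n - P n * dg f)) atTop (𝓝 0)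
  tY : Tendsto (fun n => (D n).Y 0 * P n) atTop (𝓝 y)

/-- `e` is a soliton vector of `W`. -/
def IsSol {m : ℕ} (α : ℝ) (W : ℝ → Matrix (Fin m) (Fin m) ℂ) (e : Fin m → ℂ) : Prop :=
  ∃ a c : ℝ, 0 ≤ a ∧
    ∀ᵐ x, W x *ᵥ e = ((Crest.MathPhysics.LiebThirring.soliton α⁻¹ a c x : ℝ) : ℂ) • e

end Crest.Agent.R332
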