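import Crest.Agent.R332.Basic

/-!
# A scalar Gronwall lemma with an integrable perturbation

For `x ≥ x₀`: `t ↦ e^{-L(t-x₀)} u t - ∫_{x₀}^t e` is nonincreasing (its derivative is
`e^{-L(t-x₀)} (u' - L u) - e ≤ 0`); for `x ≤ x₀` reflect.
-/

set_option autoImplicit false

open MeasureTheory Matrix Filter Topology Set
open scoped ComplexOrder Matrix.Norms.L2Operator MatrixOrder
open Crest.MathPhysics.LiebThirring

namespace Crest.Agent.R332

theorem gron {u u' e : ℝ → ℝ} {L : ℝ} (hL : 0 ≤ L) (hu : ∀ t, HasDerivAt u (u' t) t)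
    (he : Continuous e) (he0 : ∀ t, 0 ≤ e t) (x₀ x : ℝ)
    (h : ∀ t ∈ uIcc x₀ x, |u' t| ≤ L * u t + e t) :
    u x ≤ Real.exp (L * |x - x₀|) * (u x₀ + |∫ t in x₀..x, e t|) := by
  have hI : ∀ t, HasDerivAt (fun s => ∫ r in x₀..s, e r) (e t) t := fun t =>
    (he.integral_hasStrictDerivAt x₀ t).hasDerivAt
  rcases le_total x₀ x with hx | hx
  · rw [uIcc_of_le hx] at h
    have hg : ∀ t, HasDerivAt (fun s => Real.exp (-(L * (s - x₀))) * u s - ∫ r in x₀..s, e r)
        (Real.exp (-(L * (t - x₀))) * (u' t - L * u t) - e t) t := fun t => by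
      have h1 := ((((hasDerivAt_id t).sub_const x₀).const_mul L).neg.exp.mul (hu t)).sub (hI t)
      refine h1.congr_deriv ?_
      simp only [id, Pi.neg_apply]
      ring
    have hanti := antitoneOn_of_deriv_nonpos (convex_Icc x₀ x)
      (fun t _ => (hg t).continuousAt.continuousWithinAt)
      (fun t _ => (hg t).differentiableAt.differentiableWithinAt)
      (fun t ht => by
        rw [(hg t).deriv]
        have ht' := interior_subset ht
        have h1 := (abs_le.1 (h t ht')).2
        have h2 : Real.exp (-(L * (t - x₀))) ≤ 1 :=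
          Real.exp_le_one_iff.2 (neg_nonpos.2 (mul_nonneg hL (sub_nonneg.2 ht'.1)))
        have h3 := Real.exp_pos (-(L * (t - x₀)))
        have h4 := he0 t
        nlinarith [mul_le_mul_of_nonneg_left (show u' t - L * u t ≤ e t by linarith) h3.le])
    have h1 := hanti (left_mem_Icc.2 hx) (right_mem_Icc.2 hx) hx
    simp only [sub_self, mul_zero, neg_zero, Real.exp_zero, one_mul,
      intervalIntegral.integral_same, sub_zero] at h1
    rw [abs_of_nonneg (sub_nonneg.2 hx)]
    have h2 := le_abs_self (∫ t in x₀..x, e t)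
    calc u x = Real.exp (L * (x - x₀)) * (Real.exp (-(L * (x - x₀))) * u x) := by
          rw [← mul_assoc, ← Real.exp_add, add_neg_cancel, Real.exp_zero, one_mul]
      _ ≤ _ := mul_le_mul_of_nonneg_left (by linarith) (Real.exp_pos _).le
  · rw [uIcc_of_ge hx] at h
    have hg : ∀ t, HasDerivAt (fun s => Real.exp (L * (s - x₀)) * u s + ∫ r in x₀..s, e r)
        (Real.exp (L * (t - x₀)) * (u' t + L * u t) + e t) t := fun t => by
      have h1 := ((((hasDerivAt_id t).sub_const x₀).const_mul L).exp.mul (hu t)).add (hI t)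
      refine h1.congr_deriv ?_
      simp only [id]
      ring
    have hmono := monotoneOn_of_deriv_nonneg (convex_Icc x x₀)
      (fun t _ => (hg t).continuousAt.continuousWithinAt)
      (fun t _ => (hg t).differentiableAt.differentiableWithinAt)
      (fun t ht => by
        rw [(hg t).deriv]
        have ht' := interior_subset ht
        have h1 := (abs_le.1 (h t ht')).1
        have h2 : Real.exp (L * (t - x₀)) ≤ 1 :=
          Real.exp_le_one_iff.2 (mul_nonpos_of_nonneg_of_nonpos hL (sub_nonpos.2 ht'.2))
        have h3 := Real.exp_pos (L * (t - x₀))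
        have h4 := he0 t
        nlinarith [mul_le_mul_of_nonneg_left (show -e t ≤ u' t + L * u t by linarith) h3.le])
    have h1 := hmono (left_mem_Icc.2 hx) (right_mem_Icc.2 hx) hx
    simp only [sub_self, mul_zero, Real.exp_zero, one_mul,
      intervalIntegral.integral_same, add_zero] at h1
    rw [abs_of_nonpos (sub_nonpos.2 hx)]
    have h2 := neg_abs_le (∫ t in x₀..x, e t)
    calc u x = Real.exp (L * -(x - x₀)) * (Real.exp (L * (x - x₀)) * u x) := by
          rw [← mul_assoc, ← Real.exp_add, mul_neg, neg_add_cancel, Real.exp_zero, one_mul]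
      _ ≤ _ := mul_le_mul_of_nonneg_left (by linarith) (Real.exp_pos _).le

end Crest.Agent.R332
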