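import Crest.Agent.R332.DatBasic
import Crest.Agent.R332.Gron

/-!
# A dimension-free sup bound for `Y`

`b = hs2 Y = tr B = tr ρ`, `b' = 2 re tr (Yᴴ Y') = 2 re tr (Yᴴ (Y' - YF)) + 2 re tr (Yᴴ (Y F))`, so
`|b'| ≤ (1 + 2C) b + d2` (`two_abs_re_trace_le`, `abs_re_trace_le`, `hs2_mul_le_right`,
`norm_F_le`; replace `C` by `max C 0`).  Since `ρ` is `m × m`:
`b ≤ m + trp ρ (1+r) = m + trp V (1+α)` (`trace_le_card_add_trp`, `trp_ρ`), so `∫_{x-1}^x b ≤ m + C`.
`gron` from `x₀ ∈ [x-1,x]` to `x` gives `b x ≤ e^L (b x₀ + C)`; integrate over `x₀ ∈ [x-1,x]`: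
`b x ≤ e^L (m + 2C)`.
-/

set_option autoImplicit false

open MeasureTheory Matrix Filter Topology Set
open scoped ComplexOrder Matrix.Norms.L2Operator MatrixOrder
open Crest.MathPhysics.LiebThirring

namespace Crest.Agent.R332

theorem Y_bound (m : ℕ) {α : ℝ} (hα : 0 < α) (C : ℝ) :
    ∃ C' : ℝ, ∀ (W : ℝ → Matrix (Fin m) (Fin m) ℂ) (D : Datum m α W), (∀ i, D.κ i ≤ C) →
      (∫ x, trp (D.V x) (1 + α)) ≤ C → (∫ x, D.d2 x) ≤ C → ∀ x, hs2 (D.Y x) ≤ C' := by
  refine ⟨Real.exp (2 + max C 0 ^ 2) * (m + 2 * C), fun W D hκ hV hd x => ?_⟩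
  have hL : (0 : ℝ) ≤ 2 + max C 0 ^ 2 := by positivity
  have hb : Continuous fun t => hs2 (D.Y t) := continuous_hs2.comp D.continuous_Y
  have hx : x - 1 ≤ x := by linarith
  obtain ⟨x₀, hx₀, hmin⟩ := (isCompact_Icc (a := x - 1) (b := x)).exists_isMinOn
    (nonempty_Icc.2 hx) hb.continuousOn
  have hd0 : ∀ t, 0 ≤ D.d2 t := fun t => hs2_nonneg _
  have hV0 : ∀ t, 0 ≤ trp (D.V t) (1 + α) := fun t => trp_nonneg (D.V_posSemidef t) _
  have h1 : hs2 (D.Y x₀) ≤ m + C := by
    have h2 : ∫ _ in (x - 1)..x, hs2 (D.Y x₀) ≤ ∫ t in (x - 1)..x, ((m : ℝ) + trp (D.V t) (1 + α)) := by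
      refine intervalIntegral.integral_mono_on hx (continuous_const.intervalIntegrable _ _)
        ((continuous_const.add (D.continuous_trpV hα)).intervalIntegrable _ _) fun t ht => ?_
      have h3 := trace_le_card_add_trp (D.ρ_posSemidef t)
        (show (1 : ℝ) ≤ 1 + α⁻¹ from le_add_of_nonneg_right (inv_pos.2 hα).le)
      rw [D.trace_ρ, D.trp_ρ hα, Fintype.card_fin] at h3
      exact (hmin ht).trans h3
    rw [intervalIntegral.integral_add (continuous_const.intervalIntegrable _ _)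
      ((D.continuous_trpV hα).intervalIntegrable _ _), intervalIntegral.integral_const,
      intervalIntegral.integral_const, intervalIntegral.integral_of_le hx] at h2
    have h4 := setIntegral_le_integral (s := Ioc (x - 1) x) (D.integrable_trpV hα)
      (Eventually.of_forall hV0)
    simp only [sub_sub_cancel, one_smul] at h2
    linarith
  have hg := gron (u := fun t => hs2 (D.Y t)) (e := D.d2) hL
    (fun t => HasDerivAt.mhs2 (D.Y_deriv t)) D.continuous_d2 hd0 x₀ x (fun t _ => by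
      have e : trace ((D.Y t)ᴴ * D.Y' t) =
          trace ((D.Y t)ᴴ * (D.Y' t - D.Y t * D.F t)) + trace ((D.Y t)ᴴ * (D.Y t * D.F t)) := by
        rw [← trace_add, ← Matrix.mul_add, sub_add_cancel]
      have h2 := two_abs_re_trace_le (D.Y t) (D.Y' t - D.Y t * D.F t)
      have h3 := two_abs_re_trace_le (D.Y t) (D.Y t * D.F t)
      have h4 := hs2_mul_le_right (D.Y t) (D.F t)
      have h5 := D.norm_F_le (le_max_right C 0) (fun i => (hκ i).trans (le_max_left _ _)) t
      have h6 := mul_le_mul_of_nonneg_left (pow_le_pow_left₀ (norm_nonneg _) h5 2)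
        (hs2_nonneg (D.Y t))
      have h7 := abs_add_le (trace ((D.Y t)ᴴ * (D.Y' t - D.Y t * D.F t))).re
        (trace ((D.Y t)ᴴ * (D.Y t * D.F t))).re
      rw [e, Complex.add_re, abs_mul, abs_two, Datum.d2]
      linarith)
  have h2 : |∫ t in x₀..x, D.d2 t| ≤ C := by
    rw [abs_of_nonneg (intervalIntegral.integral_nonneg hx₀.2 fun t _ => hd0 t),
      intervalIntegral.integral_of_le hx₀.2]
    exact (setIntegral_le_integral D.integrable_d2 (Eventually.of_forall hd0)).trans hd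
  have h3 : |x - x₀| ≤ 1 := abs_le.2 ⟨by linarith [hx₀.2], by linarith [hx₀.1]⟩
  refine hg.trans (mul_le_mul (Real.exp_le_exp.2 (mul_le_of_le_one_right hL h3)) (by linarith)
    (add_nonneg (hs2_nonneg _) (abs_nonneg _)) (Real.exp_pos _).le)

end Crest.Agent.R332
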