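import Crest.Agent.R332.Mat

/-!
# Trace Young (Klein) inequality and its stability

With `W = ∑ w_i |a_i⟩⟨a_i|`, `ρ = ∑ z_j |b_j⟩⟨b_j|` (use `spectral`) and the doubly stochastic
matrix `t_ij = |⟨a_i,b_j⟩|²` one has `tr (Wρ) = ∑ t_ij w_i z_j`, so
`klein α W ρ = ∑ t_ij φ(w_i, z_j)`, `φ(w,z) = w^{1+α} - (1+α) w z + α z^{1+1/α} ≥ 0`
(scalar Young inequality, `Real.young_inequality_of_nonneg` with exponents `1+α`, `1+1/α`),
with equality iff `w = z^{1/α}` (strict convexity of `w ↦ w^{1+α}`; e.g. put `s = z^{1/α}`, then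
`φ = w^{1+α} - s^{1+α} - (1+α) s^α (w - s)`, and use the strict Bernoulli inequality
`one_add_mul_self_lt_rpow_one_add`).  Hence `klein = 0` forces `t_ij = 0 ∨ w_i = z_j^{1/α}`, i.e.
`W = mpow ρ α⁻¹` (compare `⟨a_i, (W - mpow ρ α⁻¹) b_j⟩ = (w_i - z_j^{1/α}) ⟨a_i, b_j⟩`).
`klein_tendsto`: `tendsto_of_subseq_tendsto`; PSD matrices with trace `≤ C` form a compact set
(closed, entries bounded), `klein α W` is continuous on PSD matrices (`continuousOn_mpow`), so any
subsequential limit `ρ` has `klein α W ρ = 0`, and `mpow · α⁻¹` is continuous.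
-/

set_option autoImplicit false

open MeasureTheory Matrix Filter Topology Set
open scoped ComplexOrder Matrix.Norms.L2Operator MatrixOrder
open Crest.MathPhysics.LiebThirring

namespace Crest.Agent.R332

variable {ι : Type*} [Fintype ι] [DecidableEq ι]

private theorem conj_exp {α : ℝ} (hα : 0 < α) : (1 + α).HolderConjugate (1 + α⁻¹) := by
  refine Real.holderConjugate_iff.2 ⟨by linarith, ?_⟩
  field_simp
  ring

private theorem young_form {α : ℝ} (hα : 0 < α) (w z : ℝ) :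
    w ^ (1 + α) - (1 + α) * (w * z) + α * z ^ (1 + α⁻¹) =
      (1 + α) * (w ^ (1 + α) / (1 + α) + z ^ (1 + α⁻¹) / (1 + α⁻¹) - w * z) := by
  field_simp
  ring

private theorem young_nonneg {α : ℝ} (hα : 0 < α) {w z : ℝ} (hw : 0 ≤ w) (hz : 0 ≤ z) :
    0 ≤ w ^ (1 + α) - (1 + α) * (w * z) + α * z ^ (1 + α⁻¹) := by
  rw [young_form hα]
  exact mul_nonneg (by linarith)
    (sub_nonneg.2 (Real.young_inequality_of_nonneg hw hz (conj_exp hα)))

private theorem young_eq {α : ℝ} (hα : 0 < α) {w z : ℝ} (hw : 0 ≤ w) (hz : 0 ≤ z)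
    (h : w ^ (1 + α) - (1 + α) * (w * z) + α * z ^ (1 + α⁻¹) = 0) : w = z ^ α⁻¹ := by
  rw [young_form hα] at h
  have h1 := (mul_eq_zero.1 h).resolve_left (by linarith)
  have h2 := (Real.young_inequality_eq_iff_of_nonneg hw hz (conj_exp hα)).1 (by linarith)
  have h3 : z ^ (1 + α⁻¹) = (z ^ α⁻¹) ^ (1 + α) := by
    rw [← Real.rpow_mul hz]
    congr 1
    field_simp
    ring
  rw [h3] at h2
  exact Real.rpow_left_injOn (by linarith : (1 + α) ≠ 0) hw (Real.rpow_nonneg hz _) h2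

private theorem row_sum {c : Matrix ι ι ℂ} (hc : c * cᴴ = 1) (i : ι) : ∑ j, ‖c i j‖ ^ 2 = 1 := by
  have h := congrFun (congrFun hc i) i
  rw [Matrix.mul_apply, Matrix.one_apply_eq] at h
  simp only [Matrix.conjTranspose_apply, Complex.star_def, Complex.mul_conj,
    Complex.normSq_eq_norm_sq] at h
  exact_mod_cast h

private theorem trace_dg_mul (c : Matrix ι ι ℂ) (w z : ι → ℝ) :
    (trace (dg w * c * dg z * cᴴ)).re = ∑ i, ∑ j, ‖c i j‖ ^ 2 * (w i * z j) := by
  have h : trace (dg w * c * dg z * cᴴ) = ((∑ i, ∑ j, ‖c i j‖ ^ 2 * (w i * z j) : ℝ) : ℂ) := by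
    rw [Matrix.trace]
    push_cast
    refine Finset.sum_congr rfl fun i _ => ?_
    rw [Matrix.diag_apply, Matrix.mul_apply]
    refine Finset.sum_congr rfl fun j _ => ?_
    rw [dg, dg, Matrix.mul_diagonal, Matrix.diagonal_mul, Matrix.conjTranspose_apply,
      Complex.star_def, ← Complex.ofReal_pow, ← Complex.normSq_eq_norm_sq, ← Complex.mul_conj]
    ring
  rw [h, Complex.ofReal_re]

private theorem klein_decomp (α : ℝ) {W ρ : Matrix ι ι ℂ} (hW : W.IsHermitian)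
    (hρ : ρ.IsHermitian) : ∃ c : Matrix ι ι ℂ,
      klein α W ρ = ∑ i, ∑ j, ‖c i j‖ ^ 2 * (hW.eigenvalues i ^ (1 + α) -
        (1 + α) * (hW.eigenvalues i * hρ.eigenvalues j) + α * hρ.eigenvalues j ^ (1 + α⁻¹)) ∧
      ((∀ i j, c i j = 0 ∨ hW.eigenvalues i = hρ.eigenvalues j ^ α⁻¹) → W = mpow ρ α⁻¹) := by
  obtain ⟨u, hu, hu', hWu, -⟩ := spectral hW
  obtain ⟨v, hv, hv', hρv, hρf⟩ := spectral hρ
  have hc1 : uᴴ * v * (uᴴ * v)ᴴ = 1 := by
    rw [Matrix.conjTranspose_mul, Matrix.conjTranspose_conjTranspose, Matrix.mul_assoc,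
      ← Matrix.mul_assoc v, hv', Matrix.one_mul, hu]
  have hc2 : (uᴴ * v)ᴴ * (uᴴ * v)ᴴᴴ = 1 := by
    rw [Matrix.conjTranspose_conjTranspose, Matrix.conjTranspose_mul,
      Matrix.conjTranspose_conjTranspose, Matrix.mul_assoc, ← Matrix.mul_assoc u, hu',
      Matrix.one_mul, hv]
  have r1 := row_sum hc1
  have r2 : ∀ j, ∑ i, ‖(uᴴ * v) i j‖ ^ 2 = 1 := fun j => by
    simpa only [Matrix.conjTranspose_apply, norm_star] using row_sum hc2 j
  refine ⟨uᴴ * v, ?_, fun h => ?_⟩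
  · have h1 : trace (W * ρ) =
        trace (dg hW.eigenvalues * (uᴴ * v) * dg hρ.eigenvalues * (uᴴ * v)ᴴ) := by
      calc trace (W * ρ)
          = trace (u * dg hW.eigenvalues * uᴴ * (v * dg hρ.eigenvalues * vᴴ)) := by
            rw [← hWu, ← hρv]
        _ = trace (u * (dg hW.eigenvalues * uᴴ * (v * dg hρ.eigenvalues * vᴴ))) := by
            simp only [Matrix.mul_assoc]
        _ = trace (dg hW.eigenvalues * uᴴ * (v * dg hρ.eigenvalues * vᴴ) * u) :=
            Matrix.trace_mul_comm _ _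
        _ = _ := by
            simp only [Matrix.conjTranspose_mul, Matrix.conjTranspose_conjTranspose,
              Matrix.mul_assoc]
    have h2 : ∑ i, hW.eigenvalues i ^ (1 + α) =
        ∑ i, ∑ j, ‖(uᴴ * v) i j‖ ^ 2 * hW.eigenvalues i ^ (1 + α) :=
      Finset.sum_congr rfl fun i _ => by rw [← Finset.sum_mul, r1, one_mul]
    have h3 : ∑ j, hρ.eigenvalues j ^ (1 + α⁻¹) =
        ∑ i, ∑ j, ‖(uᴴ * v) i j‖ ^ 2 * hρ.eigenvalues j ^ (1 + α⁻¹) := by
      rw [Finset.sum_comm]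
      exact Finset.sum_congr rfl fun j _ => by rw [← Finset.sum_mul, r2, one_mul]
    rw [klein, trp_eq_sum hW, trp_eq_sum hρ, h1, trace_dg_mul, h2, h3]
    simp only [Finset.mul_sum, ← Finset.sum_sub_distrib, ← Finset.sum_add_distrib]
    refine Finset.sum_congr rfl fun i _ => Finset.sum_congr rfl fun j _ => ?_
    ring
  · have h1 : dg hW.eigenvalues * (uᴴ * v) =
        (uᴴ * v) * dg fun j => hρ.eigenvalues j ^ α⁻¹ := by
      ext i j
      rw [dg, dg, Matrix.mul_diagonal, Matrix.diagonal_mul]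
      rcases h i j with h2 | h2
      · rw [h2, mul_zero, zero_mul]
      · rw [h2, mul_comm]
    rw [mpow, hρf]
    calc W = u * dg hW.eigenvalues * uᴴ * (v * vᴴ) := by rw [← hWu, hv', Matrix.mul_one]
      _ = u * (dg hW.eigenvalues * (uᴴ * v)) * vᴴ := by simp only [Matrix.mul_assoc]
      _ = (u * uᴴ) * (v * (dg fun j => hρ.eigenvalues j ^ α⁻¹) * vᴴ) := by
          rw [h1]; simp only [Matrix.mul_assoc]
      _ = _ := by rw [hu', Matrix.one_mul]

theorem klein_nonneg {α : ℝ} (hα : 0 < α) {W ρ : Matrix ι ι ℂ} (hW : W.PosSemidef)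
    (hρ : ρ.PosSemidef) : 0 ≤ klein α W ρ := by
  obtain ⟨c, hc, -⟩ := klein_decomp α hW.isHermitian hρ.isHermitian
  rw [hc]
  exact Finset.sum_nonneg fun i _ => Finset.sum_nonneg fun j _ => mul_nonneg (sq_nonneg _)
    (young_nonneg hα (hW.eigenvalues_nonneg i) (hρ.eigenvalues_nonneg j))

theorem eq_mpow_of_klein_eq_zero {α : ℝ} (hα : 0 < α) {W ρ : Matrix ι ι ℂ} (hW : W.PosSemidef)
    (hρ : ρ.PosSemidef) (h : klein α W ρ = 0) : W = mpow ρ α⁻¹ := by
  obtain ⟨c, hc, hc'⟩ := klein_decomp α hW.isHermitian hρ.isHermitian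
  refine hc' fun i j => ?_
  have hn := fun i j => mul_nonneg (sq_nonneg ‖c i j‖)
    (young_nonneg hα (hW.eigenvalues_nonneg i) (hρ.eigenvalues_nonneg j))
  rw [hc, Finset.sum_eq_zero_iff_of_nonneg fun i _ => Finset.sum_nonneg fun j _ => hn i j] at h
  have h1 := (Finset.sum_eq_zero_iff_of_nonneg fun j _ => hn i j).1 (h i (Finset.mem_univ _)) j
    (Finset.mem_univ _)
  rcases mul_eq_zero.1 h1 with h2 | h2
  · exact Or.inl (by simpa using h2)
  · exact Or.inr (young_eq hα (hW.eigenvalues_nonneg i) (hρ.eigenvalues_nonneg j) h2)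

omit [DecidableEq ι] in
private theorem psd_of_tendsto {ρ : ℕ → Matrix ι ι ℂ} (hρ : ∀ n, (ρ n).PosSemidef)
    {A : Matrix ι ι ℂ} (h : Tendsto ρ atTop (𝓝 A)) : A.PosSemidef := by
  refine Matrix.posSemidef_iff_dotProduct_mulVec.2 ⟨?_, fun x => ?_⟩
  · have h1 : Tendsto (fun n => (ρ n)ᴴ) atTop (𝓝 Aᴴ) :=
      ((continuous_id.matrix_conjTranspose).tendsto A).comp h
    have h2 : (fun n => (ρ n)ᴴ) = ρ := funext fun n => (hρ n).isHermitian
    rw [h2] at h1
    exact tendsto_nhds_unique h1 h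
  · have hc : Continuous fun B : Matrix ι ι ℂ => star x ⬝ᵥ (B *ᵥ x) :=
      continuous_const.dotProduct (continuous_id.matrix_mulVec continuous_const)
    exact ge_of_tendsto' ((hc.tendsto A).comp h) fun n => (hρ n).dotProduct_mulVec_nonneg x

theorem klein_tendsto {α : ℝ} (hα : 0 < α) {W : Matrix ι ι ℂ} (hW : W.PosSemidef)
    {ρ : ℕ → Matrix ι ι ℂ} (hρ : ∀ n, (ρ n).PosSemidef) {C : ℝ}
    (hC : ∀ n, (trace (ρ n)).re ≤ C) (h : Tendsto (fun n => klein α W (ρ n)) atTop (𝓝 0)) :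
    Tendsto (fun n => mpow (ρ n) α⁻¹) atTop (𝓝 W) := by
  refine tendsto_of_subseq_tendsto fun ns hns => ?_
  have hb : ∀ n, ρ (ns n) ∈ Metric.closedBall (0 : Matrix ι ι ℂ) C := fun n => by
    rw [mem_closedBall_zero_iff]
    exact (norm_le_trace (hρ _)).trans (hC _)
  obtain ⟨A, -, φ, hφ, hA⟩ := (isCompact_closedBall (0 : Matrix ι ι ℂ) C).tendsto_subseq hb
  have hAp : A.PosSemidef := psd_of_tendsto (fun n => hρ (ns (φ n))) hA
  have hA' : Tendsto (fun n => ρ (ns (φ n))) atTop (𝓝[{B | B.IsHermitian}] A) :=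
    tendsto_nhdsWithin_iff.2 ⟨hA, Eventually.of_forall fun n => (hρ _).isHermitian⟩
  have hm : ∀ {t : ℝ}, 0 ≤ t →
      Tendsto (fun n => mpow (ρ (ns (φ n))) t) atTop (𝓝 (mpow A t)) := fun ht =>
    (continuousOn_mpow ht A hAp.isHermitian).tendsto.comp hA'
  have htr : Continuous fun B : Matrix ι ι ℂ => (trace B).re :=
    Complex.continuous_re.comp continuous_id.matrix_trace
  have h1 : Tendsto (fun n => klein α W (ρ (ns (φ n)))) atTop (𝓝 (klein α W A)) := by
    refine (tendsto_const_nhds.sub (Tendsto.const_mul _ ?_)).add (Tendsto.const_mul _ ?_)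
    · exact ((htr.comp (continuous_const.matrix_mul continuous_id)).tendsto A).comp hA
    · exact (htr.tendsto _).comp (hm (by positivity))
  have h2 : klein α W A = 0 :=
    tendsto_nhds_unique h1 ((h.comp hns).comp hφ.tendsto_atTop)
  refine ⟨φ, ?_⟩
  rw [eq_mpow_of_klein_eq_zero hα hW hAp h2]
  exact hm (by positivity)

end Crest.Agent.R332
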