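import Crest.Agent.R332.Mat

/-!
# Completing the square

`hs2 (Y' - YF) = hs2 Y' - re tr (B' F) + re tr (B F²)` with `B = YᴴY`, `B' = Y'ᴴY + YᴴY'`
(`hs2_eq_trace`, cyclicity of the trace, `F` Hermitian), and `re tr (B F)` vanishes at both ends,
so `∫ re tr (B'F + BF') = 0` (`intervalIntegral.integral_eq_sub_of_hasDeriv_right_of_le` or
`integral_eq_sub_of_hasDerivAt_of_le`; all integrands are continuous on `[a,b]`).
-/

set_option autoImplicit false

open MeasureTheory Matrix Filter Topology Set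
open scoped ComplexOrder Matrix.Norms.L2Operator MatrixOrder
open Crest.MathPhysics.LiebThirring

namespace Crest.Agent.R332

variable {ι κ : Type*} [Fintype ι] [Fintype κ] [DecidableEq κ]

omit [DecidableEq κ] in
theorem nehari_pt (Y Y' : Matrix ι κ ℂ) (F F' : Matrix κ κ ℂ) (hF : F.IsHermitian) :
    hs2 (Y' - Y * F) + (trace ((Y'ᴴ * Y + Yᴴ * Y') * F + Yᴴ * Y * F')).re =
      hs2 Y' + (trace (Yᴴ * Y * (F' + F * F))).re := by
  rw [hs2_eq_trace, hs2_eq_trace]
  have e1 : trace (F * Yᴴ * Y') = trace (Yᴴ * Y' * F) := by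
    rw [Matrix.mul_assoc F, trace_mul_comm]
  have e2 : trace (F * Yᴴ * (Y * F)) = trace (Yᴴ * Y * (F * F)) := by
    rw [Matrix.mul_assoc F, trace_mul_comm]
    simp only [Matrix.mul_assoc]
  have e3 : trace (Y'ᴴ * (Y * F)) = trace (Y'ᴴ * Y * F) := by rw [Matrix.mul_assoc]
  simp only [conjTranspose_sub, conjTranspose_mul, hF.eq, Matrix.sub_mul, Matrix.mul_sub,
    Matrix.add_mul, Matrix.mul_add, trace_sub, trace_add, e1, e2, e3, Complex.add_re,
    Complex.sub_re]
  ring

omit [Fintype ι] [DecidableEq κ] in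
theorem nehari_cont_mul {μ : Type*} {A : ℝ → Matrix ι κ ℂ} {B : ℝ → Matrix κ μ ℂ}
    {s : Set ℝ} (hA : ContinuousOn A s) (hB : ContinuousOn B s) :
    ContinuousOn (fun t => A t * B t) s := by
  rw [continuousOn_iff_continuous_domRestrict] at hA hB ⊢
  exact hA.matrix_mul hB

omit [Fintype ι] [Fintype κ] [DecidableEq κ] in
theorem nehari_cont_conj {A : ℝ → Matrix ι κ ℂ} {s : Set ℝ} (hA : ContinuousOn A s) :
    ContinuousOn (fun t => (A t)ᴴ) s := by
  rw [continuousOn_iff_continuous_domRestrict] at hA ⊢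
  exact hA.matrix_conjTranspose

omit [DecidableEq κ] in
theorem nehari_cont_retrace {A : ℝ → Matrix κ κ ℂ} {s : Set ℝ} (hA : ContinuousOn A s) :
    ContinuousOn (fun t => (trace (A t)).re) s := by
  rw [continuousOn_iff_continuous_domRestrict] at hA ⊢
  exact Complex.continuous_re.comp hA.matrix_trace

theorem nehari {Y Y' : ℝ → Matrix ι κ ℂ} {F F' : ℝ → Matrix κ κ ℂ} {a b : ℝ} (hab : a ≤ b)
    (hY : ∀ t ∈ Icc a b, HasDerivWithinAt Y (Y' t) (Icc a b) t)
    (hY' : ContinuousOn Y' (Icc a b))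
    (hF : ∀ t ∈ Icc a b, HasDerivWithinAt F (F' t) (Icc a b) t)
    (hF' : ContinuousOn F' (Icc a b)) (hH : ∀ t ∈ Icc a b, (F t).IsHermitian)
    (ha : Y a = 0) (hb : Y b = 0) :
    ∫ t in a..b, hs2 (Y' t - Y t * F t) =
      ∫ t in a..b, (hs2 (Y' t) + (trace ((Y t)ᴴ * Y t * (F' t + F t * F t))).re) := by
  classical
  have cY : ContinuousOn Y (Icc a b) := fun t ht => (hY t ht).continuousWithinAt
  have cF : ContinuousOn F (Icc a b) := fun t ht => (hF t ht).continuousWithinAt
  have cB : ContinuousOn (fun t => (Y t)ᴴ * Y t) (Icc a b) :=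
    nehari_cont_mul (nehari_cont_conj cY) cY
  set g : ℝ → ℝ := fun t =>
    (trace (((Y' t)ᴴ * Y t + (Y t)ᴴ * Y' t) * F t + (Y t)ᴴ * Y t * F' t)).re with hg
  have cg : ContinuousOn g (Icc a b) :=
    nehari_cont_retrace ((nehari_cont_mul ((nehari_cont_mul (nehari_cont_conj hY') cY).add
      (nehari_cont_mul (nehari_cont_conj cY) hY')) cF).add (nehari_cont_mul cB hF'))
  have c1 : ContinuousOn (fun t => hs2 (Y' t - Y t * F t)) (Icc a b) :=
    continuous_hs2.comp_continuousOn (hY'.sub (nehari_cont_mul cY cF))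
  have hd : ∀ t ∈ Icc a b,
      HasDerivWithinAt (fun t => (trace ((Y t)ᴴ * Y t * F t)).re) (g t) (Icc a b) t :=
    fun t ht => HasDerivWithinAt.retrace (HasDerivWithinAt.mmul
      (HasDerivWithinAt.mmul (HasDerivWithinAt.mconj (hY t ht)) (hY t ht)) (hF t ht))
  have h0 : ∫ t in a..b, g t = 0 := by
    rw [intervalIntegral.integral_eq_sub_of_hasDerivAt_of_le hab
      (fun t ht => (hd t ht).continuousWithinAt)
      (fun t ht => (hd t (Ioo_subset_Icc_self ht)).hasDerivAt (Icc_mem_nhds ht.1 ht.2))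
      (cg.intervalIntegrable_of_Icc hab)]
    simp [ha, hb]
  have h1 := intervalIntegral.integral_add (c1.intervalIntegrable_of_Icc (μ := volume) hab)
    (cg.intervalIntegrable_of_Icc hab)
  rw [h0, add_zero] at h1
  rw [← h1]
  refine intervalIntegral.integral_congr fun t ht => ?_
  rw [uIcc_of_le hab] at ht
  exact nehari_pt _ _ _ _ (hH t ht)

end Crest.Agent.R332
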