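import Crest.Agent.R332.DatBasic
import Crest.Agent.R332.Klein
import Crest.Agent.R332.Nehari
import Crest.Agent.R332.Action

/-!
# The chain of (in)equalities for a `Datum`

`x ↦ re tr (W ρ)` is integrable (entries of `ρ` are continuous with compact support, entries of `W`
are locally integrable: `locallyIntegrable_entry`), so `d1` is integrable and
`∫ d1 = ∫ tr W^p - p ∫ tr Wρ + α ∫ tr V^p` (`trp_ρ`).  `nehari` on `[a,b]` with `F' = A - V`
(`F' + F² = K² - V`) and `D.energy` give `∫ tr Wρ = ∫ d2 + ∫ tr (BV) = ∫ d2 + ∫ tr V^p`.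
`action_datum` is `action` with the interval integrals turned into integrals over `ℝ`
(`integral_eq_interval`); `action_plain` follows with `kmax = ∑ κ` and `vmax = sup ‖V‖`
(continuous with compact support), dropping the nonnegative deficit.
-/

set_option autoImplicit false

open MeasureTheory Matrix Filter Topology Set
open scoped ComplexOrder Matrix.Norms.L2Operator MatrixOrder
open Crest.MathPhysics.LiebThirring

namespace Crest.Agent.R332

namespace Datum

variable {m : ℕ} {α : ℝ} {W : ℝ → Matrix (Fin m) (Fin m) ℂ}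

theorem d1_nonneg (D : Datum m α W) (hα : 0 < α) (hWp : ∀ x, (W x).PosSemidef) (x : ℝ) :
    0 ≤ D.d1 x :=
  klein_nonneg hα (hWp x) (D.ρ_posSemidef x)

theorem chain_ρ_supp (D : Datum m α W) {x : ℝ} (hx : x ∉ Ioo D.a D.b) : D.ρ x = 0 := by
  rw [ρ, D.Y_supp x hx, Matrix.zero_mul]

theorem integrable_trWρ (D : Datum m α W) (hα : 0 < α) (hW : ∀ i j, Measurable fun x => W x i j)
    (hWp : ∀ x, (W x).PosSemidef) (hWi : Integrable fun x => trp (W x) (1 + α)) :
    Integrable fun x => (trace (W x * D.ρ x)).re := by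
  refine Integrable.re (𝕜 := ℂ) (f := fun x => trace (W x * D.ρ x)) ?_
  simp only [trace, diag_apply, Matrix.mul_apply]
  refine integrable_finsetSum _ fun i _ => integrable_finsetSum _ fun j _ => ?_
  refine (locallyIntegrable_entry hW hWp (by linarith) hWi i j).integrable_smul_right_of_hasCompactSupport
    (g := fun x => D.ρ x j i) (D.continuous_ρ.matrix_elem j i) ?_
  refine HasCompactSupport.intro (isCompact_Icc (a := D.a) (b := D.b)) fun x hx => ?_
  rw [D.chain_ρ_supp fun h => hx (Ioo_subset_Icc_self h)]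
  rfl

theorem d1_eq (D : Datum m α W) (hα : 0 < α) : D.d1 = fun x => trp (W x) (1 + α) -
    (1 + α) * (trace (W x * D.ρ x)).re + α * trp (D.V x) (1 + α) := by
  funext x
  rw [d1, klein, D.trp_ρ hα]

theorem integral_trWρ (D : Datum m α W) (hα : 0 < α) :
    ∫ x, (trace (W x * D.ρ x)).re = (∫ x, D.d2 x) + ∫ x, trp (D.V x) (1 + α) := by
  have h1 := nehari (Y := D.Y) (Y' := D.Y') (F := D.F) (F' := fun x => D.A x - D.V x) D.hab
    (fun t _ => (D.Y_deriv t).hasDerivWithinAt) D.Y'_cont.continuousOn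
    (fun t _ => (D.hasDerivAt_F t).hasDerivWithinAt)
    (D.continuous_A.sub (D.continuous_V hα)).continuousOn (fun t _ => D.F_herm t)
    (D.Y_supp _ fun h => lt_irrefl _ h.1) (D.Y_supp _ fun h => lt_irrefl _ h.2)
  have h2 : ∫ x, D.d2 x = ∫ t in D.a..D.b, hs2 (D.Y' t - D.Y t * D.F t) :=
    integral_eq_interval D.hab fun x hx => D.d2_supp hx
  have c1 : Continuous fun t => hs2 (D.Y' t) +
      (trace ((D.Y t)ᴴ * D.Y t * (D.A t - D.V t + D.F t * D.F t))).re :=
    (continuous_hs2.comp D.Y'_cont).add (Complex.continuous_re.comp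
      (D.continuous_B.matrix_mul ((D.continuous_A.sub (D.continuous_V hα)).add
        (D.continuous_F.matrix_mul D.continuous_F))).matrix_trace)
  have s1 : ∀ t, t ∉ Ioo D.a D.b → hs2 (D.Y' t) +
      (trace ((D.Y t)ᴴ * D.Y t * (D.A t - D.V t + D.F t * D.F t))).re = 0 := by
    intro t ht
    rw [D.Y'_supp t ht, D.Y_supp t ht, hs2_zero, Matrix.mul_zero, Matrix.zero_mul, trace_zero]
    simp
  rw [h2, h1, ← integral_eq_interval D.hab s1,
    ← integral_add (integrable_of_supp c1 s1) (D.integrable_trpV hα)]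
  refine D.energy.trans (integral_congr_ae (Eventually.of_forall fun t => ?_))
  have e : D.A t - D.V t + D.F t * D.F t = D.K2 - D.V t := by rw [A]; abel
  have e2 := D.trace_B_mul_V hα t
  simp only [e, ← e2]
  rw [Matrix.mul_sub, trace_sub, Complex.sub_re, trace_mul_comm (dg D.κ * dg D.κ)]
  simp only [B, K2]
  ring

theorem integrable_d1 (D : Datum m α W) (hα : 0 < α) (hW : ∀ i j, Measurable fun x => W x i j)
    (hWp : ∀ x, (W x).PosSemidef) (hWi : Integrable fun x => trp (W x) (1 + α)) :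
    Integrable D.d1 := by
  rw [D.d1_eq hα]
  exact (hWi.sub ((D.integrable_trWρ hα hW hWp hWi).const_mul _)).add
    ((D.integrable_trpV hα).const_mul _)

theorem chain (D : Datum m α W) (hα : 0 < α) (hW : ∀ i j, Measurable fun x => W x i j)
    (hWp : ∀ x, (W x).PosSemidef) (hWi : Integrable fun x => trp (W x) (1 + α)) :
    ∫ x, trp (W x) (1 + α) =
      (∫ x, trp (D.V x) (1 + α)) + (∫ x, D.d1 x) + (1 + α) * ∫ x, D.d2 x := by
  have i1 := (D.integrable_trWρ hα hW hWp hWi).const_mul (1 + α)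
  have i2 : Integrable fun x => trp (W x) (1 + α) - (1 + α) * (trace (W x * D.ρ x)).re :=
    hWi.sub i1
  rw [D.d1_eq hα, integral_add i2 ((D.integrable_trpV hα).const_mul _), integral_sub hWi i1,
    integral_const_mul, integral_const_mul, D.integral_trWρ hα]
  ring

theorem action_datum (hα : 0 < α) (hα1 : α < 1) (kmax vmax : ℝ) :
    ∃ c : ℝ, 0 < c ∧ ∀ D : Datum m α W, (∀ i, D.κ i ≤ kmax) → (∀ x, ‖D.V x‖ ≤ vmax) →
      (∑ i, D.κ i ^ (2 * α + 1)) * Ia α + c * ((∫ x, D.d3 x) + ∫ x, D.d4 x) ≤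
        ca α * ∫ x, trp (D.V x) (1 + α) := by
  obtain ⟨c, hc, h⟩ := action hα hα1 kmax vmax
  refine ⟨c, hc, fun D hk hv => ?_⟩
  have h1 := h D.N D.κ D.F D.V D.a D.b D.hab D.κ_pos hk (D.continuous_V hα) D.V_posSemidef
    (fun x => posSemidef_sub_of_norm_le (D.V_posSemidef x).isHermitian (hv x)) D.F_deriv
    (D.F_left _ le_rfl) (D.F_right _ le_rfl) D.F_le D.F_ge
  rw [← integral_add D.integrable_d3 (D.integrable_d4 hα),
    integral_eq_interval (f := fun x => D.d3 x + D.d4 x) D.hab
      (fun x hx => by rw [D.d3_supp hx, D.d4_supp hα hx, add_zero]),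
    integral_eq_interval D.hab fun x hx => D.trpV_supp hα hx]
  exact h1

theorem action_plain (D : Datum m α W) (hα : 0 < α) (hα1 : α < 1) :
    (∑ i, D.κ i ^ (2 * α + 1)) * Ia α ≤ ca α * ∫ x, trp (D.V x) (1 + α) := by
  obtain ⟨C, hC⟩ := (isCompact_Icc (a := D.a) (b := D.b)).exists_bound_of_continuousOn
    (D.continuous_V hα).continuousOn
  obtain ⟨c, hc, h⟩ := action_datum (m := m) (W := W) hα hα1 (∑ i, D.κ i) (max C 0)
  have h1 := h D (fun i => Finset.single_le_sum (fun j _ => (D.κ_pos j).le) (Finset.mem_univ i))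
    fun x => by
      by_cases hx : x ∈ Ioo D.a D.b
      · exact (hC x (Ioo_subset_Icc_self hx)).trans (le_max_left _ _)
      · rw [D.V_supp hα hx, norm_zero]; exact le_max_right _ _
  have h3 : 0 ≤ ∫ x, D.d3 x := integral_nonneg fun x => hs2_nonneg _
  have h4 : 0 ≤ ∫ x, D.d4 x := integral_nonneg fun x => hs2_nonneg _
  have h5 : 0 ≤ c * ((∫ x, D.d3 x) + ∫ x, D.d4 x) := by positivity
  linarith

end Datum

end Crest.Agent.R332
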