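import Crest.Agent.R332.Basic

/-!
# The constant and the soliton integral

`Ia α = B(1/2, α+1) = √π Γ(α+1)/Γ(α+3/2)` (substitute `f² = u`, or `f = 2u-1`:
`∫_{-1}^1 (1-f²)^α = 2^{2α+1} B(α+1,α+1)`, `Complex.betaIntegral`, `Gamma_mul_Gamma_eq_betaIntegral`
and the duplication formula `Real.Gamma_mul_Gamma_add_half`).  With `α = γ - 1/2`,
`Γ(γ+3/2) = Γ(α+2) = (α+1)Γ(α+1)`, `Γ(γ+1) = Γ(α+3/2)`.
Soliton integral: `soliton r a c x ^ (1+α) = (β a²)^{1+α} cosh(ra(x-c))^{-2-2α}`; substitute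
`f = tanh (r a (x-c))`, `df = r a / cosh² dx`, `1 - f² = 1/cosh²`
(`integral_image_eq_integral_abs_deriv_smul` on `univ`, image `Ioo (-1) 1`; or FTC with the
primitive `x ↦ ∫_0^{tanh ..} (1-f²)^α` and `integral_of_hasDerivAt_of_tendsto`).  One gets
`β^{1+α} a^{2α+1} α I_α` and `ca α · α β^{1+α} = 1` (`β = (1+α)/α`).
-/

set_option autoImplicit false

open MeasureTheory Matrix Filter Topology Set
open scoped ComplexOrder Matrix.Norms.L2Operator MatrixOrder
open Crest.MathPhysics.LiebThirring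

namespace Crest.Agent.R332

theorem const_beta {α : ℝ} (hα : 0 < α) :
    ∫ u in (0 : ℝ)..1, u ^ α * (1 - u) ^ α =
      Real.Gamma (α + 1) * Real.Gamma (α + 1) / Real.Gamma (α + 1 + (α + 1)) := by
  have h := ProbabilityTheory.beta_eq_betaIntegralReal (α + 1) (α + 1) (by linarith) (by linarith)
  rw [ProbabilityTheory.beta] at h
  rw [h, Complex.betaIntegral]
  have : ∫ x : ℝ in (0 : ℝ)..1, (x : ℂ) ^ (((α + 1 : ℝ) : ℂ) - 1) *
      (1 - (x : ℂ)) ^ (((α + 1 : ℝ) : ℂ) - 1) =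
      ∫ x : ℝ in (0 : ℝ)..1, ((x ^ α * (1 - x) ^ α : ℝ) : ℂ) := by
    refine intervalIntegral.integral_congr fun x hx => ?_
    rw [uIcc_of_le zero_le_one] at hx
    rw [Complex.ofReal_mul, Complex.ofReal_cpow hx.1, Complex.ofReal_cpow (by linarith [hx.2])]
    push_cast
    simp
  rw [this, intervalIntegral.integral_ofReal, Complex.ofReal_re]

theorem Ia_eq {α : ℝ} (hα : 0 < α) :
    Ia α = √Real.pi * Real.Gamma (α + 1) / Real.Gamma (α + 1 + 1 / 2) := by
  have h1 := intervalIntegral.smul_integral_comp_mul_sub (a := 0) (b := 1)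
    (fun f : ℝ => (1 - f ^ 2) ^ α) 2 1
  have h2 : ∫ x in (0 : ℝ)..1, (1 - (2 * x - 1) ^ 2) ^ α =
      ∫ x in (0 : ℝ)..1, (2 : ℝ) ^ (2 * α) * (x ^ α * (1 - x) ^ α) := by
    refine intervalIntegral.integral_congr fun x hx => ?_
    rw [uIcc_of_le zero_le_one] at hx
    have h3 : 0 ≤ 1 - x := by linarith [hx.2]
    rw [Real.rpow_mul (by norm_num), ← Real.mul_rpow hx.1 h3, ← Real.mul_rpow (by positivity)
      (mul_nonneg hx.1 h3)]
    congr 1
    norm_num
    ring
  rw [h2, intervalIntegral.integral_const_mul, const_beta hα] at h1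
  have h3 := Real.Gamma_mul_Gamma_add_half (α + 1)
  have h4 : Ia α = 2 * ((2 : ℝ) ^ (2 * α) * (Real.Gamma (α + 1) * Real.Gamma (α + 1) /
      Real.Gamma (α + 1 + (α + 1)))) := by
    rw [Ia, ← smul_eq_mul, h1]
    norm_num
  have g1 := Real.Gamma_pos_of_pos (show 0 < α + 1 + 1 / 2 by linarith)
  have g2 := Real.Gamma_pos_of_pos (show 0 < 2 * (α + 1) by linarith)
  have h5 : (2 : ℝ) ^ (1 - 2 * (α + 1)) * (2 * (2 : ℝ) ^ (2 * α)) = 1 := by
    rw [mul_comm (2 : ℝ) (2 ^ (2 * α)), ← Real.rpow_add_one (by norm_num),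
      ← Real.rpow_add (by norm_num)]
    ring_nf
    simp
  rw [h4, ← two_mul (α + 1), eq_div_iff g1.ne']
  calc _ = 2 * (2 : ℝ) ^ (2 * α) * Real.Gamma (α + 1) *
        (Real.Gamma (α + 1) * Real.Gamma (α + 1 + 1 / 2)) / Real.Gamma (2 * (α + 1)) := by ring
    _ = ((2 : ℝ) ^ (1 - 2 * (α + 1)) * (2 * (2 : ℝ) ^ (2 * α))) *
        (√Real.pi * Real.Gamma (α + 1)) := by
        rw [h3]
        field_simp
    _ = _ := by rw [h5, one_mul]

theorem Ia_pos {α : ℝ} (hα : 0 < α) : 0 < Ia α := by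
  rw [Ia_eq hα]
  have g1 := Real.Gamma_pos_of_pos (show 0 < α + 1 + 1 / 2 by linarith)
  have g2 := Real.Gamma_pos_of_pos (show 0 < α + 1 by linarith)
  have := Real.pi_pos
  positivity

theorem ca_pos {α : ℝ} (hα : 0 < α) : 0 < ca α := by
  unfold ca
  positivity

theorem sharpConst_eq {α : ℝ} (hα : 0 < α) : sharpConst (α + 1 / 2) = ca α / Ia α := by
  have g1 := Real.Gamma_pos_of_pos (show 0 < α + 1 + 1 / 2 by linarith)
  have g2 := Real.Gamma_pos_of_pos (show 0 < α + 1 by linarith)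
  have := Real.pi_pos
  rw [Ia_eq hα, sharpConst, ca, show α + 1 / 2 - 1 / 2 = α by ring,
    show α + 1 / 2 + 1 / 2 = 1 + α by ring, show α + 1 / 2 + 1 = α + 1 + 1 / 2 by ring,
    show α + 1 / 2 + 3 / 2 = α + 1 + 1 by ring, Real.Gamma_add_one (by linarith), add_comm 1 α]
  field_simp

theorem const_tanh_deriv (x : ℝ) : HasDerivAt Real.tanh (1 / Real.cosh x ^ 2) x := by
  have h := (Real.hasDerivAt_sinh x).div (Real.hasDerivAt_cosh x) (Real.cosh_pos x).ne'
  have h2 : Real.tanh = Real.sinh / Real.cosh := by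
    funext y
    exact Real.tanh_eq_sinh_div_cosh y
  rw [h2]
  refine h.congr_deriv ?_
  congr 1
  nlinarith [Real.cosh_sq x]

theorem const_sech_eq {α : ℝ} (x : ℝ) :
    |1 / Real.cosh x ^ 2| • (1 - Real.tanh x ^ 2) ^ α = (1 / Real.cosh x ^ 2) ^ (1 + α) := by
  have hc := Real.cosh_pos x
  have h1 : 1 - Real.tanh x ^ 2 = 1 / Real.cosh x ^ 2 := by
    rw [Real.tanh_eq_sinh_div_cosh]
    field_simp
    nlinarith [Real.cosh_sq x]
  rw [h1, abs_of_pos (by positivity), Real.rpow_add (by positivity), Real.rpow_one, smul_eq_mul]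

theorem const_sech_integrable {α : ℝ} (hα : 0 < α) :
    Integrable fun x => (1 / Real.cosh x ^ 2) ^ (1 + α) := by
  have h := (integrableOn_image_iff_integrableOn_abs_deriv_smul MeasurableSet.univ
    (fun x _ => (const_tanh_deriv x).hasDerivWithinAt) Real.tanh_injective.injOn
    (fun f : ℝ => (1 - f ^ 2) ^ α)).1 (by
      rw [Real.tanh_bijOn.image_eq]
      have : Continuous fun f : ℝ => (1 - f ^ 2) ^ α :=
        Continuous.rpow_const (by fun_prop) fun _ => Or.inr hα.le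
      exact this.integrableOn_Icc.mono_set Ioo_subset_Icc_self)
  rw [integrableOn_univ] at h
  simpa only [const_sech_eq] using h

theorem const_sech_integral (α : ℝ) : ∫ x, (1 / Real.cosh x ^ 2) ^ (1 + α) = Ia α := by
  have h := integral_image_eq_integral_abs_deriv_smul MeasurableSet.univ
    (fun x _ => (const_tanh_deriv x).hasDerivWithinAt) Real.tanh_injective.injOn
    (fun f : ℝ => (1 - f ^ 2) ^ α)
  rw [Real.tanh_bijOn.image_eq, Measure.restrict_univ] at h
  simp only [const_sech_eq] at h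
  rw [← h, Ia, intervalIntegral.integral_of_le (by norm_num), integral_Ioc_eq_integral_Ioo]

theorem const_soliton_eq {α : ℝ} (hα : 0 < α) (a c x : ℝ) :
    soliton α⁻¹ a c x ^ (1 + α) = ((α⁻¹ + 1) * a ^ 2) ^ (1 + α) *
      (1 / Real.cosh (α⁻¹ * a * (x - c)) ^ 2) ^ (1 + α) := by
  rw [← Real.mul_rpow (by positivity) (by positivity), soliton, mul_one_div]

theorem integrable_soliton_rpow {α : ℝ} (hα : 0 < α) {a : ℝ} (ha : 0 ≤ a) (c : ℝ) :
    Integrable fun x => soliton α⁻¹ a c x ^ (1 + α) := by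
  simp only [const_soliton_eq hα]
  rcases ha.eq_or_lt with rfl | ha
  · simp [Real.zero_rpow (show 1 + α ≠ 0 by linarith)]
  · exact (((const_sech_integrable hα).comp_mul_left'
      (show α⁻¹ * a ≠ 0 by positivity)).comp_sub_right c).const_mul _

theorem integral_soliton_rpow {α : ℝ} (hα : 0 < α) {a : ℝ} (ha : 0 ≤ a) (c : ℝ) :
    ca α * ∫ x, soliton α⁻¹ a c x ^ (1 + α) = a ^ (2 * α + 1) * Ia α := by
  simp only [const_soliton_eq hα]
  rcases ha.eq_or_lt with rfl | ha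
  · simp [Real.zero_rpow (show 1 + α ≠ 0 by linarith),
      Real.zero_rpow (show 2 * α + 1 ≠ 0 by linarith)]
  rw [integral_const_mul, integral_sub_right_eq_self
    (fun x => (1 / Real.cosh (α⁻¹ * a * x) ^ 2) ^ (1 + α)) c,
    Measure.integral_comp_mul_left (fun x => (1 / Real.cosh x ^ 2) ^ (1 + α)),
    const_sech_integral, abs_of_pos (by positivity), smul_eq_mul, ← mul_assoc, ← mul_assoc]
  congr 1
  have h1 : (a ^ 2) ^ (1 + α) = a ^ (2 * α + 1) * a := by
    rw [← Real.rpow_natCast, ← Real.rpow_mul ha.le, ← Real.rpow_add_one ha.ne']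
    congr 1
    push_cast
    ring
  have h2 : (α / (1 + α)) ^ α * (α⁻¹ + 1) ^ α = 1 := by
    rw [← Real.mul_rpow (by positivity) (by positivity)]
    have : α / (1 + α) * (α⁻¹ + 1) = 1 := by field_simp
    rw [this, Real.one_rpow]
  rw [Real.mul_rpow (by positivity) (by positivity), h1, Real.rpow_add (by positivity),
    Real.rpow_one, ca]
  calc _ = ((α / (1 + α)) ^ α * (α⁻¹ + 1) ^ α) * a ^ (2 * α + 1) := by field_simp
    _ = _ := by rw [h2, one_mul]

end Crest.Agent.R332
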