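import Crest.Agent.R332.Mat

/-!
# Elementary properties of a `Datum`

Continuity from the derivatives and `continuous_mpow_comp`; all of `d2, d3, d4, trp V` vanish off
`(a,b)` (there `Y = Y' = 0`, `F = ±K`, `mpow 0 t = 0`), so they are continuous with compact support.
`‖F‖ ≤ C`: `C - F = (C - K) + (K - F) ≥ 0` etc. and `norm_le_of_posSemidef`.
`‖B‖ = ‖Y‖² ≤ hs2 Y`.  `F` is Lipschitz by the mean value inequality
(`Convex.norm_image_sub_le_of_norm_hasDerivWithin_le`).
-/

set_option autoImplicit false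

open MeasureTheory Matrix Filter Topology Set
open scoped ComplexOrder Matrix.Norms.L2Operator MatrixOrder
open Crest.MathPhysics.LiebThirring

namespace Crest.Agent.R332

namespace Datum

variable {m : ℕ} {α : ℝ} {W : ℝ → Matrix (Fin m) (Fin m) ℂ} (D : Datum m α W)

theorem F_herm (x : ℝ) : (D.F x).IsHermitian := by
  have h := (dg_isHermitian D.κ).sub (D.F_le x).isHermitian
  rwa [sub_sub_cancel] at h

theorem K2_eq : D.K2 = dg fun i => D.κ i ^ 2 := by
  simp only [K2, dg_mul_dg, sq]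

theorem A_herm (x : ℝ) : (D.A x).IsHermitian := by
  have h1 : D.K2.IsHermitian := by rw [K2_eq]; exact dg_isHermitian _
  refine h1.sub ?_
  unfold IsHermitian
  rw [conjTranspose_mul, (D.F_herm x).eq]

theorem B_posSemidef (x : ℝ) : (D.B x).PosSemidef := by
  exact posSemidef_conjTranspose_mul_self _

theorem ρ_posSemidef (x : ℝ) : (D.ρ x).PosSemidef := by
  exact posSemidef_self_mul_conjTranspose _

theorem V_posSemidef (x : ℝ) : (D.V x).PosSemidef := by
  exact mpow_posSemidef (D.B_posSemidef x) _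

theorem trace_B (x : ℝ) : (trace (D.B x)).re = hs2 (D.Y x) := by
  exact (hs2_eq_trace _).symm

theorem trace_ρ (x : ℝ) : (trace (D.ρ x)).re = hs2 (D.Y x) := by
  exact (hs2_eq_trace' _).symm

theorem continuous_Y : Continuous D.Y := by
  exact continuous_iff_continuousAt.2 fun x => (D.Y_deriv x).continuousAt

theorem continuous_F : Continuous D.F := by
  exact continuous_iff_continuousAt.2 fun x => (D.F_deriv x).continuousAt

theorem continuous_B : Continuous D.B := by
  exact D.continuous_Y.matrix_conjTranspose.matrix_mul D.continuous_Y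

theorem continuous_ρ : Continuous D.ρ := by
  exact D.continuous_Y.matrix_mul D.continuous_Y.matrix_conjTranspose

theorem continuous_A : Continuous D.A := by
  exact continuous_const.sub (D.continuous_F.matrix_mul D.continuous_F)

theorem continuous_V (hα : 0 < α) : Continuous D.V := by
  exact continuous_mpow_comp D.continuous_B (fun x => (D.B_posSemidef x).isHermitian)
    (inv_pos.2 hα).le

theorem continuous_d2 : Continuous D.d2 := by
  exact continuous_hs2.comp (D.Y'_cont.sub (D.continuous_Y.matrix_mul D.continuous_F))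

theorem continuous_d3 : Continuous D.d3 := by
  exact continuous_hs2.comp ((continuous_const.matrix_mul D.continuous_F).sub
    (D.continuous_F.matrix_mul continuous_const))

theorem continuous_d4 (hα : 0 < α) : Continuous D.d4 := by
  exact continuous_hs2.comp ((D.continuous_A.const_smul (1 + α⁻¹ : ℝ)).sub (D.continuous_V hα))

theorem continuous_trpV (hα : 0 < α) : Continuous fun x => trp (D.V x) (1 + α) := by
  exact continuous_trp_comp (D.continuous_V hα) (fun x => (D.V_posSemidef x).isHermitian)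
    (by linarith)

theorem F_eq_or {x : ℝ} (hx : x ∉ Ioo D.a D.b) : D.F x = dg D.κ ∨ D.F x = -dg D.κ := by
  by_cases h : x ≤ D.a
  · exact Or.inl (D.F_left x h)
  · exact Or.inr (D.F_right x (not_lt.1 fun h' => hx ⟨not_le.1 h, h'⟩))

theorem V_supp (hα : 0 < α) {x : ℝ} (hx : x ∉ Ioo D.a D.b) : D.V x = 0 := by
  simp only [V, B, D.Y_supp x hx, Matrix.mul_zero]
  exact mpow_zero_left (inv_pos.2 hα).ne'

theorem d2_supp {x : ℝ} (hx : x ∉ Ioo D.a D.b) : D.d2 x = 0 := by
  simp only [d2, D.Y_supp x hx, D.Y'_supp x hx, Matrix.zero_mul, sub_zero]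
  exact hs2_zero

theorem d3_supp {x : ℝ} (hx : x ∉ Ioo D.a D.b) : D.d3 x = 0 := by
  rcases D.F_eq_or hx with h | h
  · simp only [d3, h, K2, mul_assoc, sub_self]
    exact hs2_zero
  · simp only [d3, h, K2, mul_assoc, mul_neg, neg_mul, sub_self]
    exact hs2_zero

theorem d4_supp (hα : 0 < α) {x : ℝ} (hx : x ∉ Ioo D.a D.b) : D.d4 x = 0 := by
  rcases D.F_eq_or hx with h | h
  · simp only [d4, A, h, K2, D.V_supp hα hx, sub_self, smul_zero]
    exact hs2_zero
  · simp only [d4, A, h, K2, D.V_supp hα hx, mul_neg, neg_mul, neg_neg, sub_self, smul_zero]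
    exact hs2_zero

theorem trpV_supp (hα : 0 < α) {x : ℝ} (hx : x ∉ Ioo D.a D.b) : trp (D.V x) (1 + α) = 0 := by
  rw [D.V_supp hα hx, trp, mpow_zero_left (by linarith)]
  simp

/-- A continuous function vanishing off `(a,b)` is integrable. -/
theorem integrable_of_supp {E : Type*} [NormedAddCommGroup E] {f : ℝ → E} (hf : Continuous f)
    {a b : ℝ} (h : ∀ x, x ∉ Ioo a b → f x = 0) : Integrable f := by
  refine hf.integrable_of_hasCompactSupport
    (HasCompactSupport.intro (isCompact_Icc (a := a) (b := b)) fun x hx => h x fun hx' => ?_)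
  exact hx (Ioo_subset_Icc_self hx')

/-- For a function vanishing off `(a,b)`, the integral over `ℝ` is the interval integral. -/
theorem integral_eq_interval {f : ℝ → ℝ} {a b : ℝ} (hab : a ≤ b)
    (h : ∀ x, x ∉ Ioo a b → f x = 0) : ∫ x, f x = ∫ x in a..b, f x := by
  rw [intervalIntegral.integral_of_le hab]
  exact (setIntegral_eq_integral_of_forall_compl_eq_zero fun x hx =>
    h x fun hx' => hx (Ioo_subset_Ioc_self hx')).symm

theorem integrable_d2 : Integrable D.d2 := by
  exact integrable_of_supp D.continuous_d2 fun _ hx => D.d2_supp hx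

theorem integrable_d3 : Integrable D.d3 := by
  exact integrable_of_supp D.continuous_d3 fun _ hx => D.d3_supp hx

theorem integrable_d4 (hα : 0 < α) : Integrable D.d4 := by
  exact integrable_of_supp (D.continuous_d4 hα) fun _ hx => D.d4_supp hα hx

theorem integrable_trpV (hα : 0 < α) : Integrable fun x => trp (D.V x) (1 + α) := by
  exact integrable_of_supp (D.continuous_trpV hα) fun _ hx => D.trpV_supp hα hx

/-- `tr ρ^{1+r} = tr V^{1+α}`. -/
theorem trp_ρ (hα : 0 < α) (x : ℝ) : trp (D.ρ x) (1 + α⁻¹) = trp (D.V x) (1 + α) := by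
  have h1 : α⁻¹ * (1 + α) = 1 + α⁻¹ := by field_simp; ring
  rw [ρ, trp_comm _ (by positivity), trp, trp, V, mpow_mpow (D.B_posSemidef x), h1, B]

/-- `tr (B V) = tr V^{1+α}`. -/
theorem trace_B_mul_V (hα : 0 < α) (x : ℝ) :
    (trace (D.B x * D.V x)).re = trp (D.V x) (1 + α) := by
  have h1 : α⁻¹ * (1 + α) = 1 + α⁻¹ := by field_simp; ring
  rw [trp, V, mpow_mpow (D.B_posSemidef x), h1, mul_mpow (D.B_posSemidef x) (inv_pos.2 hα).le]

/-- `ρ^r Y = Y V`. -/
theorem mpow_ρ_mul_Y (x : ℝ) : mpow (D.ρ x) α⁻¹ * D.Y x = D.Y x * D.V x := by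
  exact mpow_intertwine _ _

theorem norm_K2_le {C : ℝ} (hC : ∀ i, D.κ i ≤ C) : ‖D.K2‖ ≤ C ^ 2 := by
  rw [K2_eq]
  refine norm_dg_le (sq_nonneg C) fun i => ?_
  rw [abs_of_nonneg (sq_nonneg _)]
  exact pow_le_pow_left₀ (D.κ_pos i).le (hC i) 2

theorem norm_F_le {C : ℝ} (hC0 : 0 ≤ C) (hC : ∀ i, D.κ i ≤ C) (x : ℝ) : ‖D.F x‖ ≤ C := by
  have hK : ((C : ℝ) • (1 : Matrix (Fin D.N) (Fin D.N) ℂ) - dg D.κ).PosSemidef :=
    posSemidef_sub_of_norm_le (dg_isHermitian _)
      (norm_dg_le hC0 fun i => by rw [abs_of_pos (D.κ_pos i)]; exact hC i)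
  refine norm_le_of_posSemidef hC0 ?_ ?_
  · have := hK.add (D.F_le x)
    rwa [sub_add_sub_cancel] at this
  · have := hK.add (D.F_ge x)
    rwa [← add_assoc, sub_add_cancel] at this

theorem norm_V_le (hα : 0 < α) {C : ℝ} {x : ℝ} (h : hs2 (D.Y x) ≤ C) : ‖D.V x‖ ≤ C ^ α⁻¹ := by
  refine norm_mpow_le (D.B_posSemidef x) (inv_pos.2 hα).le ?_
  exact (norm_le_trace (D.B_posSemidef x)).trans ((D.trace_B x).trans_le h)

theorem norm_F_sub_le (hα : 0 < α) {C : ℝ} (hC : ∀ i, D.κ i ≤ C) (hY : ∀ x, hs2 (D.Y x) ≤ C)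
    (x y : ℝ) : ‖D.F x - D.F y‖ ≤ (2 * C ^ 2 + C ^ α⁻¹) * |x - y| := by
  have hC0 : 0 ≤ C := (hs2_nonneg _).trans (hY 0)
  have hb : ∀ z, ‖D.A z - D.V z‖ ≤ 2 * C ^ 2 + C ^ α⁻¹ := by
    intro z
    have h1 : ‖D.F z * D.F z‖ ≤ C ^ 2 := by
      refine (norm_mul_le _ _).trans ?_
      rw [sq]
      exact mul_le_mul (D.norm_F_le hC0 hC z) (D.norm_F_le hC0 hC z) (norm_nonneg _) hC0
    have h2 : ‖D.A z‖ ≤ 2 * C ^ 2 := by
      refine (norm_sub_le _ _).trans ?_
      linarith [D.norm_K2_le hC]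
    exact (norm_sub_le _ _).trans (add_le_add h2 (D.norm_V_le hα (hY z)))
  have := Convex.norm_image_sub_le_of_norm_hasDerivWithin_le (f := D.F)
    (f' := fun z => D.A z - D.V z) (s := univ) (fun z _ => (D.hasDerivAt_F z).hasDerivWithinAt)
    (fun z _ => hb z) convex_univ (mem_univ y) (mem_univ x)
  simpa [Real.norm_eq_abs] using this

end Datum

theorem Near.nonneg {m : ℕ} {α : ℝ} {W : ℝ → Matrix (Fin m) (Fin m) ℂ} {D : ℕ → Datum m α W}
    {C : ℝ} (h : Near D C) : 0 ≤ C :=
  (hs2_nonneg _).trans (h.Y_le 0 0)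

end Crest.Agent.R332
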