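import Crest.Agent.R332.Mat

/-!
# An orthonormal basis of soliton vectors

If `e, e'` are soliton vectors with profiles `s, s'` then `s ⟨e,e'⟩ = ⟨We,e'⟩ = ⟨e,We'⟩ = s' ⟨e,e'⟩`
a.e., so either `⟨e,e'⟩ = 0` or `s = s'` a.e.  Take an orthonormal family `o : Fin j → ℂ^m` of soliton
vectors with `j` maximal (`j ≤ m`; work in `EuclideanSpace ℂ (Fin m)`, or use
`exists_maximal_orthonormal`-style arguments on finsets).  For a soliton vector `e` with profile `s`,
`e - ∑ ⟨o_i,e⟩ o_i` is again a soliton vector with profile `s` and orthogonal to all `o_i`, so it is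
zero by maximality.  Thus any `q ⟂ span o` is orthogonal to all soliton vectors, so `W q = 0` a.e.,
so `q` is a soliton vector (`a = 0`: `soliton r 0 c x = 0`), so `q ∈ span o`, `q = 0`.  Hence `o` is
an orthonormal basis, `j = m`, and the matrix `U` with columns `o_i` is unitary with
`W U = U diag(s_i)` a.e. (`ae_all_iff`).
-/

set_option autoImplicit false

open MeasureTheory Matrix Filter Topology Set
open scoped ComplexOrder Matrix.Norms.L2Operator MatrixOrder
open Crest.MathPhysics.LiebThirring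

namespace Crest.Agent.R332

theorem eb_abstract {E : Type*} [NormedAddCommGroup E] [InnerProductSpace ℂ E]
    [FiniteDimensional ℂ E] {m : ℕ} (hm : Module.finrank ℂ E = m) (S : Set E)
    (hsm : ∀ c : ℂ, ∀ e ∈ S, c • e ∈ S)
    (hproj : ∀ (n : ℕ) (o : Fin n → E), (∀ i, o i ∈ S) → ∀ e ∈ S,
      e - ∑ i, inner ℂ (o i) e • o i ∈ S)
    (hperp : ∀ q, (∀ e ∈ S, inner ℂ e q = 0) → q ∈ S) :
    ∃ b : OrthonormalBasis (Fin m) ℂ E, ∀ i, b i ∈ S := by
  classical
  let P : ℕ → Prop := fun n => ∃ o : Fin n → E, Orthonormal ℂ o ∧ ∀ i, o i ∈ S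
  have hle : ∀ n, P n → n ≤ m := fun n ⟨o, ho, _⟩ => by
    simpa [hm] using ho.linearIndependent.fintype_card_le_finrank
  obtain ⟨o, ho, hoS⟩ : P (Nat.findGreatest P m) := Nat.findGreatest_spec (Nat.zero_le m)
    ⟨Fin.elim0, Orthonormal.of_isEmpty _, fun i => i.elim0⟩
  have hmax : ¬ P (Nat.findGreatest P m + 1) := fun h =>
    Nat.findGreatest_is_greatest (Nat.lt_succ_self _) (hle _ h) h
  generalize Nat.findGreatest P m = n at o ho hoS hmax
  have hA : ∀ q ∈ S, (∀ i, inner ℂ (o i) q = 0) → q = 0 := fun q hq h => by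
    by_contra h0
    refine hmax ⟨vecCons ((‖q‖⁻¹ : ℂ) • q) o, orthonormal_vecCons_iff.2
      ⟨norm_smul_inv_norm h0, fun i => ?_, ho⟩, fun i => ?_⟩
    · rw [inner_smul_left, inner_eq_zero_symm.1 (h i), mul_zero]
    · refine Fin.cases ?_ (fun i => ?_) i
      · exact hsm _ _ hq
      · exact hoS i
  have hB : ∀ e ∈ S, e = ∑ i, inner ℂ (o i) e • o i := fun e he =>
    sub_eq_zero.1 (hA _ (hproj n o hoS e he) fun i => by
      rw [inner_sub_right, ho.inner_right_fintype, sub_self])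
  have hC : (Submodule.span ℂ (Set.range o))ᗮ = ⊥ := by
    refine (Submodule.eq_bot_iff _).2 fun q hq => ?_
    have h1 : ∀ i, inner ℂ (o i) q = 0 := fun i => hq _ (Submodule.subset_span ⟨i, rfl⟩)
    refine hA q (hperp q fun e he => ?_) h1
    rw [hB e he, sum_inner]
    exact Finset.sum_eq_zero fun i _ => by rw [inner_smul_left, h1, mul_zero]
  let b := OrthonormalBasis.mkOfOrthogonalEqBot ho hC
  have hn : n = m := by simpa [hm] using (Module.finrank_eq_card_basis b.toBasis).symm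
  subst hn
  exact ⟨b, fun i => by simpa [b] using hoS i⟩

theorem eb_inner {m : ℕ} {A : Matrix (Fin m) (Fin m) ℂ} (hA : A.IsHermitian) {e e' : Fin m → ℂ}
    {s s' : ℝ} (h : A *ᵥ e = (s : ℂ) • e) (h' : A *ᵥ e' = (s' : ℂ) • e') :
    (star e ⬝ᵥ e') • (A *ᵥ e) = (s' : ℂ) • (star e ⬝ᵥ e') • e := by
  have h1 : star e ⬝ᵥ (A *ᵥ e') = star (A *ᵥ e) ⬝ᵥ e' := by
    rw [star_mulVec, hA.eq, dotProduct_mulVec]
  rw [h, h', dotProduct_smul, star_smul, smul_dotProduct, Complex.star_def,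
    Complex.conj_ofReal] at h1
  rw [h, smul_smul, smul_smul, mul_comm, ← smul_eq_mul, ← h1, smul_eq_mul]

theorem exists_unitary_of_sol {m : ℕ} {α : ℝ} {W : ℝ → Matrix (Fin m) (Fin m) ℂ}
    (hWh : ∀ x, (W x).IsHermitian)
    (h : ∀ q : Fin m → ℂ, (∀ e, IsSol α W e → star e ⬝ᵥ q = 0) → ∀ᵐ x, W x *ᵥ q = 0) :
    ∃ (U : Matrix.unitaryGroup (Fin m) ℂ) (a c : Fin m → ℝ), (∀ i, 0 ≤ a i) ∧
      ∀ᵐ x : ℝ, W x = (U : Matrix (Fin m) (Fin m) ℂ) *
        Matrix.diagonal (fun i => ((soliton α⁻¹ (a i) (c i) x : ℝ) : ℂ)) *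
          star (U : Matrix (Fin m) (Fin m) ℂ) := by
  have hin : ∀ e q : EuclideanSpace ℂ (Fin m), inner ℂ e q = star e.ofLp ⬝ᵥ q.ofLp := fun e q => by
    rw [EuclideanSpace.inner_eq_star_dotProduct, dotProduct_comm]
  obtain ⟨b, hb⟩ := eb_abstract (E := EuclideanSpace ℂ (Fin m)) (m := m) (by simp)
    {e | IsSol α W e.ofLp} (by
      rintro c e ⟨a, d, ha, he⟩
      refine ⟨a, d, ha, he.mono fun x hx => ?_⟩
      rw [WithLp.ofLp_smul, mulVec_smul, hx, smul_comm])
    (by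
      rintro n o ho e ⟨a, d, ha, he⟩
      choose a' d' _ ho' using ho
      refine ⟨a, d, ha, ?_⟩
      filter_upwards [he, ae_all_iff.2 ho'] with x hx hx'
      rw [WithLp.ofLp_sub, WithLp.ofLp_sum, mulVec_sub, mulVec_sum, smul_sub, Finset.smul_sum, hx]
      congr 1
      refine Finset.sum_congr rfl fun i _ => ?_
      rw [WithLp.ofLp_smul, mulVec_smul, hin, eb_inner (hWh x) (hx' i) hx])
    (fun q hq => ⟨0, 0, le_rfl, (h q.ofLp fun e he => by
      rw [← hq (WithLp.toLp 2 e) he, hin]).mono fun x hx => by simp [hx, soliton]⟩)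
  choose a c ha hb using hb
  let U : Matrix.unitaryGroup (Fin m) ℂ :=
    ⟨(EuclideanSpace.basisFun (Fin m) ℂ).toBasis.toMatrix b.toBasis,
      (EuclideanSpace.basisFun (Fin m) ℂ).toMatrix_orthonormalBasis_mem_unitary b⟩
  refine ⟨U, a, c, ha, (ae_all_iff.2 hb).mono fun x hx => ?_⟩
  have h1 : W x * U = U * Matrix.diagonal fun i => ((soliton α⁻¹ (a i) (c i) x : ℝ) : ℂ) := by
    ext i j
    rw [mul_diagonal, mul_comm]
    exact congrFun (hx j) i
  rw [← h1, Matrix.mul_assoc, U.2.2, Matrix.mul_one]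

end Crest.Agent.R332
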