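import Crest.Agent.R332.DatBasic

/-!
# The commutator at `x = 0`, and a spectral gap

`comm_zero`: `X x = K² F x - F x K²`.  With `L` the Lipschitz constant of `norm_F_sub_le`,
`‖X 0 - X x‖ ≤ 2 C² L |x|`, `hs2 E = J`, `‖E‖ ≤ 1`, so
`hs2 (X 0 E) ≤ 2 d3 x + 2 (2C²L|x|)² J` (`hs2_add_le`, `hs2_mul_le_left/right`).  Integrate over
`x ∈ [0,h]`: `hs2 (X 0 E) ≤ (2/h) ∫ d3 + 8 C⁴ L² h² J`; first choose `h` small, then `n` large.

`exists_gap`: let `N₀` be such that `(κ₀/2)^s N₀ ≥ C`; at most `N₀` indices have `κ i ≥ κ₀/2`.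
With `g = κ₀ / (2 (N₀ + 1))`, one of the `N₀ + 1` disjoint intervals
`[κ₀/2 + j g, κ₀/2 + (j+1) g)`, `j = 0..N₀`, contains no `κ i` (pigeonhole); let
`T = {i | κ₀/2 + (j+1) g ≤ κ i}`.
-/

set_option autoImplicit false

open MeasureTheory Matrix Filter Topology Set
open scoped ComplexOrder Matrix.Norms.L2Operator MatrixOrder
open Crest.MathPhysics.LiebThirring

namespace Crest.Agent.R332

theorem comm_zero {m : ℕ} {α : ℝ} {W : ℝ → Matrix (Fin m) (Fin m) ℂ} {D : ℕ → Datum m α W}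
    {C : ℝ} (hα : 0 < α) (h : Near D C) {J : ℕ} (E : ∀ n, Matrix (Fin (D n).N) (Fin J) ℂ)
    (hE : ∀ n, (E n)ᴴ * E n = 1) :
    Tendsto (fun n => hs2 (((D n).K2 * (D n).F 0 - (D n).F 0 * (D n).K2) * E n)) atTop (𝓝 0) := by
  have hC := h.nonneg
  set L : ℝ := 2 * C ^ 2 + C ^ α⁻¹ with hL
  have hL0 : 0 ≤ L := by positivity
  set A : ℝ := 2 * C ^ 2 * L with hA
  have hA0 : 0 ≤ A := by positivity
  have hEJ : ∀ n, hs2 (E n) = J := fun n => by rw [hs2_eq_trace, hE n]; simp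
  have hd0 : ∀ n x, 0 ≤ (D n).d3 x := fun n x => hs2_nonneg _
  have h1 : ∀ n x, hs2 (((D n).K2 * (D n).F 0 - (D n).F 0 * (D n).K2) * E n) ≤
      2 * (D n).d3 x + 2 * ((A * |x|) ^ 2 * J) := by
    intro n x
    have e : ((D n).K2 * (D n).F 0 - (D n).F 0 * (D n).K2) * E n =
        ((D n).K2 * (D n).F x - (D n).F x * (D n).K2) * E n +
        ((D n).K2 * ((D n).F 0 - (D n).F x) - ((D n).F 0 - (D n).F x) * (D n).K2) * E n := by
      rw [← Matrix.add_mul]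
      congr 1
      noncomm_ring
    have a1 : hs2 (((D n).K2 * (D n).F x - (D n).F x * (D n).K2) * E n) ≤ (D n).d3 x := by
      refine (hs2_mul_le_right _ _).trans (mul_le_of_le_one_right (hs2_nonneg _) ?_)
      exact pow_le_one₀ (norm_nonneg _) (norm_le_one_of_iso (hE n))
    have a2 := (D n).norm_K2_le (h.κ_le n)
    have a3 := (D n).norm_F_sub_le hα (h.κ_le n) (h.Y_le n) 0 x
    rw [zero_sub, abs_neg, ← hL] at a3
    have a4 : ‖(D n).K2 * ((D n).F 0 - (D n).F x) - ((D n).F 0 - (D n).F x) * (D n).K2‖ ≤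
        A * |x| := by
      refine (norm_sub_le _ _).trans ?_
      have b1 := (norm_mul_le _ _).trans (mul_le_mul a2 a3 (norm_nonneg _) (by positivity))
      have b2 := (norm_mul_le _ _).trans (mul_le_mul a3 a2 (norm_nonneg _) (by positivity))
      rw [hA]
      linarith
    have a5 := (hs2_mul_le_left _ (E n)).trans (mul_le_mul_of_nonneg_right
      (pow_le_pow_left₀ (norm_nonneg _) a4 2) (hs2_nonneg _))
    rw [hEJ] at a5
    rw [e]
    refine (hs2_add_le _ _).trans ?_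
    linarith
  have h2 : ∀ n (δ : ℝ), 0 < δ → hs2 (((D n).K2 * (D n).F 0 - (D n).F 0 * (D n).K2) * E n) ≤
      2 / δ * (∫ x, (D n).d3 x) + 2 * (A ^ 2 * J) * δ ^ 2 := by
    intro n δ hδ
    set a := hs2 (((D n).K2 * (D n).F 0 - (D n).F 0 * (D n).K2) * E n) with ha
    have b1 : ∫ _ in (0 : ℝ)..δ, (a / 2 - A ^ 2 * J * δ ^ 2) ≤ ∫ x in (0 : ℝ)..δ, (D n).d3 x := by
      refine intervalIntegral.integral_mono_on hδ.le (by simp)
        ((D n).continuous_d3.intervalIntegrable _ _) fun x hx => ?_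
      have c1 := h1 n x
      rw [abs_of_nonneg hx.1, mul_pow] at c1
      have c2 : A ^ 2 * x ^ 2 * J ≤ A ^ 2 * δ ^ 2 * J := by
        have := pow_le_pow_left₀ hx.1 hx.2 2
        gcongr
      linarith
    have b2 : ∫ x in (0 : ℝ)..δ, (D n).d3 x ≤ ∫ x, (D n).d3 x := by
      rw [intervalIntegral.integral_of_le hδ.le]
      exact setIntegral_le_integral (D n).integrable_d3 (ae_of_all _ (hd0 n))
    rw [intervalIntegral.integral_const, sub_zero, smul_eq_mul] at b1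
    have b3 : a / 2 - A ^ 2 * J * δ ^ 2 ≤ (∫ x, (D n).d3 x) / δ := by
      rw [le_div_iff₀ hδ]; linarith
    have b4 : 2 / δ * (∫ x, (D n).d3 x) = 2 * ((∫ x, (D n).d3 x) / δ) := by ring
    linarith
  rw [Metric.tendsto_atTop]
  intro ε hε
  have h3 : Tendsto (fun δ : ℝ => 2 * (A ^ 2 * J) * δ ^ 2) (𝓝[>] 0) (𝓝 0) := by
    have : Tendsto (fun δ : ℝ => 2 * (A ^ 2 * J) * δ ^ 2) (𝓝 0) (𝓝 (2 * (A ^ 2 * J) * 0 ^ 2)) :=
      Continuous.tendsto (by fun_prop) 0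
    simpa using this.mono_left nhdsWithin_le_nhds
  obtain ⟨δ, hδ1, hδ2⟩ := ((h3.eventually (gt_mem_nhds (half_pos hε))).and self_mem_nhdsWithin).exists
  have h4 := h.t3.const_mul (2 / δ)
  rw [mul_zero] at h4
  obtain ⟨N, hN⟩ := eventually_atTop.1 (h4.eventually (gt_mem_nhds (half_pos hε)))
  refine ⟨N, fun n hn => ?_⟩
  rw [Real.dist_eq, sub_zero, abs_of_nonneg (hs2_nonneg _)]
  have := h2 n δ hδ2
  have := hN n hn
  linarith

theorem exists_gap {s C κ₀ : ℝ} (hs : 0 < s) (hκ₀ : 0 < κ₀) :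
    ∃ (g : ℝ) (N₀ : ℕ), 0 < g ∧ ∀ (N : ℕ) (κ : Fin N → ℝ), (∀ i, 0 < κ i) → ∑ i, κ i ^ s ≤ C →
      ∃ T : Finset (Fin N), T.card ≤ N₀ ∧ (∀ i ∈ T, κ₀ / 2 ≤ κ i) ∧ (∀ i, i ∉ T → κ i ≤ κ₀) ∧
        ∀ i, i ∉ T → ∀ j ∈ T, κ i + g ≤ κ j := by
  have hp : 0 < (κ₀ / 2) ^ s := Real.rpow_pos_of_pos (by linarith) s
  set N₀ : ℕ := ⌈C / (κ₀ / 2) ^ s⌉₊ with hN₀
  set g : ℝ := κ₀ / (2 * (N₀ + 1)) with hg
  have hg0 : 0 < g := by positivity
  have hg1 : (N₀ + 1) * g = κ₀ / 2 := by rw [hg]; field_simp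
  refine ⟨g, N₀, hg0, fun N κ hκ hsum => ?_⟩
  classical
  set S : Finset (Fin N) := Finset.univ.filter fun i => κ₀ / 2 ≤ κ i with hS
  have hS1 : S.card ≤ N₀ := by
    have a1 : (S.card : ℝ) * (κ₀ / 2) ^ s ≤ C := by
      refine le_trans ?_ hsum
      rw [← nsmul_eq_mul]
      refine (Finset.card_nsmul_le_sum S (fun i => κ i ^ s) _ fun i hi => ?_).trans
        (Finset.sum_le_sum_of_subset_of_nonneg (Finset.subset_univ _)
          fun i _ _ => Real.rpow_nonneg (hκ i).le s)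
      exact Real.rpow_le_rpow (by linarith) (Finset.mem_filter.1 hi).2 hs.le
    have a2 : (S.card : ℝ) ≤ N₀ := ((le_div_iff₀ hp).2 a1).trans (Nat.le_ceil _)
    exact_mod_cast a2
  obtain ⟨j, hj1, hj2⟩ := Finset.exists_mem_notMem_of_card_lt_card
    (s := S.image fun i => ⌊(κ i - κ₀ / 2) / g⌋₊) (t := Finset.range (N₀ + 1))
    (by rw [Finset.card_range]; exact Nat.lt_succ_of_le (Finset.card_image_le.trans hS1))
  have hj3 : (j : ℝ) ≤ N₀ := by exact_mod_cast Nat.le_of_lt_succ (Finset.mem_range.1 hj1)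
  have hj0 : (0 : ℝ) ≤ j := Nat.cast_nonneg j
  have hT : ∀ i, κ₀ / 2 + (j + 1) * g ≤ κ i → κ₀ / 2 ≤ κ i := fun i hi => by nlinarith
  refine ⟨Finset.univ.filter fun i => κ₀ / 2 + (j + 1) * g ≤ κ i, ?_, fun i hi => ?_,
    fun i hi => ?_, fun i hi l hl => ?_⟩
  · refine le_trans (Finset.card_le_card fun i hi => ?_) hS1
    exact Finset.mem_filter.2 ⟨Finset.mem_univ _, hT i (Finset.mem_filter.1 hi).2⟩
  · exact hT i (Finset.mem_filter.1 hi).2
  · simp only [Finset.mem_filter, Finset.mem_univ, true_and, not_le] at hi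
    nlinarith
  · simp only [Finset.mem_filter, Finset.mem_univ, true_and, not_le] at hi hl
    by_contra hc
    have a1 : κ₀ / 2 + j * g ≤ κ i := by linarith
    refine hj2 (Finset.mem_image.2 ⟨i, Finset.mem_filter.2 ⟨Finset.mem_univ _, by nlinarith⟩, ?_⟩)
    rw [Nat.floor_eq_iff (div_nonneg (by nlinarith) hg0.le), le_div_iff₀ hg0, div_lt_iff₀ hg0]
    constructor <;> linarith

end Crest.Agent.R332
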