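import Crest.Agent.R332.DatBasic
import Crest.Agent.R332.Gron

/-!
# Convergence of `F P` and `Y P` on the top block (dimension-free Gronwall)

`r = α⁻¹`, `β = 1 + r`, `G x = dg (g x)` (entrywise derivative: `hasDerivAt_iff_entry`), `‖P‖ ≤ 1`,
`‖G‖ ≤ a₀ := ∑ a l` (`norm_dg_le`), `‖F‖ ≤ C`.
* `w = F P - P G` has `w' = (βA - V) P - r (K² P - P a²) + r (F w + w G)`, so `u = hs2 w` satisfies
  (`HasDerivAt.mhs2`, `two_abs_re_trace_le`, `abs_re_trace_le`, `hs2_mul_le_left/right`)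
  `|u'| ≤ L u + d4 + r η_n`, `η_n = hs2 (K²P - P a²)`, `L = 1 + r + 2r (C + a₀)`.  `gron` from `0`:
  `u x ≤ e^{L X} (u 0 + ∫ d4 + r η_n X)` for `|x| ≤ X`.
* `z = Y P - y H`, `H = dg (h x)`, has `z' = (Y' - YF) P + Y w + z G`, so `u = hs2 z` satisfies
  `|u'| ≤ (2 + 2a₀) u + d2 + C η_n` on `[-|x|, |x|]` (`hs2_mul_le`, `Y_le`, `η_n` from `top_F`);
  `gron` and `tendsto_iff_hs2`.
-/

set_option autoImplicit false

open MeasureTheory Matrix Filter Topology Set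
open scoped ComplexOrder Matrix.Norms.L2Operator MatrixOrder
open Crest.MathPhysics.LiebThirring

namespace Crest.Agent.R332

variable {m : ℕ} {α : ℝ} {W : ℝ → Matrix (Fin m) (Fin m) ℂ} {D : ℕ → Datum m α W} {C κ₀ : ℝ}

section aux
variable {ι κ : Type*} [Fintype ι] [Fintype κ]

theorem eqf_sub {F G : ℝ → Matrix ι κ ℂ} {F' G' : Matrix ι κ ℂ} {x : ℝ}
    (hF : HasDerivAt F F' x) (hG : HasDerivAt G G' x) :
    HasDerivAt (fun y => F y - G y) (F' - G') x :=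
  hasDerivAt_iff_entry.2 fun i j =>
    (hasDerivAt_iff_entry.1 hF i j).sub (hasDerivAt_iff_entry.1 hG i j)

theorem eqf_const (A : Matrix ι κ ℂ) (x : ℝ) : HasDerivAt (fun _ : ℝ => A) 0 x :=
  hasDerivAt_iff_entry.2 fun i j => hasDerivAt_const x (A i j)

theorem eqf_dg [DecidableEq ι] {g : ℝ → ι → ℝ} {g' : ι → ℝ} {x : ℝ}
    (hg : ∀ l, HasDerivAt (fun x => g x l) (g' l) x) :
    HasDerivAt (fun y => dg (g y)) (dg g') x := by
  refine hasDerivAt_iff_entry.2 fun i j => ?_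
  by_cases h : i = j
  · subst h
    simpa only [dg, diagonal_apply_eq] using (hg i).ofReal_comp
  · simpa only [dg, diagonal_apply_ne _ h] using hasDerivAt_const x (0 : ℂ)

theorem eqf_bound4 (w Z₁ Z₂ Z₃ Z₄ : Matrix ι κ ℂ) {r : ℝ} (hr : 0 ≤ r) :
    |2 * (trace (wᴴ * (Z₁ - r • Z₂ + r • (Z₃ + Z₄)))).re| ≤
      (hs2 w + hs2 Z₁) + r * (hs2 w + hs2 Z₂) + r * (hs2 w + hs2 Z₃) + r * (hs2 w + hs2 Z₄) := by
  have e : (trace (wᴴ * (Z₁ - r • Z₂ + r • (Z₃ + Z₄)))).re = (trace (wᴴ * Z₁)).re -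
      r * (trace (wᴴ * Z₂)).re + r * (trace (wᴴ * Z₃)).re + r * (trace (wᴴ * Z₄)).re := by
    simp only [Matrix.mul_add, Matrix.mul_sub, Matrix.mul_smul, trace_add, trace_sub, trace_smul,
      Complex.add_re, Complex.sub_re, Complex.smul_re, smul_eq_mul, smul_add]
    ring
  have b : ∀ Z : Matrix ι κ ℂ, -(hs2 w + hs2 Z) ≤ 2 * (trace (wᴴ * Z)).re ∧
      2 * (trace (wᴴ * Z)).re ≤ hs2 w + hs2 Z := fun Z => by
    have h := two_abs_re_trace_le w Z
    constructor <;> linarith [le_abs_self (trace (wᴴ * Z)).re, neg_abs_le (trace (wᴴ * Z)).re]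
  rw [e, abs_le]
  constructor
  · linarith [(b Z₁).1, mul_le_mul_of_nonneg_left (b Z₂).2 hr, mul_le_mul_of_nonneg_left (b Z₃).1 hr,
      mul_le_mul_of_nonneg_left (b Z₄).1 hr]
  · linarith [(b Z₁).2, mul_le_mul_of_nonneg_left (b Z₂).1 hr, mul_le_mul_of_nonneg_left (b Z₃).2 hr,
      mul_le_mul_of_nonneg_left (b Z₄).2 hr]

theorem eqf_bound3 (w Z₁ Z₂ Z₃ : Matrix ι κ ℂ) :
    |2 * (trace (wᴴ * (Z₁ + Z₂ + Z₃))).re| ≤ 3 * hs2 w + hs2 Z₁ + hs2 Z₂ + hs2 Z₃ := by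
  simp only [Matrix.mul_add, trace_add, Complex.add_re]
  have h1 := two_abs_re_trace_le w Z₁
  have h2 := two_abs_re_trace_le w Z₂
  have h3 := two_abs_re_trace_le w Z₃
  rw [abs_le]
  constructor
  · linarith [neg_abs_le (trace (wᴴ * Z₁)).re, neg_abs_le (trace (wᴴ * Z₂)).re,
      neg_abs_le (trace (wᴴ * Z₃)).re]
  · linarith [le_abs_self (trace (wᴴ * Z₁)).re, le_abs_self (trace (wᴴ * Z₂)).re,
      le_abs_self (trace (wᴴ * Z₃)).re]

theorem eqf_int {f : ℝ → ℝ} (hf : Integrable f) (h0 : ∀ t, 0 ≤ f t) {c : ℝ} (hc : 0 ≤ c) (x : ℝ) :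
    |∫ t in (0 : ℝ)..x, (f t + c)| ≤ (∫ t, f t) + c * |x| := by
  rw [intervalIntegral.integral_add hf.intervalIntegrable intervalIntegrable_const]
  refine (abs_add_le _ _).trans (add_le_add ?_ ?_)
  · rw [intervalIntegral.abs_integral_eq_abs_integral_uIoc,
      abs_of_nonneg (integral_nonneg fun t => h0 t)]
    exact setIntegral_le_integral hf (Eventually.of_forall h0)
  · rw [intervalIntegral.integral_const, sub_zero, smul_eq_mul, abs_mul, abs_of_nonneg hc, mul_comm]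

theorem eqf_gron {u u' f : ℝ → ℝ} {L c X x : ℝ} (hL : 0 ≤ L) (hu : ∀ t, HasDerivAt u (u' t) t)
    (hu0 : 0 ≤ u 0) (hfc : Continuous f) (hf : Integrable f) (h0 : ∀ t, 0 ≤ f t) (hc : 0 ≤ c)
    (hx : |x| ≤ X) (h : ∀ t, |t| ≤ X → |u' t| ≤ L * u t + (f t + c)) :
    u x ≤ Real.exp (L * X) * (u 0 + ((∫ t, f t) + c * X)) := by
  have h1 := gron (e := fun t => f t + c) hL hu (hfc.add continuous_const)
    (fun t => add_nonneg (h0 t) hc) 0 x fun t ht => h t (le_trans (by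
      simpa using Set.abs_sub_left_of_mem_uIcc ht) hx)
  rw [sub_zero] at h1
  refine h1.trans (mul_le_mul (Real.exp_le_exp.2 (mul_le_mul_of_nonneg_left hx hL)) ?_
    (add_nonneg hu0 (abs_nonneg _)) (Real.exp_pos _).le)
  linarith [eqf_int hf h0 hc x, mul_le_mul_of_nonneg_left hx hc]

theorem eqf_iso [DecidableEq κ] [DecidableEq ι] {μ : Type*} [Fintype μ] (Z : Matrix μ ι ℂ)
    {P : Matrix ι κ ℂ} (hP : Pᴴ * P = 1) : hs2 (Z * P) ≤ hs2 Z := by
  refine (hs2_mul_le_right Z P).trans (mul_le_of_le_one_right (hs2_nonneg _) ?_)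
  exact pow_le_one₀ (norm_nonneg _) (norm_le_one_of_iso hP)

theorem eqf_mul_dg [DecidableEq κ] (w : Matrix ι κ ℂ) {g a : κ → ℝ} (h : ∀ l, |g l| ≤ a l) :
    hs2 (w * dg g) ≤ (∑ l, a l) ^ 2 * hs2 w := by
  have h0 : ∀ l, 0 ≤ a l := fun l => (abs_nonneg _).trans (h l)
  have h1 : ‖dg g‖ ≤ ∑ l, a l := norm_dg_le (Finset.sum_nonneg fun l _ => h0 l) fun l =>
    (h l).trans (Finset.single_le_sum (fun l _ => h0 l) (Finset.mem_univ l))
  rw [mul_comm]
  exact (hs2_mul_le_right w _).trans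
    (mul_le_mul_of_nonneg_left (pow_le_pow_left₀ (norm_nonneg _) h1 2) (hs2_nonneg _))

end aux

theorem top_F (hα : 0 < α) (hD : Near D C) (T : Top D C κ₀) {g : ℝ → Fin T.J → ℝ}
    (hg0 : ∀ l, g 0 l = T.f l)
    (hg : ∀ x l, HasDerivAt (fun x => g x l) (-α⁻¹ * (T.a l ^ 2 - g x l ^ 2)) x)
    (hga : ∀ x l, |g x l| ≤ T.a l) (X : ℝ) :
    ∃ η : ℕ → ℝ, Tendsto η atTop (𝓝 0) ∧
      ∀ n x, |x| ≤ X → hs2 ((D n).F x * T.P n - T.P n * dg (g x)) ≤ η n := by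
  have hr : 0 < α⁻¹ := inv_pos.2 hα
  set a₀ : ℝ := ∑ l, T.a l with ha₀
  set L : ℝ := 1 + α⁻¹ + α⁻¹ * (1 + C ^ 2) + α⁻¹ * (1 + a₀ ^ 2) with hL
  refine ⟨fun n => Real.exp (L * X) * (hs2 ((D n).F 0 * T.P n - T.P n * dg T.f) +
    ((∫ t, (D n).d4 t) + α⁻¹ * hs2 ((D n).K2 * T.P n - T.P n * (dg T.a * dg T.a)) * X)), ?_,
    fun n x hx => ?_⟩
  · simpa using (T.tF.add (hD.t4.add ((T.tK.const_mul α⁻¹).mul_const X))).const_mul
      (Real.exp (L * X))
  have hG : ∀ t, dg (fun l => -α⁻¹ * (T.a l ^ 2 - g t l ^ 2)) =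
      (-α⁻¹) • (dg T.a * dg T.a - dg (g t) * dg (g t)) := fun t => by
    rw [dg_mul_dg, dg_mul_dg]
    ext i j
    by_cases h : i = j
    · subst h
      simp [dg, sq]
    · simp [dg, diagonal_apply_ne _ h]
  have hw : ∀ t, HasDerivAt (fun y => (D n).F y * T.P n - T.P n * dg (g y))
      (((1 + α⁻¹ : ℝ) • (D n).A t - (D n).V t) * T.P n -
        α⁻¹ • ((D n).K2 * T.P n - T.P n * (dg T.a * dg T.a)) +
        α⁻¹ • ((D n).F t * ((D n).F t * T.P n - T.P n * dg (g t)) +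
          ((D n).F t * T.P n - T.P n * dg (g t)) * dg (g t))) t := fun t => by
    have h1 := eqf_sub (HasDerivAt.mmul ((D n).hasDerivAt_F t) (eqf_const (T.P n) t))
      (HasDerivAt.mmul (eqf_const (T.P n) t) (eqf_dg (hg t)))
    rw [hG] at h1
    convert h1 using 1
    simp only [Datum.A, Matrix.mul_zero, Matrix.zero_mul, add_zero, zero_add, Matrix.mul_sub,
      Matrix.sub_mul, Matrix.mul_smul, Matrix.smul_mul, Matrix.mul_assoc]
    module
  have h0 : g 0 = T.f := funext hg0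
  have key := eqf_gron (L := L) (X := X) (x := x) (f := (D n).d4)
    (c := α⁻¹ * hs2 ((D n).K2 * T.P n - T.P n * (dg T.a * dg T.a))) (by positivity)
    (fun t => HasDerivAt.mhs2 (hw t)) (hs2_nonneg _) ((D n).continuous_d4 hα)
    ((D n).integrable_d4 hα) (fun t => hs2_nonneg _) (mul_nonneg hr.le (hs2_nonneg _)) hx
    fun t _ => by
      refine (eqf_bound4 _ _ _ _ _ hr.le).trans ?_
      set w := (D n).F t * T.P n - T.P n * dg (g t)
      have h1 : hs2 (((1 + α⁻¹ : ℝ) • (D n).A t - (D n).V t) * T.P n) ≤ (D n).d4 t :=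
        eqf_iso _ (T.iso n)
      have h2 : hs2 ((D n).F t * w) ≤ C ^ 2 * hs2 w := (hs2_mul_le_left _ _).trans
        (mul_le_mul_of_nonneg_right (pow_le_pow_left₀ (norm_nonneg _)
          ((D n).norm_F_le hD.nonneg (hD.κ_le n) t) 2) (hs2_nonneg _))
      have h3 : hs2 (w * dg (g t)) ≤ a₀ ^ 2 * hs2 w := eqf_mul_dg w (hga t)
      rw [hL]
      linarith [mul_le_mul_of_nonneg_left h2 hr.le, mul_le_mul_of_nonneg_left h3 hr.le]
  rwa [h0] at key

theorem top_Y (hα : 0 < α) (hD : Near D C) (T : Top D C κ₀) {g h : ℝ → Fin T.J → ℝ}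
    (hg0 : ∀ l, g 0 l = T.f l)
    (hg : ∀ x l, HasDerivAt (fun x => g x l) (-α⁻¹ * (T.a l ^ 2 - g x l ^ 2)) x)
    (hga : ∀ x l, |g x l| ≤ T.a l) (hh0 : ∀ l, h 0 l = 1)
    (hh : ∀ x l, HasDerivAt (fun x => h x l) (g x l * h x l) x) (x : ℝ) :
    Tendsto (fun n => (D n).Y x * T.P n) atTop (𝓝 (T.y * dg (h x))) := by
  obtain ⟨η, hη, hF⟩ := top_F hα hD T hg0 hg hga |x|
  have hC := hD.nonneg
  set a₀ : ℝ := ∑ l, T.a l with ha₀
  have h0 : dg (h 0) = 1 := by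
    rw [show h 0 = fun _ => 1 from funext hh0]
    simp [dg]
  have hlim : Tendsto (fun n => Real.exp ((3 + a₀ ^ 2) * |x|) * (hs2 ((D n).Y 0 * T.P n - T.y) +
      ((∫ t, (D n).d2 t) + C * η n * |x|))) atTop (𝓝 0) := by
    simpa using ((tendsto_iff_hs2.1 T.tY).add (hD.t2.add ((hη.const_mul C).mul_const |x|))).const_mul
      (Real.exp ((3 + a₀ ^ 2) * |x|))
  refine tendsto_iff_hs2.2 (squeeze_zero (fun n => hs2_nonneg _) (fun n => ?_) hlim)
  have hz : ∀ t, HasDerivAt (fun y => (D n).Y y * T.P n - T.y * dg (h y))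
      (((D n).Y' t - (D n).Y t * (D n).F t) * T.P n +
        (D n).Y t * ((D n).F t * T.P n - T.P n * dg (g t)) +
        ((D n).Y t * T.P n - T.y * dg (h t)) * dg (g t)) t := fun t => by
    have h1 := eqf_sub (HasDerivAt.mmul ((D n).Y_deriv t) (eqf_const (T.P n) t))
      (HasDerivAt.mmul (eqf_const T.y t) (eqf_dg (hh t)))
    have h2 : dg (fun l => g t l * h t l) = dg (h t) * dg (g t) := by
      rw [dg_mul_dg]; simp only [mul_comm]
    rw [h2] at h1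
    convert h1 using 1
    simp only [Matrix.mul_zero, Matrix.zero_mul, add_zero, zero_add, Matrix.mul_sub,
      Matrix.sub_mul, Matrix.mul_assoc]
    abel
  have hη0 : 0 ≤ η n := (hs2_nonneg _).trans (hF n x le_rfl)
  have key := eqf_gron (L := 3 + a₀ ^ 2) (X := |x|) (x := x) (f := (D n).d2) (c := C * η n)
    (by positivity) (fun t => HasDerivAt.mhs2 (hz t)) (hs2_nonneg _) (D n).continuous_d2
    (D n).integrable_d2 (fun t => hs2_nonneg _) (mul_nonneg hC hη0) le_rfl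
    fun t ht => by
      refine (eqf_bound3 _ _ _ _).trans ?_
      set z := (D n).Y t * T.P n - T.y * dg (h t)
      have h1 : hs2 (((D n).Y' t - (D n).Y t * (D n).F t) * T.P n) ≤ (D n).d2 t :=
        eqf_iso _ (T.iso n)
      have h2 : hs2 ((D n).Y t * ((D n).F t * T.P n - T.P n * dg (g t))) ≤ C * η n :=
        (hs2_mul_le _ _).trans (mul_le_mul (hD.Y_le n t) (hF n t ht) (hs2_nonneg _) hC)
      have h3 : hs2 (z * dg (g t)) ≤ a₀ ^ 2 * hs2 z := eqf_mul_dg z (hga t)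
      linarith
  rwa [h0, Matrix.mul_one] at key

end Crest.Agent.R332
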