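import Crest.Agent.R332.DatBasic

/-!
# The potential is small orthogonally to the top block

`r = α⁻¹`, `β = 1 + r`, `c = β κ₀²`, `λ₀ = (2c)^{1/r}`.  Scalar inequality for `λ ≥ 0`:
`λ^r ≤ 4c + (2/λ₀) (λ^{1+r} - c λ)` (if `λ ≥ λ₀`: `λ^{1+r} - cλ ≥ λ^{1+r}/2 ≥ λ₀ λ^r/2`; otherwise
`λ^r ≤ 2c` and `λ^{1+r} - cλ ≥ -cλ₀`).  By `spectral`, for the PSD matrix `ρ`,
`⟨q, ρ^r q⟩ ≤ 4c |q|² + (2/λ₀) (⟨q, ρ^{1+r} q⟩ - c ⟨q, ρ q⟩)` (the difference is `cfc` of a function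
that is nonnegative on the spectrum).  With `v = Yᴴ q`: `ρ^{1+r} = ρ^r Y Yᴴ = Y V Yᴴ`
(`mul_mpow`, commutation, `mpow_ρ_mul_Y`), `⟨q,ρq⟩ = |v|²`,
`⟨v, V v⟩ = β ⟨v, A v⟩ - ⟨v, (βA - V) v⟩`, `⟨v, A v⟩ ≤ ⟨v, K² v⟩ ≤ κ₀² |v|² + C² |Pᴴ v|²` (`T.rest`),
`|⟨v, (βA-V) v⟩| ≤ √d4 · |v|² ≤ √d4 · C |q|²`, and `Pᴴ v = (Y P)ᴴ q → (y H)ᴴ q = 0`.
Pass to the limit at points where `ae1`, `ae4` hold (`le_of_tendsto_of_tendsto'`).
(It may be convenient to view `q` as an `m × 1` matrix `Matrix.replicateCol Unit q` and use `hs2`.)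
-/

set_option autoImplicit false

open MeasureTheory Matrix Filter Topology Set
open scoped ComplexOrder Matrix.Norms.L2Operator MatrixOrder
open Crest.MathPhysics.LiebThirring

namespace Crest.Agent.R332

section aux
variable {ι κ : Type*} [Fintype ι] [Fintype κ]

/-- The real quadratic form of a matrix. -/
private noncomputable def rq (M : Matrix ι ι ℂ) (v : ι → ℂ) : ℝ := (star v ⬝ᵥ (M *ᵥ v)).re

private theorem rq_add (M N : Matrix ι ι ℂ) (v : ι → ℂ) : rq (M + N) v = rq M v + rq N v := by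
  simp [rq, add_mulVec, dotProduct_add]

private theorem rq_sub (M N : Matrix ι ι ℂ) (v : ι → ℂ) : rq (M - N) v = rq M v - rq N v := by
  simp [rq, sub_mulVec, dotProduct_sub]

private theorem rq_neg (M : Matrix ι ι ℂ) (v : ι → ℂ) : rq (-M) v = -rq M v := by
  simp [rq, neg_mulVec, dotProduct_neg]

private theorem rq_smul (c : ℝ) (M : Matrix ι ι ℂ) (v : ι → ℂ) : rq (c • M) v = c * rq M v := by
  simp [rq, smul_mulVec, dotProduct_smul]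

private theorem rq_nonneg {M : Matrix ι ι ℂ} (hM : M.PosSemidef) (v : ι → ℂ) : 0 ≤ rq M v :=
  hM.re_dotProduct_nonneg v

private theorem rq_conj (Y : Matrix ι κ ℂ) (M : Matrix κ κ ℂ) (q : ι → ℂ) :
    rq (Y * M * Yᴴ) q = rq M (Yᴴ *ᵥ q) := by
  unfold rq
  rw [star_mulVec, conjTranspose_conjTranspose, ← mulVec_mulVec, ← mulVec_mulVec,
    dotProduct_mulVec]

private theorem rq_one [DecidableEq ι] (v : ι → ℂ) : rq 1 v = (star v ⬝ᵥ v).re := by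
  simp [rq]

private theorem rq_one_nonneg [DecidableEq ι] (v : ι → ℂ) : 0 ≤ rq 1 v :=
  rq_nonneg PosSemidef.one v

private theorem rq_dg [DecidableEq ι] (d : ι → ℝ) (v : ι → ℂ) :
    rq (dg d) v = ∑ i, d i * ‖v i‖ ^ 2 := by
  unfold rq dg
  rw [dotProduct, Complex.re_sum]
  refine Finset.sum_congr rfl fun i _ => ?_
  rw [mulVec_diagonal, Pi.star_apply, mul_left_comm, Complex.star_def, Complex.conj_mul',
    ← Complex.ofReal_pow, ← Complex.ofReal_mul, Complex.ofReal_re]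

private theorem rq_le_of_norm [DecidableEq ι] {M : Matrix ι ι ℂ} (hM : M.IsHermitian) {c : ℝ}
    (h : ‖M‖ ≤ c) (v : ι → ℂ) : rq M v ≤ c * rq 1 v := by
  have := rq_nonneg (posSemidef_sub_of_norm_le hM h) v
  rw [rq_sub, rq_smul] at this
  linarith

private theorem continuous_rq (q : ι → ℂ) : Continuous fun M : Matrix ι ι ℂ => rq M q := by
  unfold rq
  refine Complex.continuous_re.comp ?_
  simp only [dotProduct, mulVec]
  fun_prop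

private theorem continuous_rq_one [DecidableEq κ] (q : ι → ℂ) :
    Continuous fun M : Matrix ι κ ℂ => rq 1 (Mᴴ *ᵥ q) := by
  simp only [rq_one]
  refine Complex.continuous_re.comp ?_
  simp only [dotProduct, mulVec, Pi.star_apply, conjTranspose_apply]
  fun_prop

end aux

private theorem rest_scalar {α c l : ℝ} (hα : 0 < α) (hc : 0 < c) (hl : 0 ≤ l) :
    l ^ α⁻¹ ≤ 4 * c + 2 / (2 * c) ^ α * (l ^ (1 + α⁻¹) - c * l) := by
  have hr : 0 < α⁻¹ := inv_pos.2 hα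
  have h0 : 0 < (2 * c) ^ α := Real.rpow_pos_of_pos (by linarith) _
  have h1 : ((2 * c) ^ α) ^ α⁻¹ = 2 * c := Real.rpow_rpow_inv (by linarith) hα.ne'
  have h2 : l ^ (1 + α⁻¹) = l * l ^ α⁻¹ := by
    rw [Real.rpow_add' hl (by linarith), Real.rpow_one]
  have h3 : 0 ≤ l ^ α⁻¹ := Real.rpow_nonneg hl _
  rw [h2]
  generalize (2 * c) ^ α = l₀ at h0 h1
  rcases le_total l₀ l with h | h
  · have h4 : 2 * c ≤ l ^ α⁻¹ := h1 ▸ Real.rpow_le_rpow h0.le h hr.le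
    generalize l ^ α⁻¹ = p at h3 h4
    have h5 : l₀ * p ≤ 2 * (l * p - c * l) := by nlinarith
    have h6 : p ≤ 2 / l₀ * (l * p - c * l) := by
      rw [div_mul_eq_mul_div, le_div_iff₀ h0]
      linarith
    linarith
  · have h4 : l ^ α⁻¹ ≤ 2 * c := h1 ▸ Real.rpow_le_rpow hl h hr.le
    generalize l ^ α⁻¹ = p at h3 h4
    have h5 : -(2 * c) * l₀ ≤ 2 * (l * p - c * l) := by nlinarith
    have h6 : -(2 * c) ≤ 2 / l₀ * (l * p - c * l) := by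
      rw [div_mul_eq_mul_div, le_div_iff₀ h0]
      linarith
    linarith

private theorem rest_matrix {ι : Type*} [Fintype ι] [DecidableEq ι] {α c : ℝ} (hα : 0 < α)
    (hc : 0 < c) {ρ : Matrix ι ι ℂ} (hρ : ρ.PosSemidef) (q : ι → ℂ) :
    rq (mpow ρ α⁻¹) q ≤
      4 * c * rq 1 q + 2 / (2 * c) ^ α * (rq (mpow ρ (1 + α⁻¹)) q - c * rq ρ q) := by
  obtain ⟨u, -, hu2, hρu, hf⟩ := spectral hρ.1
  have hl := hρ.eigenvalues_nonneg
  have h1 : (1 : Matrix ι ι ℂ) = u * dg (fun _ => (1 : ℝ)) * uᴴ := by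
    rw [show dg (fun _ : ι => (1 : ℝ)) = 1 by simp [dg], mul_one, hu2]
  have e1 : rq (mpow ρ α⁻¹) q = ∑ i, hρ.1.eigenvalues i ^ α⁻¹ * ‖(uᴴ *ᵥ q) i‖ ^ 2 := by
    rw [mpow, hf, rq_conj, rq_dg]
  have e2 : rq (mpow ρ (1 + α⁻¹)) q =
      ∑ i, hρ.1.eigenvalues i ^ (1 + α⁻¹) * ‖(uᴴ *ᵥ q) i‖ ^ 2 := by
    rw [mpow, hf, rq_conj, rq_dg]
  have e3 : rq ρ q = ∑ i, hρ.1.eigenvalues i * ‖(uᴴ *ᵥ q) i‖ ^ 2 := by
    conv_lhs => rw [hρu]
    rw [rq_conj, rq_dg]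
  have e4 : rq 1 q = ∑ i, 1 * ‖(uᴴ *ᵥ q) i‖ ^ 2 := by
    conv_lhs => rw [h1]
    rw [rq_conj, rq_dg]
  rw [e1, e2, e3, e4, Finset.mul_sum, Finset.mul_sum, ← Finset.sum_sub_distrib, Finset.mul_sum,
    ← Finset.sum_add_distrib]
  refine Finset.sum_le_sum fun i _ => ?_
  have := mul_le_mul_of_nonneg_right (rest_scalar hα hc (hl i)) (sq_nonneg ‖(uᴴ *ᵥ q) i‖)
  linarith

private theorem rest_step {m : ℕ} {α : ℝ} {W : ℝ → Matrix (Fin m) (Fin m) ℂ} (D : Datum m α W)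
    {C κ₀ : ℝ} (hα : 0 < α) (hκ₀ : 0 < κ₀) {x : ℝ} (hYC : hs2 (D.Y x) ≤ C) {J : ℕ}
    {P : Matrix (Fin D.N) (Fin J) ℂ}
    (hP : ((κ₀ ^ 2 : ℝ) • (1 : Matrix (Fin D.N) (Fin D.N) ℂ) + (C ^ 2 : ℝ) • (P * Pᴴ) -
      D.K2).PosSemidef) (q : Fin m → ℂ) :
    rq (mpow (D.ρ x) α⁻¹) q ≤ 4 * ((1 + α⁻¹) * κ₀ ^ 2) * rq 1 q +
      2 / (2 * ((1 + α⁻¹) * κ₀ ^ 2)) ^ α *
        ((1 + α⁻¹) * C ^ 2 * rq 1 ((D.Y x * P)ᴴ *ᵥ q) + √(D.d4 x) * (C * rq 1 q)) := by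
  have hr : 0 < α⁻¹ := inv_pos.2 hα
  have hc : 0 < (1 + α⁻¹) * κ₀ ^ 2 := by positivity
  refine (rest_matrix hα hc (D.ρ_posSemidef x) q).trans ?_
  refine add_le_add le_rfl (mul_le_mul_of_nonneg_left ?_ (by positivity))
  set v := (D.Y x)ᴴ *ᵥ q with hv
  have h1 : mpow (D.ρ x) (1 + α⁻¹) = D.Y x * D.V x * (D.Y x)ᴴ := by
    have h := congrArg conjTranspose (D.mpow_ρ_mul_Y x)
    rw [conjTranspose_mul, conjTranspose_mul, (mpow_isHermitian _ _).eq,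
      (D.V_posSemidef x).1.eq] at h
    rw [← mul_mpow (D.ρ_posSemidef x) hr.le, Matrix.mul_assoc, ← h, ← Matrix.mul_assoc]
    rfl
  have h2 : rq (mpow (D.ρ x) (1 + α⁻¹)) q = rq (D.V x) v := by rw [h1, rq_conj]
  have h3 : rq (D.ρ x) q = rq 1 v := by
    rw [← rq_conj, Matrix.mul_one]
    rfl
  have h4 : rq 1 v ≤ C * rq 1 q := by
    rw [← h3]
    refine rq_le_of_norm (D.ρ_posSemidef x).1 ?_ q
    exact (norm_le_trace (D.ρ_posSemidef x)).trans ((D.trace_ρ x).trans_le hYC)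
  have h5 : rq (D.A x) v ≤ rq D.K2 v := by
    have h := rq_nonneg (posSemidef_conjTranspose_mul_self (D.F x)) v
    rw [(D.F_herm x).eq] at h
    rw [Datum.A, rq_sub]
    linarith
  have h6 : rq D.K2 v ≤ κ₀ ^ 2 * rq 1 v + C ^ 2 * rq 1 ((D.Y x * P)ᴴ *ᵥ q) := by
    have h := rq_nonneg hP v
    have h' : rq (P * Pᴴ) v = rq 1 ((D.Y x * P)ᴴ *ᵥ q) := by
      rw [conjTranspose_mul, ← mulVec_mulVec, ← hv, ← rq_conj P 1 v, Matrix.mul_one]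
    rw [rq_sub, rq_add, rq_smul, rq_smul, h'] at h
    linarith
  have h7 : rq (-((1 + α⁻¹ : ℝ) • D.A x - D.V x)) v ≤ √(D.d4 x) * rq 1 v := by
    refine rq_le_of_norm ?_ ?_ v
    · refine (IsHermitian.sub ?_ (D.V_posSemidef x).1).neg
      rw [IsHermitian, conjTranspose_smul, (D.A_herm x).eq, star_trivial]
    · rw [norm_neg]
      exact Real.le_sqrt_of_sq_le (norm_sq_le_hs2 _)
  rw [rq_neg, rq_sub, rq_smul] at h7
  have h8 := mul_le_mul_of_nonneg_left h4 (Real.sqrt_nonneg (D.d4 x))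
  have h9 := mul_le_mul_of_nonneg_left (h5.trans h6) (show 0 ≤ 1 + α⁻¹ by positivity)
  rw [h2, h3]
  linarith

theorem rest_bound {m : ℕ} {α : ℝ} {W : ℝ → Matrix (Fin m) (Fin m) ℂ} {D : ℕ → Datum m α W}
    {C κ₀ : ℝ} (hα : 0 < α) (hκ₀ : 0 < κ₀) (hD : Near D C) (T : Top D C κ₀)
    {H : ℝ → Fin T.J → ℝ}
    (hY : ∀ x, Tendsto (fun n => (D n).Y x * T.P n) atTop (𝓝 (T.y * dg (H x))))
    {q : Fin m → ℂ} (hq : ∀ l, star (fun i => T.y i l) ⬝ᵥ q = 0) :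
    ∀ᵐ x, (star q ⬝ᵥ (W x *ᵥ q)).re ≤ 4 * ((1 + α⁻¹) * κ₀ ^ 2) * (star q ⬝ᵥ q).re := by
  have hq' : (T.y)ᴴ *ᵥ q = 0 := by
    funext l
    exact hq l
  filter_upwards [hD.ae1, hD.ae4] with x h1 h4
  have l1 : Tendsto (fun n => rq (mpow ((D n).ρ x) α⁻¹) q) atTop (𝓝 (rq (W x) q)) :=
    ((continuous_rq q).tendsto _).comp h1
  have l2 : Tendsto (fun n => rq 1 (((D n).Y x * T.P n)ᴴ *ᵥ q)) atTop (𝓝 0) := by
    have h := ((continuous_rq_one q).tendsto _).comp (hY x)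
    rw [conjTranspose_mul, ← mulVec_mulVec, hq', mulVec_zero, rq_one] at h
    simpa [Function.comp_def] using h
  have l3 : Tendsto (fun n => √((D n).d4 x)) atTop (𝓝 0) := by
    simpa using h4.sqrt
  have l4 := (((l2.const_mul ((1 + α⁻¹) * C ^ 2)).add (l3.mul_const (C * rq 1 q))).const_mul
    (2 / (2 * ((1 + α⁻¹) * κ₀ ^ 2)) ^ α)).const_add (4 * ((1 + α⁻¹) * κ₀ ^ 2) * rq 1 q)
  have l5 := le_of_tendsto_of_tendsto' l1 l4 fun n =>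
    rest_step (D n) hα hκ₀ (hD.Y_le n x) (T.rest n) q
  rw [rq_one] at l5
  simpa [rq] using l5

end Crest.Agent.R332
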