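import Crest.Agent.R332.Chain
import Crest.Agent.R332.Bound
import Crest.Agent.R332.Const

/-!
# A near-extremal sequence of data

Let `𝒲 = ∫ tr W^p`.  Choose `D n` with `ca 𝒲 - 2^{-n} < (∑ κ^{2α+1}) Ia`.  By `chain` (all terms
`≥ 0`) `∫ tr V^p ≤ 𝒲`, `∫ d2 ≤ 𝒲`, and by `action_plain` `∑ κ^{2α+1} ≤ ca 𝒲 / Ia =: C₁`, so each
`κ i ≤ max 1 C₁` (if `κ ≥ 1` then `κ ≤ κ^{2α+1}`).  `Y_bound` gives `hs2 Y ≤ C'`, `norm_V_le` gives
`‖V‖ ≤ C'^r`, and `action_datum` + `chain` give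
`ca (∫ d1 + p ∫ d2) + c (∫ d3 + ∫ d4) < 2^{-n}`.  Summability: if `f n ≥ 0` are integrable with
`∫ f n ≤ c 2^{-n}` then `f n → 0` a.e. (`hasSum_integral_of_summable_integral_norm` /
`MeasureTheory.ae_lt_top'` with `lintegral_tsum`, or `tendstoInMeasure` + Borel–Cantelli; see
`MeasureTheory.summable_norm_of_tsum_eLpNorm_ne_top`-type lemmas or
`MeasureTheory.hasSum_integral_of_summable_integral_norm` proofs).  Apply it to `d4` and to `d1`;
then `klein_tendsto` (with `trace_ρ`) gives `ae1`.  Take `C` the maximum of the constants.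
-/

set_option autoImplicit false

open MeasureTheory Matrix Filter Topology Set
open scoped ComplexOrder Matrix.Norms.L2Operator MatrixOrder
open Crest.MathPhysics.LiebThirring

namespace Crest.Agent.R332

theorem eqSeq_ae {f : ℕ → ℝ → ℝ} (hi : ∀ n, Integrable (f n)) (h0 : ∀ n x, 0 ≤ f n x) {c : ℝ}
    (h : ∀ n, ∫ x, f n x ≤ c * (1 / 2) ^ n) : ∀ᵐ x, Tendsto (fun n => f n x) atTop (𝓝 0) := by
  have hs : Summable fun n : ℕ => c * (1 / 2 : ℝ) ^ n := summable_geometric_two.mul_left c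
  have hs' : Summable fun n => ∫ x, f n x :=
    Summable.of_nonneg_of_le (fun n => integral_nonneg (h0 n)) h hs
  have h1 : ∫⁻ x, ∑' n, ENNReal.ofReal (f n x) ≠ ⊤ := by
    rw [lintegral_tsum fun n => (hi n).aemeasurable.ennreal_ofReal]
    simp only [← fun n => ofReal_integral_eq_lintegral_ofReal (hi n) (Eventually.of_forall (h0 n))]
    exact hs'.tsum_ofReal_ne_top
  filter_upwards [ae_lt_top' (AEMeasurable.tsum fun n => (hi n).aemeasurable.ennreal_ofReal) h1]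
    with x hx
  have h2 := (ENNReal.tendsto_toReal ENNReal.zero_ne_top).comp
    (ENNReal.tendsto_atTop_zero_of_tsum_ne_top hx.ne)
  simpa [Function.comp_def, ENNReal.toReal_ofReal (h0 _ x)] using h2

theorem eqSeq_tendsto {u : ℕ → ℝ} (h0 : ∀ n, 0 ≤ u n) {c : ℝ} (h : ∀ n, u n ≤ c * (1 / 2) ^ n) :
    Tendsto u atTop (𝓝 0) :=
  squeeze_zero h0 h (by
    simpa using (tendsto_pow_atTop_nhds_zero_of_lt_one (r := (1 / 2 : ℝ)) (by norm_num)
      (by norm_num)).const_mul c)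

theorem exists_near {m : ℕ} {α : ℝ} {W : ℝ → Matrix (Fin m) (Fin m) ℂ} (hα : 0 < α)
    (hα1 : α < 1) (hW : ∀ i j, Measurable fun x => W x i j) (hWp : ∀ x, (W x).PosSemidef)
    (hWi : Integrable fun x => trp (W x) (1 + α))
    (h : ∀ ε : ℝ, 0 < ε → ∃ D : Datum m α W,
      ca α * (∫ x, trp (W x) (1 + α)) - ε < (∑ i, D.κ i ^ (2 * α + 1)) * Ia α) :
    ∃ (D : ℕ → Datum m α W) (C : ℝ), Near D C := by
  choose D hD using fun n : ℕ => h ((1 / 2) ^ n) (by positivity)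
  have hI := Ia_pos hα
  have hc := ca_pos hα
  set 𝒲 := ∫ x, trp (W x) (1 + α) with h𝒲
  have p0 : ∀ n, 0 ≤ ∫ x, trp ((D n).V x) (1 + α) := fun n =>
    integral_nonneg fun x => trp_nonneg ((D n).V_posSemidef x) _
  have p1 : ∀ n, 0 ≤ ∫ x, (D n).d1 x := fun n => integral_nonneg ((D n).d1_nonneg hα hWp)
  have p2 : ∀ n, 0 ≤ ∫ x, (D n).d2 x := fun n => integral_nonneg fun x => hs2_nonneg _
  have p3 : ∀ n, 0 ≤ ∫ x, (D n).d3 x := fun n => integral_nonneg fun x => hs2_nonneg _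
  have p4 : ∀ n, 0 ≤ ∫ x, (D n).d4 x := fun n => integral_nonneg fun x => hs2_nonneg _
  have ch := fun n => (D n).chain hα hW hWp hWi
  rw [← h𝒲] at ch
  have q0 : ∀ n, ∫ x, trp ((D n).V x) (1 + α) ≤ 𝒲 := fun n => by
    linarith [ch n, p1 n, p2 n, mul_nonneg hα.le (p2 n)]
  have q2 : ∀ n, ∫ x, (D n).d2 x ≤ 𝒲 := fun n => by
    linarith [ch n, p0 n, p1 n, mul_nonneg hα.le (p2 n)]
  have q3 : ∀ n, ∑ i, (D n).κ i ^ (2 * α + 1) ≤ ca α * 𝒲 / Ia α := fun n => by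
    rw [le_div_iff₀ hI]
    exact ((D n).action_plain hα hα1).trans (mul_le_mul_of_nonneg_left (q0 n) hc.le)
  have q4 : ∀ n i, (D n).κ i ≤ max 1 (ca α * 𝒲 / Ia α) := fun n i => by
    rcases le_total ((D n).κ i) 1 with h1 | h1
    · exact h1.trans (le_max_left _ _)
    · refine le_trans ?_ ((q3 n).trans (le_max_right _ _))
      refine le_trans ?_ (Finset.single_le_sum (f := fun i => (D n).κ i ^ (2 * α + 1))
        (fun j _ => Real.rpow_nonneg ((D n).κ_pos j).le _) (Finset.mem_univ i))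
      exact Real.self_le_rpow_of_one_le h1 (by linarith)
  obtain ⟨C', hC'⟩ := Y_bound m hα (max (max 1 (ca α * 𝒲 / Ia α)) 𝒲)
  have q5 : ∀ n x, hs2 ((D n).Y x) ≤ C' := fun n => hC' W (D n)
    (fun i => (q4 n i).trans (le_max_left _ _)) ((q0 n).trans (le_max_right _ _))
    ((q2 n).trans (le_max_right _ _))
  obtain ⟨c, hc0, hca⟩ := Datum.action_datum (m := m) (W := W) hα hα1
    (max 1 (ca α * 𝒲 / Ia α)) (C' ^ α⁻¹)
  have key : ∀ n, ca α * (∫ x, (D n).d1 x) + ca α * (∫ x, (D n).d2 x) + c * (∫ x, (D n).d3 x) +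
      c * ∫ x, (D n).d4 x ≤ (1 / 2) ^ n := fun n => by
    have a1 := hca (D n) (q4 n) fun x => (D n).norm_V_le hα (q5 n x)
    have a2 := hD n
    have a3 := mul_nonneg hc.le (mul_nonneg hα.le (p2 n))
    rw [ch n] at a2
    linarith
  have k1 : ∀ n, ∫ x, (D n).d1 x ≤ (ca α)⁻¹ * (1 / 2) ^ n := fun n => by
    rw [le_inv_mul_iff₀ hc]
    linarith [key n, mul_nonneg hc.le (p2 n), mul_nonneg hc0.le (p3 n), mul_nonneg hc0.le (p4 n)]
  have k2 : ∀ n, ∫ x, (D n).d2 x ≤ (ca α)⁻¹ * (1 / 2) ^ n := fun n => by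
    rw [le_inv_mul_iff₀ hc]
    linarith [key n, mul_nonneg hc.le (p1 n), mul_nonneg hc0.le (p3 n), mul_nonneg hc0.le (p4 n)]
  have k3 : ∀ n, ∫ x, (D n).d3 x ≤ c⁻¹ * (1 / 2) ^ n := fun n => by
    rw [le_inv_mul_iff₀ hc0]
    linarith [key n, mul_nonneg hc.le (p1 n), mul_nonneg hc.le (p2 n), mul_nonneg hc0.le (p4 n)]
  have k4 : ∀ n, ∫ x, (D n).d4 x ≤ c⁻¹ * (1 / 2) ^ n := fun n => by
    rw [le_inv_mul_iff₀ hc0]
    linarith [key n, mul_nonneg hc.le (p1 n), mul_nonneg hc.le (p2 n), mul_nonneg hc0.le (p3 n)]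
  refine ⟨D, max (max 1 (ca α * 𝒲 / Ia α)) C', fun n i => (q4 n i).trans (le_max_left _ _),
    fun n => (q3 n).trans ((le_max_right _ _).trans (le_max_left _ _)),
    fun n x => (q5 n x).trans (le_max_right _ _), eqSeq_tendsto p2 k2, eqSeq_tendsto p3 k3,
    eqSeq_tendsto p4 k4,
    eqSeq_ae (fun n => (D n).integrable_d4 hα) (fun n x => hs2_nonneg _) k4, ?_⟩
  filter_upwards [eqSeq_ae (fun n => (D n).integrable_d1 hα hW hWp hWi)
    (fun n => (D n).d1_nonneg hα hWp) k1] with x hx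
  exact klein_tendsto hα (hWp x) (fun n => (D n).ρ_posSemidef x)
    (fun n => ((D n).trace_ρ x).le.trans (q5 n x)) hx

end Crest.Agent.R332
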