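import Crest.Agent.R332.Basic

/-!
# The scalar Riccati equation

If `f = ±a` take `g = f` constant, `h = e^{f x}`, `a' = 0`.  Otherwise let `c` solve
`tanh (r a c) = f / a` (`Real.artanh`, or `c = log((a+f)/(a-f)) / (2 r a)`),
`g x = -a tanh (r a (x - c))`, `h x = (cosh (r a c) / cosh (r a (x-c)))^{1/r}`, `a' = a`
(`1 - tanh² = 1/cosh²`).
-/

set_option autoImplicit false

open MeasureTheory Matrix Filter Topology Set
open scoped ComplexOrder Matrix.Norms.L2Operator MatrixOrder
open Crest.MathPhysics.LiebThirring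

namespace Crest.Agent.R332

theorem scalar_ode {r a f : ℝ} (hr : 0 < r) (ha : 0 < a) (hf : |f| ≤ a) :
    ∃ g h : ℝ → ℝ, g 0 = f ∧ h 0 = 1 ∧ (∀ x, HasDerivAt g (-r * (a ^ 2 - g x ^ 2)) x) ∧
      (∀ x, HasDerivAt h (g x * h x) x) ∧ (∀ x, |g x| ≤ a) ∧ (∀ x, 0 < h x) ∧
      ∃ a' c : ℝ, 0 ≤ a' ∧ ∀ x, (1 + r) * (a ^ 2 - g x ^ 2) = soliton r a' c x := by
  rcases hf.eq_or_lt with hf | hf
  · have h2 : a ^ 2 - f ^ 2 = 0 := by rw [← hf, sq_abs, sub_self]
    refine ⟨fun _ => f, fun x => Real.exp (f * x), rfl, by simp, fun x => ?_, fun x => ?_,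
      fun _ => hf.le, fun x => Real.exp_pos _, 0, 0, le_rfl, fun x => ?_⟩
    · simpa [h2] using hasDerivAt_const x f
    · have := ((hasDerivAt_id x).const_mul f).exp
      simpa [mul_comm] using this
    · simp [h2, soliton]
  · have hfa : f / a ∈ Ioo (-1 : ℝ) 1 := by
      refine abs_lt.1 ?_
      rw [abs_div, abs_of_pos ha, div_lt_one ha]; exact hf
    obtain ⟨c, hc⟩ : ∃ c, Real.tanh (r * a * c) = f / a :=
      ⟨Real.artanh (f / a) / (r * a), by
        rw [mul_div_cancel₀ _ (by positivity), Real.tanh_artanh hfa]⟩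
    have hu : ∀ x, HasDerivAt (fun x => r * a * (x - c)) (r * a) x := fun x => by
      simpa using ((hasDerivAt_id x).sub_const c).const_mul (r * a)
    have hsq : ∀ u : ℝ, a ^ 2 - (-a * (Real.sinh u / Real.cosh u)) ^ 2 = a ^ 2 / Real.cosh u ^ 2 := by
      intro u
      have h1 := Real.cosh_pos u
      have h2 := Real.cosh_sq u
      field_simp
      rw [h2]; ring
    refine ⟨fun x => -a * (Real.sinh (r * a * (x - c)) / Real.cosh (r * a * (x - c))),
      fun x => Real.exp ((Real.log (Real.cosh (r * a * c)) -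
        Real.log (Real.cosh (r * a * (x - c)))) / r), ?_, ?_, fun x => ?_, fun x => ?_,
      fun x => ?_, fun x => Real.exp_pos _, a, c, ha.le, fun x => ?_⟩
    · rw [Real.tanh_eq_sinh_div_cosh] at hc
      simp only [zero_sub, mul_neg, Real.sinh_neg, Real.cosh_neg, neg_div, hc]
      field_simp
    · simp
    · have h1 := Real.cosh_pos (r * a * (x - c))
      have h2 := Real.cosh_sq (r * a * (x - c))
      have := (((hu x).sinh.div (hu x).cosh h1.ne').const_mul (-a))
      refine this.congr_deriv ?_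
      rw [hsq]
      generalize r * a * (x - c) = u at *
      field_simp
      rw [h2]; ring
    · have h1 := Real.cosh_pos (r * a * (x - c))
      have := ((((hu x).cosh.log h1.ne').const_sub (Real.log (Real.cosh (r * a * c)))).div_const
        r).exp
      refine this.congr_deriv ?_
      field_simp
    · have h1 := hsq (r * a * (x - c))
      have h2 : 0 ≤ a ^ 2 / Real.cosh (r * a * (x - c)) ^ 2 := by positivity
      exact abs_le_of_sq_le_sq' (by linarith) ha.le |> abs_le.2
    · simp only [hsq, soliton]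
      ring

end Crest.Agent.R332
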