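import Crest.Agent.R332.EqF
import Crest.Agent.R332.Scalar

/-!
# The columns of the limit are soliton vectors

Choose `g, h` columnwise from `scalar_ode` (`r = α⁻¹`, `a = T.a l`, `f = T.f l`).  For a.e. `x`
(`ae1`, `ae4`): `mpow ρ_n r * (Y_n P) → W (y H)`, and
`mpow ρ r * Y P = Y V P = β Y A P - Y (βA - V) P` (`mpow_ρ_mul_Y`),
`A P = (K²P - P a²) - (F w + w G) + P (a² - G²)` with `w = F P - P G`.  All error terms tend to zero
in `hs2` (`hs2_mul_le`, `Y_le`, `tK`, `top_F` with `X = |x|`, `tendsto_iff_hs2`), hence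
`W y H = β y H (a² - G²)`.  Column `l`, divided by `h x l > 0`, is the claim.
-/

set_option autoImplicit false

open MeasureTheory Matrix Filter Topology Set
open scoped ComplexOrder Matrix.Norms.L2Operator MatrixOrder
open Crest.MathPhysics.LiebThirring

namespace Crest.Agent.R332

theorem eqsol_zero {ι κ : Type*} [Fintype ι] [Fintype κ] {Z : ℕ → Matrix ι κ ℂ} {u : ℕ → ℝ}
    (hu : Tendsto u atTop (𝓝 0)) (c : ℝ) (h : ∀ n, hs2 (Z n) ≤ c * u n) :
    Tendsto Z atTop (𝓝 0) := by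
  rw [tendsto_iff_hs2]
  simp only [sub_zero]
  exact squeeze_zero (fun n => hs2_nonneg _) h (by simpa using hu.const_mul c)

theorem eqsol_mul {ι κ μ : Type*} [Fintype κ] {A : ℕ → Matrix ι κ ℂ} {B : ℕ → Matrix κ μ ℂ}
    {A₀ : Matrix ι κ ℂ} {B₀ : Matrix κ μ ℂ} (hA : Tendsto A atTop (𝓝 A₀))
    (hB : Tendsto B atTop (𝓝 B₀)) : Tendsto (fun n => A n * B n) atTop (𝓝 (A₀ * B₀)) := by
  refine tendsto_pi_nhds.2 fun i => tendsto_pi_nhds.2 fun j => ?_
  simp only [Matrix.mul_apply]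
  exact tendsto_finsetSum _ fun k _ =>
    (tendsto_pi_nhds.1 (tendsto_pi_nhds.1 hA i) k).mul (tendsto_pi_nhds.1 (tendsto_pi_nhds.1 hB k) j)

theorem eqsol_alg {ι κ μ : Type*} [Fintype κ] [Fintype μ] (β : ℝ) (Y : Matrix ι κ ℂ)
    (K F V : Matrix κ κ ℂ) (P : Matrix κ μ ℂ) (a G : Matrix μ μ ℂ) :
    Y * V * P = β • (Y * P * (a - G * G)) + β • (Y * (K * P - P * a)) -
      β • (Y * (F * (F * P - P * G))) - β • (Y * (F * P - P * G) * G) -
      Y * ((β • (K - F * F) - V) * P) := by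
  simp only [Matrix.mul_sub, Matrix.sub_mul, Matrix.mul_assoc, Matrix.smul_mul, Matrix.mul_smul,
    smul_sub]
  abel

theorem eqsol_lim {m : ℕ} {α : ℝ} {W : ℝ → Matrix (Fin m) (Fin m) ℂ} {D : ℕ → Datum m α W}
    {C κ₀ : ℝ} (hD : Near D C) (T : Top D C κ₀) {x : ℝ} {G : Matrix (Fin T.J) (Fin T.J) ℂ}
    {Z : Matrix (Fin m) (Fin T.J) ℂ} {η : ℕ → ℝ} (hη : Tendsto η atTop (𝓝 0))
    (hw : ∀ n, hs2 ((D n).F x * T.P n - T.P n * G) ≤ η n)
    (hZ : Tendsto (fun n => (D n).Y x * T.P n) atTop (𝓝 Z))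
    (h4 : Tendsto (fun n => (D n).d4 x) atTop (𝓝 0))
    (h1 : Tendsto (fun n => mpow ((D n).ρ x) α⁻¹) atTop (𝓝 (W x))) :
    W x * Z = (1 + α⁻¹ : ℝ) • (Z * (dg T.a * dg T.a - G * G)) := by
  have hC := hD.nonneg
  have hY : ∀ n (M : Matrix (Fin (D n).N) (Fin T.J) ℂ), hs2 ((D n).Y x * M) ≤ C * hs2 M :=
    fun n M => (hs2_mul_le _ _).trans (mul_le_mul_of_nonneg_right (hD.Y_le n x) (hs2_nonneg _))
  have e1 : Tendsto (fun n => (D n).Y x * ((D n).K2 * T.P n - T.P n * (dg T.a * dg T.a))) atTop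
      (𝓝 0) := eqsol_zero T.tK C fun n => hY n _
  have e2 : Tendsto (fun n => (D n).Y x * ((D n).F x * ((D n).F x * T.P n - T.P n * G))) atTop
      (𝓝 0) := by
    refine eqsol_zero hη (C * C ^ 2) fun n => (hY n _).trans ?_
    rw [mul_assoc]
    refine mul_le_mul_of_nonneg_left ((hs2_mul_le_left _ _).trans ?_) hC
    exact mul_le_mul (pow_le_pow_left₀ (norm_nonneg _) ((D n).norm_F_le hC (hD.κ_le n) x) 2) (hw n)
      (hs2_nonneg _) (sq_nonneg _)
  have e3 : Tendsto (fun n => (D n).Y x * ((D n).F x * T.P n - T.P n * G)) atTop (𝓝 0) :=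
    eqsol_zero hη C fun n => (hY n _).trans (mul_le_mul_of_nonneg_left (hw n) hC)
  have e4 : Tendsto (fun n => (D n).Y x * (((1 + α⁻¹ : ℝ) • (D n).A x - (D n).V x) * T.P n)) atTop
      (𝓝 0) := by
    refine eqsol_zero h4 C fun n => (hY n _).trans ?_
    refine mul_le_mul_of_nonneg_left ((hs2_mul_le_right _ _).trans ?_) hC
    exact mul_le_of_le_one_right (hs2_nonneg _)
      (pow_le_one₀ (norm_nonneg _) (norm_le_one_of_iso (T.iso n)))
  have l1 := eqsol_mul h1 hZ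
  have l2 := ((((((eqsol_mul hZ (tendsto_const_nhds (x := dg T.a * dg T.a - G * G))).const_smul
    (1 + α⁻¹ : ℝ)).add (e1.const_smul (1 + α⁻¹ : ℝ))).sub (e2.const_smul (1 + α⁻¹ : ℝ))).sub
    ((eqsol_mul e3 (tendsto_const_nhds (x := G))).const_smul (1 + α⁻¹ : ℝ))).sub e4)
  simp only [smul_zero, add_zero, sub_zero, Matrix.zero_mul] at l2
  refine tendsto_nhds_unique l1 (l2.congr fun n => ?_)
  rw [← Matrix.mul_assoc (mpow _ _), (D n).mpow_ρ_mul_Y]
  exact (eqsol_alg _ _ _ _ _ _ _ _).symm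

theorem top_limit {m : ℕ} {α : ℝ} {W : ℝ → Matrix (Fin m) (Fin m) ℂ} {D : ℕ → Datum m α W}
    {C κ₀ : ℝ} (hα : 0 < α) (hD : Near D C) (T : Top D C κ₀) :
    (∀ l, IsSol α W fun i => T.y i l) ∧ ∃ H : ℝ → Fin T.J → ℝ,
      ∀ x, Tendsto (fun n => (D n).Y x * T.P n) atTop (𝓝 (T.y * dg (H x))) := by
  choose g h hg0 hh0 hg hh hga hpos a' c ha' hsol using fun l =>
    scalar_ode (inv_pos.2 hα) (T.a_pos l) (T.f_le l)
  have hY : ∀ x, Tendsto (fun n => (D n).Y x * T.P n) atTop (𝓝 (T.y * dg fun l => h l x)) :=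
    fun x => top_Y hα hD T (g := fun x l => g l x) (h := fun x l => h l x) hg0 (fun x l => hg l x)
      (fun x l => hga l x) hh0 (fun x l => hh l x) x
  refine ⟨fun l => ⟨a' l, c l, ha' l, ?_⟩, fun x l => h l x, hY⟩
  filter_upwards [hD.ae4, hD.ae1] with x h4 h1
  obtain ⟨η, hη, hw⟩ := top_F hα hD T (g := fun x l => g l x) hg0 (fun x l => hg l x)
    (fun x l => hga l x) |x|
  have key := eqsol_lim hD T hη (fun n => hw n x le_rfl) (hY x) h4 h1
  funext i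
  have k1 := congrFun (congrFun key i) l
  rw [← Matrix.mul_assoc, Matrix.mul_sub, dg_mul_dg, dg_mul_dg] at k1
  simp only [dg, Matrix.smul_apply, Matrix.sub_apply, Matrix.mul_diagonal, Complex.real_smul] at k1
  have h0 : ((h l x : ℝ) : ℂ) ≠ 0 := Complex.ofReal_ne_zero.2 (hpos l x).ne'
  have k2 : (W x *ᵥ fun i => T.y i l) i = (W x * T.y) i l := rfl
  rw [k2, ← hsol l x, Pi.smul_apply, smul_eq_mul]
  refine mul_right_cancel₀ h0 ?_
  rw [k1]
  push_cast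
  ring

end Crest.Agent.R332
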