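import Crest.Agent.R332.Mat

/-!
# Simultaneous diagonalisation of two commuting Hermitian matrices

Either use `LinearMap.IsSymmetric.directSum_isInternal_of_commute` with
`DirectSum.IsInternal.subordinateOrthonormalBasis` (joint eigenspaces of `toEuclideanLin A`,
`toEuclideanLin B`), or: diagonalise `A = u₁ diag(λ) u₁ᴴ`; `B' = u₁ᴴ B u₁` commutes with `diag λ`, so
`B' i j = 0` unless `λ i = λ j`; diagonalise the blocks `{i // λ i = c}` and assemble.
-/

set_option autoImplicit false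

open MeasureTheory Matrix Filter Topology Set
open scoped ComplexOrder Matrix.Norms.L2Operator MatrixOrder
open Crest.MathPhysics.LiebThirring

namespace Crest.Agent.R332

theorem jd_mul_const {J : ℕ} (Y : Matrix (Fin J) (Fin J) ℂ) (c : ℝ) :
    Y * dg (fun _ => c) = (c : ℂ) • Y := by
  ext i j
  rw [dg, mul_diagonal, Matrix.smul_apply, smul_eq_mul, mul_comm]

/-- Spectral projections. -/
theorem jd_proj {J : ℕ} {A : Matrix (Fin J) (Fin J) ℂ} (hA : A.IsHermitian) :
    ∃ (s : Finset ℝ) (P : ℝ → Matrix (Fin J) (Fin J) ℂ), ∑ a ∈ s, P a = 1 ∧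
      (∀ a : ℝ, A * P a = (a : ℂ) • P a) ∧ ∀ a Y, A * Y = Y * A → P a * Y = Y * P a := by
  obtain ⟨u, hu1, hu2, hAu, hc⟩ := spectral hA
  generalize hA.eigenvalues = l at hAu hc
  refine ⟨Finset.univ.image l, fun a => cfc (fun x : ℝ => if x = a then (1 : ℝ) else 0) A, ?_,
    fun a => ?_, fun a Y h => mul_cfc_comm _ hA hA h⟩
  · simp only [hc]
    rw [← Matrix.sum_mul, ← Matrix.mul_sum, ← hu2]
    congr 1
    rw [show (∑ a ∈ Finset.univ.image l, dg fun i => if l i = a then (1 : ℝ) else 0) = 1 from ?_,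
      Matrix.mul_one]
    ext i j
    rw [Matrix.sum_apply]
    by_cases hij : i = j
    · subst hij
      simp [dg, apply_ite]
    · simp [dg, hij]
  · simp only [hc]
    rw [hAu]
    simp only [Matrix.mul_assoc]
    rw [← Matrix.mul_assoc uᴴ u, hu1, Matrix.one_mul, ← Matrix.mul_smul, ← Matrix.smul_mul,
      ← Matrix.mul_assoc (dg l), dg_mul_dg, ← jd_mul_const, dg_mul_dg]
    congr 3
    funext i
    split_ifs with h <;> simp [h]

theorem joint_diag {J : ℕ} {A B : Matrix (Fin J) (Fin J) ℂ} (hA : A.IsHermitian)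
    (hB : B.IsHermitian) (h : A * B = B * A) :
    ∃ (u : Matrix (Fin J) (Fin J) ℂ) (a f : Fin J → ℝ),
      uᴴ * u = 1 ∧ u * uᴴ = 1 ∧ A * u = u * dg a ∧ B * u = u * dg f := by
  obtain ⟨s, P, hP1, hP2, hP3⟩ := jd_proj hA
  obtain ⟨s', Q, hQ1, hQ2, -⟩ := jd_proj hB
  obtain ⟨t, ht⟩ := Infinite.exists_notMem_finset
    (((s ×ˢ s) ×ˢ (s' ×ˢ s')).image fun p => (p.1.1 - p.1.2) / (p.2.2 - p.2.1))
  have hinj : Function.Injective fun p : s × s' => p.1.1 + t * p.2.1 := by
    rintro ⟨⟨a, ha⟩, b, hb⟩ ⟨⟨a', ha'⟩, b', hb'⟩ e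
    simp only at e
    by_cases hbb : b = b'
    · subst hbb
      rw [add_left_inj] at e
      subst e
      rfl
    · refine (ht (Finset.mem_image.2 ⟨((a, a'), b, b'), by simp [ha, ha', hb, hb'], ?_⟩)).elim
      rw [div_eq_iff (sub_ne_zero.2 (Ne.symm hbb))]
      linarith
  have hC : (A + (t : ℂ) • B).IsHermitian := hA.add (by
    rw [IsHermitian, conjTranspose_smul, hB.eq, Complex.star_def, Complex.conj_ofReal])
  have hAY : ∀ a b, A * (P a * Q b) = (a : ℂ) • (P a * Q b) := fun a b => by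
    rw [← Matrix.mul_assoc, hP2, Matrix.smul_mul]
  have hBY : ∀ a b, B * (P a * Q b) = (b : ℂ) • (P a * Q b) := fun a b => by
    rw [← Matrix.mul_assoc, ← hP3 a B h, Matrix.mul_assoc, hQ2, Matrix.mul_smul]
  have h1 : ∑ p : s × s', P p.1 * Q p.2 = 1 := by
    rw [Fintype.sum_prod_type]
    simp only [← Matrix.mul_sum]
    rw [Finset.sum_coe_sort s' Q, hQ1]
    simp only [Matrix.mul_one]
    rw [Finset.sum_coe_sort s P, hP1]
  obtain ⟨u, hu1, hu2, -, hc⟩ := spectral hC
  have key : ∀ (X : Matrix (Fin J) (Fin J) ℂ) (g : s × s' → ℝ),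
      (∀ p : s × s', X * (P p.1 * Q p.2) = (g p : ℂ) • (P p.1 * Q p.2)) →
      ∃ d, X * u = u * dg d := fun X g hg => by
    refine ⟨fun i => Function.extend (fun p : s × s' => p.1.1 + t * p.2.1) g 0
      (hC.eigenvalues i), ?_⟩
    have h2 : X = cfc (Function.extend (fun p : s × s' => p.1.1 + t * p.2.1) g 0)
        (A + (t : ℂ) • B) := by
      rw [← Matrix.mul_one X, ← Matrix.mul_one (cfc _ _), ← h1, Matrix.mul_sum, Matrix.mul_sum]
      refine Finset.sum_congr rfl fun p _ => ?_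
      rw [mul_cfc_comm _ hC (dg_isHermitian fun _ => p.1.1 + t * p.2.1), cfc_dg, jd_mul_const,
        hinj.extend_apply, hg]
      rw [jd_mul_const, Matrix.add_mul, Matrix.smul_mul, hAY, hBY, smul_smul, ← add_smul]
      push_cast
      rfl
    conv_lhs => rw [h2, hc, Matrix.mul_assoc, hu1, Matrix.mul_one]
  obtain ⟨a, ha⟩ := key A (fun p => p.1) fun p => hAY _ _
  obtain ⟨f, hf⟩ := key B (fun p => p.2) fun p => hBY _ _
  exact ⟨u, a, f, hu1, hu2, ha, hf⟩

end Crest.Agent.R332
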