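import Crest.Agent.R332.EqComm
import Crest.Agent.R332.Joint

/-!
# Extraction of the top block

Take `g, N₀, T n` from `exists_gap` (`s = 2α+1`).  Some `J ≤ N₀` equals `(T n).card` for infinitely
many `n` (`Filter.frequently_bUnion`/pigeonhole, `extraction_of_frequently_atTop`); pass to that
subsequence (`Near.comp`), `e n : Fin J ≃ T n` (`Finset.equivFinOfCardEq`),
`E n i l = if i = e n l then 1 else 0` (`= (1 : Matrix).submatrix id (e n)`), `k n l = κ (e n l)`,
`Φ n = Eᴴ F 0 E = (F 0).submatrix e e`, `y n = Y 0 E`.  The triples `(k n, Φ n, y n)` are bounded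
(`κ ≤ C`, `norm_F_le`, `Y_le`), so a subsequence converges to `(k, Φ, y₀)`
(`tendsto_subseq_of_bounded`, in `(Fin J → ℝ) × (Fin J → Fin J → ℂ) × (Fin m → Fin J → ℂ)`).
`((K²F - FK²) E) i l = (κ i² - κ (e l)²) F i (e l)`, and `comm_zero` says its `hs2` tends to `0`:
* rows `i ∈ T` give `(k i² - k l²) Φ i l = 0`, hence `dg k * Φ = Φ * dg k` (`k ≥ κ₀/2 > 0`);
* rows `i ∉ T` give `hs2 (F 0 E - E Φ n) ≤ hs2(..)/(g κ₀/2)²`  since
  `κ(e l)² - κ i² ≥ g κ₀/2`.
`joint_diag (dg k) Φ` gives `u, a, f`; `dg a = uᴴ dg k u` is positive definite and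
`dg a ∓ dg f = uᴴ (dg k ∓ Φ) u` is PSD (limit of the compressions of `K ∓ F 0`; only diagonal entries
are needed).  Put `P n = E n * u`, `y = y₀ * u`.  `P Pᴴ = E Eᴴ = dg (indicator of T)`, so `rest` is a
nonnegative diagonal matrix; `K² P - P a² = E (dg (k n)² - dg k²) u`,
`F 0 P - P dg f = (F 0 E - E Φ n) u + E (Φ n - Φ) u`.
-/

set_option autoImplicit false

open MeasureTheory Matrix Filter Topology Set
open scoped ComplexOrder Matrix.Norms.L2Operator MatrixOrder
open Crest.MathPhysics.LiebThirring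

namespace Crest.Agent.R332

/-- The isometry that selects the columns `e l`. -/
noncomputable def topSel {N J : ℕ} (e : Fin J → Fin N) : Matrix (Fin N) (Fin J) ℂ :=
  Matrix.of fun i l => if i = e l then 1 else 0

theorem topSel_mul_right {N J : ℕ} {ι : Type*} (e : Fin J → Fin N) (M : Matrix ι (Fin N) ℂ)
    (i : ι) (l : Fin J) : (M * topSel e) i l = M i (e l) := by
  simp [topSel, Matrix.mul_apply]

theorem topSel_mul_mem {N J : ℕ} {ι : Type*} {e : Fin J → Fin N} (he : Function.Injective e)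
    (X : Matrix (Fin J) ι ℂ) (l : Fin J) (j : ι) : (topSel e * X) (e l) j = X l j := by
  simp [topSel, Matrix.mul_apply, he.eq_iff]

theorem topSel_mul_notMem {N J : ℕ} {ι : Type*} {e : Fin J → Fin N} (X : Matrix (Fin J) ι ℂ)
    {i : Fin N} (hi : i ∉ Set.range e) (j : ι) : (topSel e * X) i j = 0 := by
  have : ∀ l, i ≠ e l := fun l h => hi ⟨l, h.symm⟩
  simp [topSel, Matrix.mul_apply, this]

theorem topSel_iso {N J : ℕ} {e : Fin J → Fin N} (he : Function.Injective e) :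
    (topSel e)ᴴ * topSel e = 1 := by
  ext l l'
  rw [topSel_mul_right]
  simp [topSel, Matrix.one_apply, he.eq_iff, eq_comm]

open Classical in
theorem topSel_proj {N J : ℕ} {e : Fin J → Fin N} (he : Function.Injective e) :
    topSel e * (topSel e)ᴴ = dg fun i => if i ∈ Set.range e then 1 else 0 := by
  ext i j
  by_cases hi : i ∈ Set.range e
  · obtain ⟨l, rfl⟩ := hi
    rw [topSel_mul_mem he]
    simp [topSel, dg, Matrix.diagonal_apply, eq_comm]
  · rw [topSel_mul_notMem _ hi]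
    simp only [dg, Matrix.diagonal_apply, if_neg hi]
    simp

theorem topSel_dg {N J : ℕ} (e : Fin J → Fin N) (κ : Fin N → ℝ) :
    dg κ * topSel e = topSel e * dg fun l => κ (e l) := by
  ext i l
  simp only [dg, Matrix.diagonal_mul, Matrix.mul_diagonal, topSel, Matrix.of_apply]
  split_ifs with h
  · simp [h]
  · simp

theorem hs2_topSel_mul {N J : ℕ} {ι : Type*} [Fintype ι] {e : Fin J → Fin N}
    (he : Function.Injective e) (X : Matrix (Fin J) ι ℂ) : hs2 (topSel e * X) = hs2 X := by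
  rw [hs2_eq_trace, hs2_eq_trace, Matrix.conjTranspose_mul, Matrix.mul_assoc,
    ← Matrix.mul_assoc (topSel e)ᴴ, topSel_iso he, Matrix.one_mul]

theorem top_tendsto_mul {ι κ μ : Type*} [Fintype κ] {A : ℕ → Matrix ι κ ℂ} {A₀ : Matrix ι κ ℂ}
    (h : Tendsto A atTop (𝓝 A₀)) (u : Matrix κ μ ℂ) :
    Tendsto (fun n => A n * u) atTop (𝓝 (A₀ * u)) :=
  ((continuous_id.matrix_mul continuous_const).tendsto A₀).comp h

theorem top_tendsto_hs2 {ι κ μ : Type*} [Fintype ι] [Fintype κ] [Fintype μ] {A : ℕ → Matrix ι κ ℂ}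
    {A₀ : Matrix ι κ ℂ} (h : Tendsto A atTop (𝓝 A₀)) (u : Matrix κ μ ℂ) :
    Tendsto (fun n => hs2 ((A n - A₀) * u)) atTop (𝓝 0) := by
  have := tendsto_iff_hs2.1 (top_tendsto_mul h u)
  simpa only [Matrix.sub_mul] using this

theorem top_diag_nonneg {J : ℕ} {A : ℕ → Matrix (Fin J) (Fin J) ℂ} {A₀ : Matrix (Fin J) (Fin J) ℂ}
    (h : Tendsto A atTop (𝓝 A₀)) (hA : ∀ n, (A n).PosSemidef) (u : Matrix (Fin J) (Fin J) ℂ)
    (l : Fin J) : 0 ≤ ((uᴴ * A₀ * u) l l).re := by
  have h1 : Continuous fun X : Matrix (Fin J) (Fin J) ℂ => ((uᴴ * X * u) l l).re :=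
    Complex.continuous_re.comp
      (((continuous_const.matrix_mul continuous_id).matrix_mul continuous_const).matrix_elem l l)
  refine ge_of_tendsto' ((h1.tendsto A₀).comp h) fun n => ?_
  exact (Complex.nonneg_iff.1 ((hA n).conjTranspose_mul_mul_same u).diag_nonneg).1

theorem top_tendsto_dg {J : ℕ} {k : ℕ → Fin J → ℝ} {k₀ : Fin J → ℝ}
    (h : ∀ l, Tendsto (fun n => k n l) atTop (𝓝 (k₀ l))) :
    Tendsto (fun n => dg (k n)) atTop (𝓝 (dg k₀)) := by
  refine tendsto_pi_nhds.2 fun i => tendsto_pi_nhds.2 fun j => ?_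
  simp only [dg, Matrix.diagonal_apply]
  split_ifs
  · exact (Complex.continuous_ofReal.tendsto _).comp (h i)
  · exact tendsto_const_nhds

theorem top_core {m : ℕ} {α : ℝ} {W : ℝ → Matrix (Fin m) (Fin m) ℂ} {D : ℕ → Datum m α W}
    {C : ℝ} (hα : 0 < α) (h : Near D C) {κ₀ g : ℝ} (hκ₀ : 0 < κ₀) (hg : 0 < g) {J : ℕ}
    (e : ∀ n, Fin J → Fin (D n).N) (he : ∀ n, Function.Injective (e n))
    (h1 : ∀ n l, κ₀ / 2 ≤ (D n).κ (e n l)) (h2 : ∀ n i, i ∉ Set.range (e n) → (D n).κ i ≤ κ₀)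
    (h3 : ∀ n i, i ∉ Set.range (e n) → ∀ l, (D n).κ i + g ≤ (D n).κ (e n l))
    {k : Fin J → ℝ} {Φ : Matrix (Fin J) (Fin J) ℂ} {y : Matrix (Fin m) (Fin J) ℂ}
    (tk : ∀ l, Tendsto (fun n => (D n).κ (e n l)) atTop (𝓝 (k l)))
    (tΦ : ∀ i j, Tendsto (fun n => (D n).F 0 (e n i) (e n j)) atTop (𝓝 (Φ i j)))
    (ty : ∀ i l, Tendsto (fun n => (D n).Y 0 i (e n l)) atTop (𝓝 (y i l))) :
    Nonempty (Top D C κ₀) := by
  classical
  have hX := comm_zero hα h (fun n => topSel (e n)) fun n => topSel_iso (he n)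
  have hXe : ∀ n i l, (((D n).K2 * (D n).F 0 - (D n).F 0 * (D n).K2) * topSel (e n)) i l =
      (((D n).κ i ^ 2 - (D n).κ (e n l) ^ 2 : ℝ) : ℂ) * (D n).F 0 i (e n l) := by
    intro n i l
    rw [topSel_mul_right, Datum.K2_eq]
    simp only [dg, Matrix.sub_apply, Matrix.diagonal_mul, Matrix.mul_diagonal]
    push_cast
    ring
  have hk : ∀ l, κ₀ / 2 ≤ k l := fun l => ge_of_tendsto' (tk l) fun n => h1 n l
  have tΦ' : Tendsto (fun n => ((D n).F 0).submatrix (e n) (e n)) atTop (𝓝 Φ) :=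
    tendsto_pi_nhds.2 fun i => tendsto_pi_nhds.2 fun j => tΦ i j
  have ty' : Tendsto (fun n => (D n).Y 0 * topSel (e n)) atTop (𝓝 y) := by
    refine tendsto_pi_nhds.2 fun i => tendsto_pi_nhds.2 fun j => ?_
    simp only [topSel_mul_right]
    exact ty i j
  have tk' := top_tendsto_dg tk
  have hΦ : Φ.IsHermitian := by
    ext i j
    rw [Matrix.conjTranspose_apply]
    refine tendsto_nhds_unique ((continuous_star.tendsto _).comp (tΦ j i)) ?_
    refine (tΦ i j).congr fun n => ?_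
    exact (((D n).F_herm 0).apply _ _).symm
  have hcomm : dg k * Φ = Φ * dg k := by
    ext i l
    have a1 : Tendsto (fun n => (((D n).κ (e n i) ^ 2 - (D n).κ (e n l) ^ 2 : ℝ) : ℂ) *
        (D n).F 0 (e n i) (e n l)) atTop (𝓝 (((k i ^ 2 - k l ^ 2 : ℝ) : ℂ) * Φ i l)) :=
      ((Complex.continuous_ofReal.tendsto _).comp (((tk i).pow 2).sub ((tk l).pow 2))).mul (tΦ i l)
    have a2 : ‖((k i ^ 2 - k l ^ 2 : ℝ) : ℂ) * Φ i l‖ ^ 2 ≤ 0 := by
      refine le_of_tendsto_of_tendsto' (a1.norm.pow 2) hX fun n => ?_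
      rw [← hXe]
      exact norm_entry_sq_le_hs2 _ _ _
    have a3 : ((k i ^ 2 - k l ^ 2 : ℝ) : ℂ) * Φ i l = 0 := by
      rw [← norm_eq_zero]
      exact (pow_eq_zero_iff two_ne_zero).1 (le_antisymm a2 (sq_nonneg _))
    have a4 : ((k i + k l : ℝ) : ℂ) ≠ 0 := by
      have : 0 < k i + k l := by linarith [hk i, hk l]
      exact_mod_cast this.ne'
    simp only [dg, Matrix.diagonal_mul, Matrix.mul_diagonal]
    apply mul_left_cancel₀ a4
    push_cast at a3 ⊢
    linear_combination a3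
  have hR : Tendsto (fun n => hs2 ((D n).F 0 * topSel (e n) -
      topSel (e n) * ((D n).F 0).submatrix (e n) (e n))) atTop (𝓝 0) := by
    have hc : 0 < (g * (κ₀ / 2)) ^ 2 := by positivity
    have a1 := hX.div_const ((g * (κ₀ / 2)) ^ 2)
    rw [zero_div] at a1
    refine squeeze_zero (fun n => hs2_nonneg _) (fun n => ?_) a1
    rw [le_div_iff₀ hc]
    unfold hs2
    rw [Finset.sum_mul]
    refine Finset.sum_le_sum fun i _ => ?_
    rw [Finset.sum_mul]
    refine Finset.sum_le_sum fun l _ => ?_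
    rw [hXe, Matrix.sub_apply, topSel_mul_right]
    by_cases hi : i ∈ Set.range (e n)
    · obtain ⟨l', rfl⟩ := hi
      rw [topSel_mul_mem (he n), Matrix.submatrix_apply, sub_self, norm_zero,
        zero_pow two_ne_zero, zero_mul]
      positivity
    · rw [topSel_mul_notMem _ hi, sub_zero, norm_mul, mul_comm, Complex.norm_real,
        Real.norm_eq_abs, mul_pow |_|, sq_abs]
      refine mul_le_mul_of_nonneg_right ?_ (sq_nonneg _)
      have b1 := h3 n i hi l
      have b2 := h1 n l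
      have b3 := (D n).κ_pos i
      have b4 : g * (κ₀ / 2) ≤ (D n).κ (e n l) ^ 2 - (D n).κ i ^ 2 := by
        calc g * (κ₀ / 2) ≤ ((D n).κ (e n l) - (D n).κ i) * ((D n).κ (e n l) + (D n).κ i) :=
              mul_le_mul (by linarith) (by linarith) (by positivity) (by linarith)
          _ = _ := by ring
      calc (g * (κ₀ / 2)) ^ 2 ≤ ((D n).κ (e n l) ^ 2 - (D n).κ i ^ 2) ^ 2 :=
            pow_le_pow_left₀ (by positivity) b4 2
        _ = _ := by ring
  obtain ⟨u, a, f, hu1, hu2, hua, huf⟩ := joint_diag (dg_isHermitian k) hΦ hcomm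
  have ha : uᴴ * dg k * u = dg a := by
    rw [Matrix.mul_assoc, hua, ← Matrix.mul_assoc, hu1, Matrix.one_mul]
  have hf : uᴴ * Φ * u = dg f := by
    rw [Matrix.mul_assoc, huf, ← Matrix.mul_assoc, hu1, Matrix.one_mul]
  have hsub : ∀ n, (dg (D n).κ).submatrix (e n) (e n) = dg fun l => (D n).κ (e n l) := by
    intro n
    ext i j
    simp [dg, Matrix.diagonal_apply, (he n).eq_iff]
  refine ⟨{ J := J
            P := fun n => topSel (e n) * u
            a := a
            f := f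
            y := y * u
            iso := fun n => ?_
            rest := fun n => ?_
            a_pos := fun l => ?_
            f_le := fun l => ?_
            tK := ?_
            tF := ?_
            tY := ?_ }⟩
  · rw [Matrix.conjTranspose_mul, Matrix.mul_assoc, ← Matrix.mul_assoc (topSel (e n))ᴴ,
      topSel_iso (he n), Matrix.one_mul, hu1]
  · rw [Matrix.conjTranspose_mul, Matrix.mul_assoc, ← Matrix.mul_assoc u, hu2, Matrix.one_mul,
      topSel_proj (he n), Datum.K2_eq]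
    have e1 : ((κ₀ ^ 2 : ℝ) • (1 : Matrix (Fin (D n).N) (Fin (D n).N) ℂ) +
        (C ^ 2 : ℝ) • (dg fun i => if i ∈ Set.range (e n) then 1 else 0) -
          dg fun i => (D n).κ i ^ 2) =
        dg fun i => κ₀ ^ 2 + C ^ 2 * (if i ∈ Set.range (e n) then 1 else 0) - (D n).κ i ^ 2 := by
      ext i j
      simp only [dg, Matrix.sub_apply, Matrix.add_apply, Matrix.smul_apply, Matrix.one_apply,
        Matrix.diagonal_apply]
      by_cases hij : i = j
      · simp only [hij, if_true, Complex.real_smul]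
        push_cast
        ring
      · simp [hij]
    rw [e1]
    refine dg_posSemidef fun i => ?_
    have b3 := (D n).κ_pos i
    split_ifs with hi
    · have := pow_le_pow_left₀ b3.le (h.κ_le n i) 2
      nlinarith [sq_nonneg κ₀]
    · have := pow_le_pow_left₀ b3.le (h2 n i hi) 2
      linarith
  · have a1 := top_diag_nonneg (A := fun _ => dg fun l => k l - κ₀ / 2) tendsto_const_nhds
      (fun _ => dg_posSemidef fun l => sub_nonneg.2 (hk l)) u l
    have e1 : (dg fun l => k l - κ₀ / 2) = dg k - ((κ₀ / 2 : ℝ) : ℂ) • (1 : Matrix _ _ ℂ) := by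
      ext i j
      simp only [dg, Matrix.sub_apply, Matrix.smul_apply, Matrix.one_apply, Matrix.diagonal_apply]
      split_ifs <;> simp
    rw [e1, Matrix.mul_sub, Matrix.sub_mul, ha, Matrix.mul_smul, Matrix.smul_mul, Matrix.mul_one,
      hu1] at a1
    simp only [dg, Matrix.sub_apply, Matrix.smul_apply, Matrix.one_apply_eq,
      Matrix.diagonal_apply_eq, smul_eq_mul, mul_one, Complex.sub_re, Complex.ofReal_re] at a1
    linarith
  · have a1 := top_diag_nonneg (tk'.sub tΦ') (fun n => by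
      have := ((D n).F_le 0).submatrix (e n)
      rwa [Matrix.submatrix_sub, Pi.sub_apply, Pi.sub_apply, hsub] at this) u l
    have a2 := top_diag_nonneg (tk'.add tΦ') (fun n => by
      have := ((D n).F_ge 0).submatrix (e n)
      rwa [Matrix.submatrix_add, Pi.add_apply, Pi.add_apply, hsub] at this) u l
    rw [Matrix.mul_sub, Matrix.sub_mul, ha, hf] at a1
    rw [Matrix.mul_add, Matrix.add_mul, ha, hf] at a2
    simp only [dg, Matrix.sub_apply, Matrix.add_apply, Matrix.diagonal_apply_eq, Complex.sub_re,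
      Complex.add_re, Complex.ofReal_re] at a1 a2
    rw [abs_le]
    constructor <;> linarith
  · have a1 := top_tendsto_hs2 (top_tendsto_dg fun l => (tk l).mul (tk l)) u
    refine a1.congr fun n => ?_
    rw [← hs2_topSel_mul (he n), ← dg_mul_dg, ← dg_mul_dg]
    congr 1
    have e1 : u * (dg a * dg a) = dg k * dg k * u := by
      rw [← Matrix.mul_assoc, ← hua, Matrix.mul_assoc, ← hua, Matrix.mul_assoc]
    rw [Datum.K2, Matrix.mul_assoc (topSel (e n)) u, e1, Matrix.sub_mul, Matrix.mul_sub,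
      ← Matrix.mul_assoc (dg (D n).κ * dg (D n).κ), Matrix.mul_assoc (dg (D n).κ), topSel_dg,
      ← Matrix.mul_assoc (dg (D n).κ), topSel_dg]
    simp only [Matrix.mul_assoc]
  · have a1 := ((hR.mul_const (hs2 u)).const_mul 2).add ((top_tendsto_hs2 tΦ' u).const_mul 2)
    simp only [zero_mul, mul_zero, add_zero] at a1
    refine squeeze_zero (fun n => hs2_nonneg _) (fun n => ?_) a1
    have e1 : (D n).F 0 * (topSel (e n) * u) - topSel (e n) * u * dg f =
        ((D n).F 0 * topSel (e n) - topSel (e n) * ((D n).F 0).submatrix (e n) (e n)) * u +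
          topSel (e n) * ((((D n).F 0).submatrix (e n) (e n) - Φ) * u) := by
      rw [Matrix.mul_assoc (topSel (e n)) u, ← huf]
      simp only [Matrix.sub_mul, Matrix.mul_sub, Matrix.mul_assoc]
      abel
    rw [e1]
    refine (hs2_add_le _ _).trans ?_
    rw [hs2_topSel_mul (he n)]
    gcongr
    exact hs2_mul_le _ _
  · simpa only [Matrix.mul_assoc] using top_tendsto_mul ty' u

theorem exists_top {m : ℕ} {α : ℝ} {W : ℝ → Matrix (Fin m) (Fin m) ℂ} {D : ℕ → Datum m α W}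
    {C : ℝ} (hα : 0 < α) (h : Near D C) {κ₀ : ℝ} (hκ₀ : 0 < κ₀) :
    ∃ φ : ℕ → ℕ, Tendsto φ atTop atTop ∧ Nonempty (Top (fun n => D (φ n)) C κ₀) := by
  obtain ⟨g, N₀, hg, hgap⟩ := exists_gap (s := 2 * α + 1) (C := C) (by linarith) hκ₀
  choose T hT using fun n => hgap (D n).N (D n).κ (D n).κ_pos (h.sum_le n)
  obtain ⟨J', hJ'⟩ := Finite.exists_infinite_fiber fun n =>
    (⟨(T n).card, Nat.lt_succ_of_le (hT n).1⟩ : Fin (N₀ + 1))
  obtain ⟨J, hJ⟩ : ∃ J : ℕ, ∃ᶠ n in atTop, (T n).card = J := by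
    refine ⟨J', Nat.frequently_atTop_iff_infinite.2 ?_⟩
    refine (Set.infinite_coe_iff.1 hJ').mono fun n hn => ?_
    exact congrArg Fin.val hn
  obtain ⟨φ₁, hφ₁, hc⟩ := extraction_of_frequently_atTop hJ
  let e : ∀ n, Fin J → Fin (D (φ₁ n)).N := fun n => (T (φ₁ n)).orderEmbOfFin (hc n)
  have hr : ∀ n, Set.range (e n) = T (φ₁ n) := fun n => Finset.range_orderEmbOfFin _ _
  have hm : ∀ n l, e n l ∈ T (φ₁ n) := fun n l => Finset.orderEmbOfFin_mem _ _ _
  have hC := h.nonneg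
  let x : ℕ → (Fin J → ℝ) × (Fin J → Fin J → ℂ) × (Fin m → Fin J → ℂ) := fun n =>
    (fun l => (D (φ₁ n)).κ (e n l), fun i j => (D (φ₁ n)).F 0 (e n i) (e n j),
      fun i l => (D (φ₁ n)).Y 0 i (e n l))
  have hx : ∀ n, x n ∈ Metric.closedBall 0 (C + 1) := by
    intro n
    have h0 : 0 ≤ C + 1 := by linarith
    rw [mem_closedBall_zero_iff, Prod.norm_def, Prod.norm_def, max_le_iff, max_le_iff]
    refine ⟨(pi_norm_le_iff_of_nonneg h0).2 fun l => ?_,
      (pi_norm_le_iff_of_nonneg h0).2 fun i => (pi_norm_le_iff_of_nonneg h0).2 fun j => ?_,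
      (pi_norm_le_iff_of_nonneg h0).2 fun i => (pi_norm_le_iff_of_nonneg h0).2 fun j => ?_⟩
    · change ‖(D (φ₁ n)).κ (e n l)‖ ≤ _
      rw [Real.norm_eq_abs, abs_of_pos ((D (φ₁ n)).κ_pos _)]
      linarith [h.κ_le (φ₁ n) (e n l)]
    · change ‖(D (φ₁ n)).F 0 (e n i) (e n j)‖ ≤ _
      linarith [norm_entry_le ((D (φ₁ n)).F 0) (e n i) (e n j),
        (D (φ₁ n)).norm_F_le hC (h.κ_le (φ₁ n)) 0]
    · change ‖(D (φ₁ n)).Y 0 i (e n j)‖ ≤ _
      have := (norm_entry_sq_le_hs2 ((D (φ₁ n)).Y 0) i (e n j)).trans (h.Y_le (φ₁ n) 0)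
      nlinarith [sq_nonneg (‖(D (φ₁ n)).Y 0 i (e n j)‖ - 1)]
  obtain ⟨⟨k, Φ, y⟩, -, φ₂, hφ₂, hlim⟩ := tendsto_subseq_of_bounded Metric.isBounded_closedBall hx
  have hφ : Tendsto (fun n => φ₁ (φ₂ n)) atTop atTop := hφ₁.tendsto_atTop.comp hφ₂.tendsto_atTop
  refine ⟨fun n => φ₁ (φ₂ n), hφ, ?_⟩
  refine top_core hα (h.comp hφ) hκ₀ hg (fun n => e (φ₂ n))
    (fun n => ((T (φ₁ (φ₂ n))).orderEmbOfFin (hc (φ₂ n))).injective)
    (fun n l => (hT _).2.1 _ (hm _ l)) (fun n i hi => (hT _).2.2.1 i ?_)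
    (fun n i hi l => (hT _).2.2.2 i ?_ _ (hm _ l)) (k := k) (Φ := Matrix.of Φ) (y := Matrix.of y)
    (fun l => ?_) (fun i j => ?_) fun i l => ?_
  · rwa [hr] at hi
  · rwa [hr] at hi
  · exact tendsto_pi_nhds.1 hlim.fst_nhds l
  · exact tendsto_pi_nhds.1 (tendsto_pi_nhds.1 hlim.snd_nhds.fst_nhds i) j
  · exact tendsto_pi_nhds.1 (tendsto_pi_nhds.1 hlim.snd_nhds.snd_nhds i) l

end Crest.Agent.R332
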