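import Crest.Agent.R332.Basic

/-!
# Bounded globally Lipschitz ODEs: existence on `[a,b]` and continuity in a parameter

Existence: `IsPicardLindelof` on `Icc a b` with `t₀ = a`, a ball of radius `C (b - a)` (`r = 0`),
`IsPicardLindelof.exists_eq_forall_mem_Icc_hasDerivWithinAt₀`.  Continuity at `p₀`: `y p₀` is an
approximate solution of the equation with field `f p`, with error
`ε(p) = sup_{t ∈ [a,b]} ‖f p t (y p₀ t) - f p₀ t (y p₀ t)‖ → 0` as `p → p₀` (joint continuity,
compactness of `Icc a b`, `IsCompact.eventually_forall_of_forall_eventually`), so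
`dist_le_of_approx_trajectories_ODE` gives
`dist (y p b) (y p₀ b) ≤ gronwallBound (dist (y₀ p) (y₀ p₀)) L ε (b - a)`, which tends to `0`
(`gronwallBound_continuous_ε`, or the explicit formulas).
-/

set_option autoImplicit false

open MeasureTheory Matrix Filter Topology Set
open scoped ComplexOrder Matrix.Norms.L2Operator MatrixOrder
open Crest.MathPhysics.LiebThirring

namespace Crest.Agent.R332

theorem ode_param {E P : Type*} [NormedAddCommGroup E] [NormedSpace ℝ E] [CompleteSpace E]
    [TopologicalSpace P] (f : P → ℝ → E → E) (y₀ : P → E) {a b : ℝ} (hab : a ≤ b) (L : NNReal)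
    (C : ℝ) (hf : Continuous fun q : P × ℝ × E => f q.1 q.2.1 q.2.2)
    (hL : ∀ p, ∀ t ∈ Icc a b, LipschitzWith L (f p t))
    (hC : ∀ p, ∀ t ∈ Icc a b, ∀ y, ‖f p t y‖ ≤ C) (hy₀ : Continuous y₀) :
    ∃ y : P → ℝ → E, (∀ p, y p a = y₀ p) ∧
      (∀ p, ∀ t ∈ Icc a b, HasDerivWithinAt (y p) (f p t (y p t)) (Icc a b) t) ∧
      Continuous fun p => y p b := by
  have hex : ∀ p, ∃ α : ℝ → E, α a = y₀ p ∧
      ∀ t ∈ Icc a b, HasDerivWithinAt α (f p t (α t)) (Icc a b) t := by
    intro p
    have hPL : IsPicardLindelof (f p) (⟨a, le_rfl, hab⟩ : Icc a b) (y₀ p)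
        (C.toNNReal * (b - a).toNNReal) 0 C.toNNReal L :=
      { lipschitzOnWith := fun t ht => (hL p t ht).lipschitzOnWith
        continuousOn := fun x _ =>
          (hf.comp (f := fun t : ℝ => (p, t, x)) (by fun_prop)).continuousOn
        norm_le := fun t ht x _ => (hC p t ht x).trans (Real.le_coe_toNNReal C)
        mul_max_le := by
          simp only [sub_self, NNReal.coe_mul, NNReal.coe_zero, sub_zero]
          rw [max_eq_left (sub_nonneg.2 hab), Real.coe_toNNReal _ (sub_nonneg.2 hab)] }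
    exact hPL.exists_eq_forall_mem_Icc_hasDerivWithinAt₀
  choose y hya hy using hex
  refine ⟨y, hya, hy, continuous_iff_continuousAt.2 fun p₀ => ?_⟩
  have hcont : ∀ p, ContinuousOn (y p) (Icc a b) := fun p t ht => (hy p t ht).continuousWithinAt
  have hder : ∀ p, ∀ t ∈ Ico a b, HasDerivWithinAt (y p) (f p t (y p t)) (Ici t) t :=
    fun p t ht => (hy p t (Ico_subset_Icc_self ht)).mono_of_mem_nhdsWithin
      (mem_of_superset (Icc_mem_nhdsGE ht.2) (Icc_subset_Icc_left ht.1))
  rw [Metric.continuousAt_iff']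
  intro η hη
  have hg : Continuous fun ε : ℝ => gronwallBound ε L (0 + ε) (b - a) := by
    unfold gronwallBound
    split_ifs <;> fun_prop
  have h1 : ∀ᶠ ε in 𝓝 (0 : ℝ), gronwallBound ε L (0 + ε) (b - a) < η :=
    hg.continuousAt.eventually_lt continuousAt_const (by
      rw [add_zero, gronwallBound_ε0_δ0]; exact hη)
  obtain ⟨ε, hε1, hε⟩ := ((h1.filter_mono nhdsWithin_le_nhds).and
    (self_mem_nhdsWithin (s := Ioi (0 : ℝ)))).exists
  have hY : Continuous fun t : Icc a b => y p₀ t := (hcont p₀).domRestrict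
  have h2 : ∀ᶠ p in 𝓝 p₀, ∀ t ∈ (univ : Set (Icc a b)),
      dist (f p₀ t (y p₀ t)) (f p t (y p₀ t)) < ε := by
    refine isCompact_univ.eventually_forall_of_forall_eventually fun t _ => ?_
    have c1 : Continuous fun z : P × Icc a b => f z.1 z.2 (y p₀ z.2) :=
      hf.comp (f := fun z : P × Icc a b => (z.1, (z.2 : ℝ), y p₀ z.2))
        (continuous_fst.prodMk ((continuous_subtype_val.comp continuous_snd).prodMk
          (hY.comp continuous_snd)))
    have c2 : Continuous fun z : P × Icc a b => f p₀ z.2 (y p₀ z.2) :=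
      hf.comp (f := fun z : P × Icc a b => (p₀, (z.2 : ℝ), y p₀ z.2))
        (continuous_const.prodMk ((continuous_subtype_val.comp continuous_snd).prodMk
          (hY.comp continuous_snd)))
    exact (c2.dist c1).continuousAt.eventually_lt continuousAt_const (by simpa using hε)
  filter_upwards [h2, Metric.continuousAt_iff'.1 (hy₀.continuousAt (x := p₀)) ε hε] with p hp hp'
  refine lt_of_le_of_lt (dist_le_of_approx_trajectories_ODE_of_mem (v := f p) (s := fun _ => univ)
    (fun t ht => (hL p t (Ico_subset_Icc_self ht)).lipschitzOnWith) (hcont p) (hder p)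
    (fun t _ => by simp) (fun _ _ => mem_univ _) (hcont p₀) (hder p₀)
    (fun t ht => (hp ⟨t, Ico_subset_Icc_self ht⟩ (mem_univ _)).le) (fun _ _ => mem_univ _)
    (by rw [hya, hya]; exact hp'.le) b ⟨hab, le_rfl⟩) hε1

end Crest.Agent.R332
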