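import Crest.Agent.R332.Mat

/-!
# Positivity is preserved by `Z' = AZ + ZAᴴ + Q`, `Q ≥ 0`

Fix `ε > 0`, `L = 2|c| + 1`, `Zε t = Z t + ε e^{L (t-a)} • 1`.  Claim `Zε t` is positive definite
on `[a,b]`.  Otherwise let `t₁` be the infimum of the (closed, nonempty) set of `t ∈ [a,b]` where it
is not (positive definiteness is an open condition among Hermitian matrices: e.g. `Zε t` is
positive definite iff `∀ v ∈ sphere, 0 < re ⟨v, Zε t v⟩`, use compactness of the sphere).  Then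
`t₁ > a`, `Zε t₁` is PSD (limit from the left) and singular: `Zε t₁ v = 0`, `v ≠ 0`.  The function
`g t = re ⟨v, Zε t v⟩` is positive on `[a,t₁)` and `g t₁ = 0`, so `g' t₁ ≤ 0`; but with
`e = ε e^{L(t₁-a)}`, `Z t₁ v = -e v`, hence
`g' t₁ = -2e re⟨v, A v⟩ + ⟨v,Qv⟩ + L e |v|² ≥ e |v|² > 0`.  Let `ε → 0` (PSD is closed).
(Alternatively apply `image_le_of_liminf_slope_right_lt_deriv_boundary` to `-λ_min`.)
The backward version follows by the reflection `t ↦ a + b - t`.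
-/

set_option autoImplicit false

open MeasureTheory Matrix Filter Topology Set
open scoped ComplexOrder Matrix.Norms.L2Operator MatrixOrder
open Crest.MathPhysics.LiebThirring

namespace Crest.Agent.R332

variable {ι : Type*} [Fintype ι] [DecidableEq ι]

/-- the real quadratic form of a matrix -/
noncomputable def posQ (M : Matrix ι ι ℂ) (v : ι → ℂ) : ℝ := (star v ⬝ᵥ (M *ᵥ v)).re

omit [DecidableEq ι] in
theorem posQ_add (M N : Matrix ι ι ℂ) (v : ι → ℂ) : posQ (M + N) v = posQ M v + posQ N v := by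
  simp [posQ, add_mulVec, dotProduct_add]

omit [DecidableEq ι] in
theorem posQ_sub (M N : Matrix ι ι ℂ) (v : ι → ℂ) : posQ (M - N) v = posQ M v - posQ N v := by
  simp [posQ, sub_mulVec, dotProduct_sub]

omit [DecidableEq ι] in
theorem posQ_smul (c : ℝ) (M : Matrix ι ι ℂ) (v : ι → ℂ) : posQ (c • M) v = c * posQ M v := by
  simp [posQ, smul_mulVec, dotProduct_smul]

omit [DecidableEq ι] in
theorem posQ_smul_right (c : ℝ) (M : Matrix ι ι ℂ) (v : ι → ℂ) :
    posQ M (c • v) = c ^ 2 * posQ M v := by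
  simp only [posQ, mulVec_smul, star_smul, smul_dotProduct, dotProduct_smul, star_trivial,
    Complex.smul_re, smul_eq_mul]
  ring

theorem posQ_one_pos {v : ι → ℂ} (hv : v ≠ 0) : 0 < posQ 1 v := by
  have := dotProduct_star_self_pos_iff.2 hv
  simpa [posQ] using (Complex.pos_iff.1 this).1

omit [DecidableEq ι] in
theorem posQ_nonneg {M : Matrix ι ι ℂ} (hM : M.PosSemidef) (v : ι → ℂ) : 0 ≤ posQ M v :=
  hM.re_dotProduct_nonneg v

omit [DecidableEq ι] in
theorem posSemidef_of_posQ {M : Matrix ι ι ℂ} (hM : M.IsHermitian)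
    (h : ∀ v ∈ Metric.sphere (0 : ι → ℂ) 1, 0 ≤ posQ M v) : M.PosSemidef := by
  refine .of_dotProduct_mulVec_nonneg hM fun x => ?_
  refine Complex.nonneg_iff.2 ⟨?_, (hM.im_star_dotProduct_mulVec_self x).symm⟩
  change 0 ≤ posQ M x
  by_cases hx : x = 0
  · simp [hx, posQ]
  · have hn : ‖x‖ ≠ 0 := norm_ne_zero_iff.2 hx
    have h1 := h (‖x‖⁻¹ • x) (by simp [norm_smul, hn])
    have h2 : x = ‖x‖ • ‖x‖⁻¹ • x := by rw [smul_smul, mul_inv_cancel₀ hn, one_smul]
    rw [h2, posQ_smul_right]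
    positivity

omit [DecidableEq ι] in
theorem continuousOn_posQ {X : Type*} [TopologicalSpace X] {s : Set X} {M : X → Matrix ι ι ℂ}
    {v : X → ι → ℂ} (hM : ContinuousOn M s) (hv : ContinuousOn v s) :
    ContinuousOn (fun x => posQ (M x) (v x)) s := by
  unfold posQ
  refine Complex.continuous_re.comp_continuousOn' ?_
  simp only [dotProduct, mulVec, Pi.star_apply]
  refine continuousOn_finsetSum _ fun i _ => ContinuousOn.mul ?_ ?_
  · exact (continuousOn_pi.1 hv i).star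
  · refine continuousOn_finsetSum _ fun j _ => ContinuousOn.mul ?_ (continuousOn_pi.1 hv j)
    exact continuousOn_pi.1 (continuousOn_pi.1 hM i) j

/-- the derivative of the quadratic form at a null vector of `Z + e` -/
theorem posQ_deriv_ge {Z A : Matrix ι ι ℂ} {c e : ℝ} (he : 0 ≤ e) (hZ : Z.IsHermitian)
    (hA : ‖A‖ ≤ c) {v : ι → ℂ} (hv : (Z + e • (1 : Matrix ι ι ℂ)) *ᵥ v = 0) :
    -(2 * c * e * posQ 1 v) ≤ posQ (A * Z + Z * Aᴴ) v := by
  have h1 : Z *ᵥ v = (-e) • v := by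
    rw [add_mulVec, smul_mulVec, one_mulVec] at hv
    rw [neg_smul]
    exact eq_neg_of_add_eq_zero_left hv
  have h2 : star v ᵥ* Z = (-e) • star v := by
    have := congrArg star h1
    rw [star_mulVec, hZ.eq] at this
    simpa using this
  have h3 : posQ (A * Z + Z * Aᴴ) v = -e * posQ (A + Aᴴ) v := by
    rw [posQ_add, posQ_add, mul_add]
    congr 1
    · simp only [posQ]
      rw [← mulVec_mulVec, h1, mulVec_smul, dotProduct_smul, Complex.smul_re, smul_eq_mul]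
    · simp only [posQ]
      rw [← mulVec_mulVec, dotProduct_mulVec, h2, smul_dotProduct, Complex.smul_re, smul_eq_mul]
  have hH : (A + Aᴴ).IsHermitian := isHermitian_add_transpose_self A
  have hn : ‖A + Aᴴ‖ ≤ 2 * c := by
    have := norm_add_le A Aᴴ
    rw [l2_opNorm_conjTranspose] at this
    linarith
  have h4 := posQ_nonneg (posSemidef_sub_of_norm_le hH hn) v
  rw [posQ_sub, posQ_smul] at h4
  rw [h3]
  nlinarith

/-- a function that is positive on `[a, t₁)` and vanishes at `t₁` has derivative `≤ 0` there -/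
theorem pos_deriv_nonpos {g : ℝ → ℝ} {g' a b t₁ : ℝ} (hat : a < t₁) (htb : t₁ ≤ b)
    (hg : HasDerivWithinAt g g' (Icc a b) t₁) (hpos : ∀ t ∈ Ico a t₁, 0 < g t) (h0 : g t₁ = 0) :
    g' ≤ 0 := by
  have h1 : HasDerivWithinAt g g' (Ioo a t₁) t₁ :=
    hg.mono fun t ht => ⟨ht.1.le, ht.2.le.trans htb⟩
  rw [hasDerivWithinAt_iff_tendsto_slope' (by simp)] at h1
  have := right_nhdsWithin_Ioo_neBot hat
  refine le_of_tendsto h1 ?_
  filter_upwards [self_mem_nhdsWithin] with t ht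
  rw [slope_def_field, h0, sub_zero]
  exact (div_neg_of_pos_of_neg (hpos t ⟨ht.1.le, ht.2⟩) (by linarith [ht.2])).le

theorem pos_eps {Z A Q : ℝ → Matrix ι ι ℂ} {a b c : ℝ}
    (hZ : ∀ t ∈ Icc a b, HasDerivWithinAt Z (A t * Z t + Z t * (A t)ᴴ + Q t) (Icc a b) t)
    (hH : ∀ t ∈ Icc a b, (Z t).IsHermitian) (hA : ∀ t ∈ Icc a b, ‖A t‖ ≤ c)
    (hQ : ∀ t ∈ Icc a b, (Q t).PosSemidef) (h0 : (Z a).PosSemidef) {ε : ℝ} (hε : 0 < ε) :
    ∀ t ∈ Icc a b, ∀ v ∈ Metric.sphere (0 : ι → ℂ) 1,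
      0 < posQ (Z t) v + ε * Real.exp ((2 * c + 1) * (t - a)) * posQ 1 v := by
  by_contra hcon
  push Not at hcon
  obtain ⟨t₀, ht₀, v₀, hv₀, hle₀⟩ := hcon
  obtain ⟨g, hg⟩ : ∃ g : ℝ × (ι → ℂ) → ℝ, g = fun p =>
      posQ (Z p.1) p.2 + ε * Real.exp ((2 * c + 1) * (p.1 - a)) * posQ 1 p.2 := ⟨_, rfl⟩
  have hZc : ContinuousOn Z (Icc a b) := fun t ht => (hZ t ht).continuousWithinAt
  have hgc : ContinuousOn g (Icc a b ×ˢ univ) := by
    rw [hg]
    have c1 : ContinuousOn (fun p : ℝ × (ι → ℂ) => Z p.1) (Icc a b ×ˢ univ) :=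
      hZc.comp continuousOn_fst fun p hp => hp.1
    have c2 : ContinuousOn (fun p : ℝ × (ι → ℂ) => posQ (Z p.1) p.2) (Icc a b ×ˢ univ) :=
      continuousOn_posQ c1 continuousOn_snd
    have c3 : ContinuousOn (fun p : ℝ × (ι → ℂ) => posQ (1 : Matrix ι ι ℂ) p.2)
        (Icc a b ×ˢ univ) := continuousOn_posQ continuousOn_const continuousOn_snd
    have c4 : Continuous fun p : ℝ × (ι → ℂ) => ε * Real.exp ((2 * c + 1) * (p.1 - a)) := by
      fun_prop
    exact c2.add (c4.continuousOn.mul c3)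
  have hS : IsCompact (Icc a b ×ˢ Metric.sphere (0 : ι → ℂ) 1) :=
    isCompact_Icc.prod (isCompact_sphere _ _)
  have hK : IsCompact ((Icc a b ×ˢ Metric.sphere (0 : ι → ℂ) 1) ∩ g ⁻¹' Iic 0) :=
    hS.of_isClosed_subset
      ((hgc.mono (prod_mono_right (subset_univ _))).preimage_isClosed_of_isClosed hS.isClosed
        isClosed_Iic) inter_subset_left
  obtain ⟨⟨t₁, v⟩, ⟨⟨ht₁, hv⟩, hle⟩, hmin⟩ :=
    hK.exists_isMinOn ⟨(t₀, v₀), ⟨ht₀, hv₀⟩, by simpa [hg] using hle₀⟩ continuousOn_fst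
  simp only [mem_preimage, mem_Iic] at hle ht₁ hv
  have hv0 : v ≠ 0 := by
    rintro rfl
    simp at hv
  have hpos : ∀ t ∈ Ico a t₁, ∀ u ∈ Metric.sphere (0 : ι → ℂ) 1, 0 < g (t, u) := by
    intro t ht u hu
    by_contra hn
    have := hmin (a := (t, u)) ⟨⟨⟨ht.1, ht.2.le.trans ht₁.2⟩, hu⟩, not_lt.1 hn⟩
    exact absurd ht.2 (not_lt.2 this)
  have hn1 := posQ_one_pos hv0
  have hat : a < t₁ := by
    refine lt_of_le_of_ne ht₁.1 ?_
    rintro rfl
    have h1 := posQ_nonneg h0 v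
    have h2 : 0 < ε * Real.exp ((2 * c + 1) * (a - a)) * posQ 1 v := by positivity
    rw [hg] at hle
    simp only at hle
    linarith
  have hnn : ∀ u ∈ Metric.sphere (0 : ι → ℂ) 1, 0 ≤ g (t₁, u) := by
    intro u hu
    have hc : ContinuousWithinAt (fun t => g (t, u)) (Ioo a t₁) t₁ := by
      have : ContinuousOn (fun t => g (t, u)) (Icc a b) :=
        hgc.comp (continuous_id.prodMk continuous_const).continuousOn fun t ht => ⟨ht, trivial⟩
      exact (this t₁ ht₁).mono fun t ht => ⟨ht.1.le, ht.2.le.trans ht₁.2⟩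
    have := right_nhdsWithin_Ioo_neBot hat
    refine ge_of_tendsto hc ?_
    filter_upwards [self_mem_nhdsWithin] with t ht
    exact (hpos t ⟨ht.1.le, ht.2⟩ u hu).le
  obtain ⟨e, he⟩ : ∃ e, e = ε * Real.exp ((2 * c + 1) * (t₁ - a)) := ⟨_, rfl⟩
  have he0 : 0 < e := by rw [he]; positivity
  have hge : ∀ u, g (t₁, u) = posQ (Z t₁ + e • (1 : Matrix ι ι ℂ)) u := by
    intro u
    rw [hg, posQ_add, posQ_smul, he]
  have hWH : (Z t₁ + e • (1 : Matrix ι ι ℂ)).IsHermitian := by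
    refine (hH t₁ ht₁).add ?_
    simp [IsHermitian]
  have hW : (Z t₁ + e • (1 : Matrix ι ι ℂ)).PosSemidef :=
    posSemidef_of_posQ hWH fun u hu => hge u ▸ hnn u hu
  have hg0 : g (t₁, v) = 0 := le_antisymm hle (hnn v hv)
  have hnull : (Z t₁ + e • (1 : Matrix ι ι ℂ)) *ᵥ v = 0 := by
    rw [← hW.dotProduct_mulVec_zero_iff]
    refine Complex.ext ?_ (hWH.im_star_dotProduct_mulVec_self v)
    have := hge v
    rw [hg0] at this
    exact this.symm
  have hd : HasDerivWithinAt (fun t => g (t, v))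
      (posQ (A t₁ * Z t₁ + Z t₁ * (A t₁)ᴴ + Q t₁) v + e * (2 * c + 1) * posQ 1 v) (Icc a b) t₁ := by
    rw [hg]
    refine HasDerivWithinAt.add (HasDerivWithinAt.quad (hZ t₁ ht₁) v) ?_
    have h1 : HasDerivAt (fun t : ℝ => (2 * c + 1) * (t - a)) (2 * c + 1) t₁ := by
      simpa using ((hasDerivAt_id t₁).sub_const a).const_mul (2 * c + 1)
    have h2 := ((h1.exp.const_mul ε).mul_const (posQ 1 v)).hasDerivWithinAt (s := Icc a b)
    convert h2 using 1
    rw [he]; ring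
  have h5 := pos_deriv_nonpos hat ht₁.2 hd (fun t ht => hpos t ht v hv) hg0
  have h6 := posQ_deriv_ge he0.le (hH t₁ ht₁) (hA t₁ ht₁) hnull
  have h7 := posQ_nonneg (hQ t₁ ht₁) v
  rw [posQ_add] at h5
  have h8 : 0 < e * posQ 1 v := mul_pos he0 hn1
  nlinarith

theorem pos_forward {Z A Q : ℝ → Matrix ι ι ℂ} {a b c : ℝ}
    (hZ : ∀ t ∈ Icc a b, HasDerivWithinAt Z (A t * Z t + Z t * (A t)ᴴ + Q t) (Icc a b) t)
    (hH : ∀ t ∈ Icc a b, (Z t).IsHermitian) (hA : ∀ t ∈ Icc a b, ‖A t‖ ≤ c)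
    (hQ : ∀ t ∈ Icc a b, (Q t).PosSemidef) (h0 : (Z a).PosSemidef) :
    ∀ t ∈ Icc a b, (Z t).PosSemidef := by
  intro t ht
  refine posSemidef_of_posQ (hH t ht) fun v hv => ?_
  have hlim : Tendsto (fun ε : ℝ => posQ (Z t) v +
      ε * Real.exp ((2 * c + 1) * (t - a)) * posQ 1 v) (𝓝[>] 0) (𝓝 (posQ (Z t) v)) := by
    have : Continuous fun ε : ℝ => posQ (Z t) v +
      ε * Real.exp ((2 * c + 1) * (t - a)) * posQ 1 v := by fun_prop
    simpa using (this.tendsto 0).mono_left (nhdsWithin_le_nhds (s := Ioi 0))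
  refine ge_of_tendsto hlim ?_
  filter_upwards [self_mem_nhdsWithin] with ε hε
  exact (pos_eps hZ hH hA hQ h0 hε t ht v hv).le

theorem pos_backward {Z A Q : ℝ → Matrix ι ι ℂ} {a b c : ℝ}
    (hZ : ∀ t ∈ Icc a b, HasDerivWithinAt Z (A t * Z t + Z t * (A t)ᴴ - Q t) (Icc a b) t)
    (hH : ∀ t ∈ Icc a b, (Z t).IsHermitian) (hA : ∀ t ∈ Icc a b, ‖A t‖ ≤ c)
    (hQ : ∀ t ∈ Icc a b, (Q t).PosSemidef) (h0 : (Z b).PosSemidef) :
    ∀ t ∈ Icc a b, (Z t).PosSemidef := by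
  have hm : ∀ t ∈ Icc a b, a + b - t ∈ Icc a b := fun t ht =>
    ⟨by linarith [ht.2], by linarith [ht.1]⟩
  have key := pos_forward (Z := fun t => Z (a + b - t)) (A := fun t => -A (a + b - t))
    (Q := fun t => Q (a + b - t)) (a := a) (b := b) (c := c) ?_ (fun t ht => hH _ (hm t ht))
    (fun t ht => by simpa using hA _ (hm t ht)) (fun t ht => hQ _ (hm t ht)) (by simpa using h0)
  · intro t ht
    simpa using key _ (hm t ht)
  · intro t ht
    rw [hasDerivWithinAt_iff_entry]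
    intro i j
    have h1 := hasDerivWithinAt_iff_entry.1 (hZ _ (hm t ht)) i j
    have h2 : HasDerivWithinAt (fun t : ℝ => a + b - t) (-1) (Icc a b) t := by
      simpa using ((hasDerivAt_id t).const_sub (a + b)).hasDerivWithinAt
    have h3 := h1.scomp t h2 hm
    refine h3.congr_deriv ?_
    simp only [conjTranspose_neg, Matrix.neg_mul, Matrix.mul_neg, Matrix.add_apply,
      Matrix.neg_apply, Matrix.sub_apply, neg_smul, one_smul]
    ring

end Crest.Agent.R332
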