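import Crest.Agent.R332.TrajBasic
import Crest.Agent.R332.Nehari

/-!
# The positive part of the parameter is bounded if the true Riccati equation is solvable

Let `C = sqP M` (Hermitian, `C * C = posP M`, `negP M * C = 0 = C * negP M` by `cfc_mul_cfc`),
`τ = re tr (posP M) = hs2 C`, `Y = U C`, `Y' = U' C`, `B = YᴴY`.  `nehari` with
`F' = S - F² - V` gives `0 ≤ ∫_a^b (hs2 Y' + re tr (B (S - V)))`.  Now `hs2 (U' C) ≤ c₁ τ`
(`hs2_mul_le`, `hs2 U' ≤ c₁` on `[a,b]`), `tr (B S) = tr (B K₀²) ≤ ‖K₀²‖ tr B ≤ ‖K₀²‖ c₂ τ`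
(`re_trace_mul_nonneg`, `posSemidef_sub_of_norm_le`), `tr (B V) = trp B (1+r)` (`mul_mpow`),
`(tr B)^{1+r} ≤ N^r trp B (1+r)` (`trace_rpow_le`), and `x^{1+r} ≥ λ x - λ^{1+1/r}` for
`x, λ ≥ 0`.  Since `∫_a^b tr B = tr (C (∫ UᴴU) C) = τ` (`P.orth`, `U_supp`), we get
`λ τ - ℓ λ^{1+1/r} ≤ N^r ℓ c₃ τ`; choose `λ = N^r ℓ c₃ + 1`.
-/

set_option autoImplicit false

open MeasureTheory Matrix Filter Topology Set
open scoped ComplexOrder Matrix.Norms.L2Operator MatrixOrder
open Crest.MathPhysics.LiebThirring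

namespace Crest.Agent.R332

namespace PosBound

variable {ι : Type*} [Fintype ι] [DecidableEq ι]

theorem sqP_mul_sqP (M : Matrix ι ι ℂ) : sqP M * sqP M = posP M := by
  rw [sqP, posP, cfc_mul_cfc]
  congr 1
  funext t
  rcases le_total 0 t with h | h
  · rw [Real.mul_self_sqrt h, max_eq_left h]
  · rw [Real.sqrt_eq_zero_of_nonpos h, max_eq_right h, mul_zero]

theorem sqP_mul_negP (M : Matrix ι ι ℂ) : sqP M * negP M = 0 := by
  rw [sqP, negP, cfc_mul_cfc]
  have : (fun t : ℝ => √t * max (-t) 0) = fun _ => 0 := by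
    funext t
    rcases le_total 0 t with h | h
    · rw [max_eq_right (neg_nonpos.2 h), mul_zero]
    · rw [Real.sqrt_eq_zero_of_nonpos h, zero_mul]
  rw [this, cfc_const_zero]

theorem sqP_conj (M : Matrix ι ι ℂ) : (sqP M)ᴴ = sqP M := (cfc_isHermitian _ _).eq

theorem hs2_sqP (M : Matrix ι ι ℂ) : hs2 (sqP M) = (trace (posP M)).re := by
  rw [hs2_eq_trace, sqP_conj, sqP_mul_sqP]

theorem young {x l r : ℝ} (hx : 0 ≤ x) (hl : 0 ≤ l) (hr : 0 < r) :
    l * x ≤ x ^ (1 + r) + l * l ^ r⁻¹ := by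
  rcases le_total x (l ^ r⁻¹) with h | h
  · exact le_add_of_nonneg_of_le (Real.rpow_nonneg hx _) (mul_le_mul_of_nonneg_left h hl)
  · refine le_add_of_le_of_nonneg ?_ (mul_nonneg hl (Real.rpow_nonneg hl _))
    have h1 : l ≤ x ^ r := by
      have := Real.rpow_le_rpow (Real.rpow_nonneg hl _) h hr.le
      rwa [← Real.rpow_mul hl, inv_mul_cancel₀ hr.ne', Real.rpow_one] at this
    rw [Real.rpow_add' hx (by positivity), Real.rpow_one, mul_comm]
    exact mul_le_mul_of_nonneg_left h1 hx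

theorem re_trace_mul_le {B K : Matrix ι ι ℂ} (hB : B.PosSemidef) (hK : K.IsHermitian) :
    (trace (B * K)).re ≤ ‖K‖ * (trace B).re := by
  have := re_trace_mul_nonneg hB (posSemidef_sub_of_norm_le hK le_rfl)
  rw [Matrix.mul_sub, Matrix.mul_smul, Matrix.mul_one, trace_sub, trace_smul, Complex.sub_re,
    Complex.real_smul, Complex.re_ofReal_mul] at this
  linarith

variable {m : ℕ} {W : ℝ → Matrix (Fin m) (Fin m) ℂ} (P : Pre m W)

theorem int_entry (i j : Fin P.N) :
    ∫ t in P.a..P.b, ((P.U t)ᴴ * P.U t) i j = (1 : Matrix (Fin P.N) (Fin P.N) ℂ) i j := by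
  rw [intervalIntegral.integral_eq_integral_of_support_subset, P.orth]
  intro t ht
  by_contra h
  apply ht
  have : P.U t = 0 := P.U_supp t fun h' => h (Ioo_subset_Ioc_self h')
  simp [this]

theorem int_hs2 (M : Matrix (Fin P.N) (Fin P.N) ℂ) :
    ∫ t in P.a..P.b, hs2 (P.U t * sqP M) = (trace (posP M)).re := by
  have hc : ∀ i j, Continuous fun t => ((P.U t)ᴴ * P.U t) i j := fun i j =>
    (P.continuous_U.matrix_conjTranspose.matrix_mul P.continuous_U).matrix_elem i j
  have e : ∀ t, hs2 (P.U t * sqP M) =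
      Complex.reCLM (∑ i, ∑ j, ((P.U t)ᴴ * P.U t) i j * posP M j i) := fun t => by
    rw [hs2_eq_trace, conjTranspose_mul, sqP_conj, Matrix.mul_assoc, trace_mul_comm,
      Matrix.mul_assoc, Matrix.mul_assoc, sqP_mul_sqP, ← Matrix.mul_assoc]
    rfl
  have hc1 : ∀ i j, Continuous fun t => ((P.U t)ᴴ * P.U t) i j * posP M j i := fun i j =>
    (hc i j).mul continuous_const
  have hc2 : ∀ i, Continuous fun t => ∑ j, ((P.U t)ᴴ * P.U t) i j * posP M j i := fun i =>
    continuous_finsetSum _ fun j _ => hc1 i j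
  have hc3 : Continuous fun t => ∑ i, ∑ j, ((P.U t)ᴴ * P.U t) i j * posP M j i :=
    continuous_finsetSum _ fun i _ => hc2 i
  simp only [e]
  rw [Complex.reCLM.intervalIntegral_comp_comm (hc3.intervalIntegrable _ _),
    intervalIntegral.integral_finsetSum fun i _ => (hc2 i).intervalIntegrable _ _]
  simp only [Complex.reCLM_apply]
  congr 1
  refine Finset.sum_congr rfl fun i _ => ?_
  rw [intervalIntegral.integral_finsetSum fun j _ => (hc1 i j).intervalIntegrable _ _]
  simp only [intervalIntegral.integral_mul_const, int_entry]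
  simp [Matrix.one_apply]

end PosBound

open PosBound

theorem Pre.posP_bound {m : ℕ} {W : ℝ → Matrix (Fin m) (Fin m) ℂ} (P : Pre m W) {r : ℝ}
    (hr : 0 < r) :
    ∃ R₁ : ℝ, ∀ (M : Matrix (Fin P.N) (Fin P.N) ℂ) (F : ℝ → Matrix (Fin P.N) (Fin P.N) ℂ),
      M.IsHermitian → (∀ t ∈ Icc P.a P.b, (F t).IsHermitian) →
      (∀ t ∈ Icc P.a P.b, HasDerivWithinAt F (P.S M - F t * F t - P.V r M t) (Icc P.a P.b) t) →
      (trace (posP M)).re ≤ R₁ := by
  obtain ⟨c₁, hc₁⟩ := (isCompact_Icc (a := P.a) (b := P.b)).bddAbove_image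
    (continuous_hs2.comp P.U'_cont).continuousOn
  obtain ⟨c₂, hc₂⟩ := (isCompact_Icc (a := P.a) (b := P.b)).bddAbove_image
    (continuous_hs2.comp P.continuous_U).continuousOn
  have h1 : ∀ t ∈ Icc P.a P.b, hs2 (P.U' t) ≤ c₁ := fun t ht => hc₁ ⟨t, ht, rfl⟩
  have h2 : ∀ t ∈ Icc P.a P.b, hs2 (P.U t) ≤ c₂ := fun t ht => hc₂ ⟨t, ht, rfl⟩
  have hab := P.hab.le
  have h1' : 0 ≤ c₁ := (hs2_nonneg _).trans (h1 _ (left_mem_Icc.2 hab))
  have h2' : 0 ≤ c₂ := (hs2_nonneg _).trans (h2 _ (left_mem_Icc.2 hab))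
  set n : ℝ := (P.N : ℝ) ^ r with hn
  have hn0 : 0 ≤ n := by positivity
  set c : ℝ := n * (c₁ + ‖P.K2‖ * c₂) with hc
  have hc0 : 0 ≤ c := by positivity
  have hl : 0 ≤ P.b - P.a := sub_nonneg.2 hab
  set l : ℝ := (P.b - P.a) * c + 1 with hldef
  have hl0 : 0 ≤ l := by positivity
  refine ⟨(P.b - P.a) * (l * l ^ r⁻¹), fun M F hM hF hd => ?_⟩
  set τ := (trace (posP M)).re with hτ
  have hτ0 : 0 ≤ τ := by rw [hτ, ← hs2_sqP]; exact hs2_nonneg _
  have cF : ContinuousOn F (Icc P.a P.b) := fun t ht => (hd t ht).continuousWithinAt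
  have cY : Continuous fun t => P.U t * sqP M := P.continuous_U.matrix_mul continuous_const
  have cY' : Continuous fun t => P.U' t * sqP M := P.U'_cont.matrix_mul continuous_const
  have cF' : ContinuousOn (fun t => P.S M - F t * F t - P.V r M t) (Icc P.a P.b) :=
    (continuousOn_const.sub (nehari_cont_mul cF cF)).sub (P.continuous_V hr M).continuousOn
  have key := nehari (Y := fun t => P.U t * sqP M) (Y' := fun t => P.U' t * sqP M) (F := F)
    (F' := fun t => P.S M - F t * F t - P.V r M t) hab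
    (fun t _ => by
      simpa using (HasDerivAt.mmul (P.U_deriv t) (hasDerivAt_const t (sqP M))).hasDerivWithinAt)
    cY'.continuousOn hd cF' hF
    (by rw [P.U_supp _ fun h => lt_irrefl _ h.1, Matrix.zero_mul])
    (by rw [P.U_supp _ fun h => lt_irrefl _ h.2, Matrix.zero_mul])
  have k0 : 0 ≤ ∫ t in P.a..P.b, hs2 (P.U' t * sqP M - P.U t * sqP M * F t) :=
    intervalIntegral.integral_nonneg hab fun t _ => hs2_nonneg _
  rw [key] at k0
  have k1 := mul_nonneg hn0 k0
  rw [← intervalIntegral.integral_const_mul] at k1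
  have k2 := k1.trans (intervalIntegral.integral_mono_on
    (g := fun t => (c * τ + l * l ^ r⁻¹) - l * hs2 (P.U t * sqP M)) hab
    (ContinuousOn.intervalIntegrable_of_Icc hab (continuousOn_const.mul
      ((continuous_hs2.comp cY').continuousOn.add (nehari_cont_retrace (nehari_cont_mul
        (nehari_cont_mul (nehari_cont_conj cY.continuousOn) cY.continuousOn)
        (cF'.add (nehari_cont_mul cF cF)))))))
    ((continuous_const.sub (continuous_const.mul (continuous_hs2.comp cY))).intervalIntegrable _ _)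
    fun t ht => ?_)
  · have c3 : Continuous fun t => l * hs2 (P.U t * sqP M) :=
      continuous_const.mul (continuous_hs2.comp cY)
    rw [intervalIntegral.integral_sub (continuous_const.intervalIntegrable _ _)
      (c3.intervalIntegrable _ _),
      intervalIntegral.integral_const, intervalIntegral.integral_const_mul, int_hs2, ← hτ,
      smul_eq_mul] at k2
    have : l * τ = (P.b - P.a) * c * τ + τ := by rw [hldef]; ring
    nlinarith
  · set B := (P.U t * sqP M)ᴴ * (P.U t * sqP M) with hB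
    have hBp : B.PosSemidef := posSemidef_conjTranspose_mul_self _
    have hx : hs2 (P.U t * sqP M) = (trace B).re := hs2_eq_trace _
    have e1 : B * (P.S M - F t * F t - P.V r M t + F t * F t) = B * P.K2 - mpow B (1 + r) := by
      rw [← mul_mpow hBp hr.le, show P.S M - F t * F t - P.V r M t + F t * F t =
        P.K2 + negP M - mpow B r by rw [Pre.S, Pre.V]; abel, Matrix.mul_sub, Matrix.mul_add,
        show B * negP M = 0 by
          rw [hB, Matrix.mul_assoc, Matrix.mul_assoc, sqP_mul_negP, Matrix.mul_zero,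
            Matrix.mul_zero], add_zero]
    have hK : P.K2.IsHermitian := by rw [Pre.K2, dg_mul_dg]; exact dg_isHermitian _
    have b1 : hs2 (P.U' t * sqP M) ≤ c₁ * τ := (hs2_mul_le _ _).trans (by
      rw [hs2_sqP]; exact mul_le_mul_of_nonneg_right (h1 t ht) hτ0)
    have b2 : (trace B).re ≤ c₂ * τ := hx ▸ (hs2_mul_le _ _).trans (by
      rw [hs2_sqP]; exact mul_le_mul_of_nonneg_right (h2 t ht) hτ0)
    have b3 := (re_trace_mul_le hBp hK).trans (mul_le_mul_of_nonneg_left b2 (norm_nonneg _))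
    have b4 := trace_rpow_le hBp (t := 1 + r) (by linarith)
    rw [add_sub_cancel_left, Fintype.card_fin, ← hn] at b4
    have b5 := young (x := (trace B).re) (hx ▸ hs2_nonneg _) hl0 hr
    have b6 := mul_le_mul_of_nonneg_left (add_le_add b1 b3) hn0
    rw [e1, trace_sub, Complex.sub_re, hx, hc]
    change n * (_ + (_ - trp B (1 + r))) ≤ _
    linarith

end Crest.Agent.R332
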