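import Crest.Agent.R332.Mat

/-!
# Reduction of a trial family to its negative-energy eigenvectors

Let `Φ x : Matrix (Fin m) (Fin n) ℂ` have columns `φ k x` and `Φ' x` columns `deriv (φ k) x`.
Then `inner (φ k x) (φ l x) = (ΦᴴΦ) k l` and the integrand of `energyMatrix` is
`(Φ'ᴴΦ' - Φᴴ W Φ) k l`; all entries are integrable (continuous with compact support, times the
locally integrable entries of `W`: `locallyIntegrable_entry`,
`LocallyIntegrable.integrable_smul_left_of_hasCompactSupport`).  `E = energyMatrix W φ` is Hermitian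
(`integral_conj`, `W x` Hermitian).  Write `E = u diag(λ) uᴴ` (`spectral`), enumerate
`{i // λ i < 0}` by `Fin N` (`Fintype.equivFin`), let `P = u.submatrix id e` (columns with
negative eigenvalue), `U = Φ P`, `k i = √(-λ (e i))`.  Then `PᴴP = 1`, `Pᴴ E P = diag λ∘e`,
and `negMoment E γ = ∑ (max (-λ) 0)^γ = ∑_{λ<0} k^{2γ}` (`trace_cfc_re`).  For `a, b` take an
interval containing all supports in its interior (the derivative vanishes off the support).
-/

set_option autoImplicit false

open MeasureTheory Matrix Filter Topology Set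
open scoped ComplexOrder Matrix.Norms.L2Operator MatrixOrder
open Crest.MathPhysics.LiebThirring

namespace Crest.Agent.R332

/-- The matrix with columns `f k x`. -/
private def cols {m n : ℕ} (f : Fin n → ℝ → Vec m) (x : ℝ) : Matrix (Fin m) (Fin n) ℂ :=
  Matrix.of fun i k => f k x i

private theorem cols_inner {m n : ℕ} (f : Fin n → ℝ → Vec m) (x : ℝ) (k l : Fin n) :
    inner ℂ (f k x) (f l x) = ((cols f x)ᴴ * cols f x) k l := by
  simp [cols, PiLp.inner_apply, Matrix.mul_apply, mul_comm]

private theorem cols_inner_W {m n : ℕ} (f : Fin n → ℝ → Vec m) (x : ℝ)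
    (A : Matrix (Fin m) (Fin m) ℂ) (k l : Fin n) :
    inner ℂ (f k x) (Matrix.toEuclideanLin A (f l x)) = ((cols f x)ᴴ * A * cols f x) k l := by
  rw [Matrix.mul_assoc]
  simp [cols, PiLp.inner_apply, Matrix.mul_apply, mul_comm, Matrix.toLpLin_apply,
    Matrix.mulVec, dotProduct]

private theorem sand_apply {n N : ℕ} (P : Matrix (Fin n) (Fin N) ℂ) (M : Matrix (Fin n) (Fin n) ℂ)
    (i j : Fin N) : (Pᴴ * M * P) i j = ∑ l, ∑ k, star (P k i) * M k l * P l j := by
  simp [Matrix.mul_apply, Finset.sum_mul]

private theorem sand_int {n N : ℕ} (P : Matrix (Fin n) (Fin N) ℂ)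
    {M : ℝ → Matrix (Fin n) (Fin n) ℂ} (hM : ∀ k l, Integrable fun x => M x k l) (i j : Fin N) :
    Integrable fun x => (Pᴴ * M x * P) i j := by
  simp only [sand_apply]
  exact integrable_finsetSum _ fun l _ => integrable_finsetSum _ fun k _ =>
    ((hM k l).const_mul _).mul_const _

private theorem sand_integral {n N : ℕ} (P : Matrix (Fin n) (Fin N) ℂ)
    {M : ℝ → Matrix (Fin n) (Fin n) ℂ} (hM : ∀ k l, Integrable fun x => M x k l)
    {E : Matrix (Fin n) (Fin n) ℂ} (hE : ∀ k l, ∫ x, M x k l = E k l) (i j : Fin N) :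
    ∫ x, (Pᴴ * M x * P) i j = (Pᴴ * E * P) i j := by
  simp only [sand_apply]
  rw [integral_finsetSum _ fun l _ => integrable_finsetSum _ fun k _ =>
    ((hM k l).const_mul _).mul_const _]
  refine Finset.sum_congr rfl fun l _ => ?_
  rw [integral_finsetSum _ fun k _ => ((hM k l).const_mul _).mul_const _]
  refine Finset.sum_congr rfl fun k _ => ?_
  rw [integral_mul_const, integral_const_mul, hE]

private theorem cols_cont {m n : ℕ} {f : Fin n → ℝ → Vec m} (hf : ∀ k, Continuous (f k))
    (i : Fin m) (k : Fin n) : Continuous fun x => cols f x i k :=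
  (EuclideanSpace.proj (𝕜 := ℂ) i).continuous.comp (hf k)

private theorem cols_supp {m n : ℕ} {f : Fin n → ℝ → Vec m} (hf : ∀ k, HasCompactSupport (f k))
    (i : Fin m) (k : Fin n) : HasCompactSupport fun x => cols f x i k :=
  (hf k).comp_left (g := fun v : Vec m => v i) rfl

private theorem cols_int {m n : ℕ} {f : Fin n → ℝ → Vec m} (hf : ∀ k, Continuous (f k))
    (hs : ∀ k, HasCompactSupport (f k)) {A : ℝ → Matrix (Fin m) (Fin m) ℂ}
    (hA : ∀ i j, LocallyIntegrable fun x => A x i j) (k l : Fin n) :
    Integrable fun x => ((cols f x)ᴴ * A x * cols f x) k l := by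
  simp only [sand_apply]
  refine integrable_finsetSum _ fun j _ => integrable_finsetSum _ fun i _ => ?_
  have h1 : Continuous fun x => star (cols f x i k) * cols f x j l :=
    (cols_cont hf i k).star.mul (cols_cont hf j l)
  have h2 : HasCompactSupport fun x => star (cols f x i k) * cols f x j l :=
    (cols_supp hs j l).mul_left
  refine ((hA i j).integrable_smul_left_of_hasCompactSupport h1 h2).congr
    (Eventually.of_forall fun x => ?_)
  simp only [smul_eq_mul]
  ring

private theorem cols_int_one {m n : ℕ} {f : Fin n → ℝ → Vec m} (hf : ∀ k, Continuous (f k))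
    (hs : ∀ k, HasCompactSupport (f k)) (k l : Fin n) :
    Integrable fun x => ((cols f x)ᴴ * cols f x) k l := by
  have := cols_int hf hs (A := fun _ => 1) (fun _ _ => locallyIntegrable_const _) k l
  simpa only [Matrix.mul_one] using this

private theorem exists_radius {m n : ℕ} {f : Fin n → ℝ → Vec m}
    (hs : ∀ k, HasCompactSupport (f k)) :
    ∃ R : ℝ, 0 < R ∧ ∀ x, R ≤ |x| → cols f x = 0 := by
  have h : IsCompact (⋃ k, tsupport (f k)) := isCompact_iUnion fun k => (hs k).isCompact
  obtain ⟨R, hR0, hR⟩ := h.isBounded.subset_ball_lt 0 0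
  refine ⟨R, hR0, fun x hx => ?_⟩
  ext i k
  have : x ∉ tsupport (f k) := fun hk => by
    have := hR (mem_iUnion.2 ⟨k, hk⟩)
    rw [mem_ball_zero_iff, Real.norm_eq_abs] at this
    linarith
  simp [cols, image_eq_zero_of_notMem_tsupport this]

private theorem sub_iso {n N : ℕ} {u : Matrix (Fin n) (Fin n) ℂ} (hu : uᴴ * u = 1)
    {e : Fin N → Fin n} (he : Function.Injective e) (d : Fin n → ℝ) :
    (u.submatrix id e)ᴴ * (u * dg d * uᴴ) * u.submatrix id e = dg fun i => d (e i) := by
  have h1 : (u.submatrix id e)ᴴ * (u * dg d * uᴴ) * u.submatrix id e =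
      (uᴴ * (u * dg d * uᴴ) * u).submatrix e e := by
    ext i j
    simp [Matrix.mul_apply]
  have h2 : uᴴ * (u * dg d * uᴴ) * u = dg d := by
    calc uᴴ * (u * dg d * uᴴ) * u = (uᴴ * u) * dg d * (uᴴ * u) := by
          simp only [Matrix.mul_assoc]
      _ = dg d := by rw [hu, Matrix.one_mul, Matrix.mul_one]
  rw [h1, h2, dg, dg, Matrix.submatrix_diagonal _ _ he]
  rfl

theorem exists_pre {m n : ℕ} {W : ℝ → Matrix (Fin m) (Fin m) ℂ}
    (hW : ∀ i j, Measurable fun x => W x i j) (hWp : ∀ x, (W x).PosSemidef) {p : ℝ} (hp : 1 ≤ p)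
    (hWi : Integrable fun x => trp (W x) p) {φ : Fin n → ℝ → Vec m} (hφ : IsTrialFamily φ)
    {γ : ℝ} (hγ : 0 < γ) :
    ∃ P : Pre m W, negMoment (energyMatrix W φ) γ = ∑ i, P.k i ^ (2 * γ) := by
  obtain ⟨hsm, hsu, hor⟩ := hφ
  have hc : ∀ k, Continuous (φ k) := fun k => (hsm k).continuous
  have hc' : ∀ k, Continuous (deriv (φ k)) := fun k => (hsm k).continuous_deriv (by simp)
  have hsu' : ∀ k, HasCompactSupport (deriv (φ k)) := fun k => (hsu k).deriv
  have hWl := locallyIntegrable_entry hW hWp hp hWi
  have i0 := cols_int_one hc hsu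
  have i1 := cols_int_one hc' hsu'
  have iW := cols_int hc hsu hWl
  have iE : ∀ k l, Integrable fun x =>
      ((cols (fun k => deriv (φ k)) x)ᴴ * cols (fun k => deriv (φ k)) x -
        (cols φ x)ᴴ * W x * cols φ x) k l := fun k l => (i1 k l).sub (iW k l)
  have hE : ∀ k l, ∫ x, ((cols (fun k => deriv (φ k)) x)ᴴ * cols (fun k => deriv (φ k)) x -
      (cols φ x)ᴴ * W x * cols φ x) k l = energyMatrix W φ k l := by
    intro k l
    simp only [energyMatrix, Matrix.of_apply, Matrix.sub_apply]
    refine integral_congr_ae (Eventually.of_forall fun x => ?_)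
    simp only
    rw [← cols_inner_W, ← cols_inner (fun k => deriv (φ k))]
  have h1 : ∀ k l, ∫ x, ((cols φ x)ᴴ * cols φ x) k l = (1 : Matrix (Fin n) (Fin n) ℂ) k l := by
    intro k l
    simp only [← cols_inner]
    rw [hor, Matrix.one_apply]
  have hH : (energyMatrix W φ).IsHermitian := by
    ext k l
    rw [Matrix.conjTranspose_apply, ← hE, ← hE, Complex.star_def, ← integral_conj]
    refine integral_congr_ae (Eventually.of_forall fun x => ?_)
    have h2 : ((cols (fun k => deriv (φ k)) x)ᴴ * cols (fun k => deriv (φ k)) x -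
        (cols φ x)ᴴ * W x * cols φ x).IsHermitian :=
      (Matrix.isHermitian_conjTranspose_mul_self _).sub
        (Matrix.isHermitian_conjTranspose_mul_mul _ (hWp x).isHermitian)
    exact h2.apply k l
  obtain ⟨u, hu, hu', hEu, -⟩ := spectral hH
  obtain ⟨R, hR, hR0⟩ := exists_radius hsu
  obtain ⟨R', -, hR0'⟩ := exists_radius hsu'
  have hout : ∀ x, x ∉ Set.Ioo (-(max R R')) (max R R') → max R R' ≤ |x| := fun x hx => by
    by_contra h
    exact hx (abs_lt.1 (not_le.1 h))
  obtain ⟨e, he⟩ : ∃ e : Fin (Fintype.card {i // hH.eigenvalues i < 0}) → Fin n,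
      e = fun i => ((Fintype.equivFin {i // hH.eigenvalues i < 0}).symm i).1 := ⟨_, rfl⟩
  have hinj : Function.Injective e := by
    rw [he]
    exact Subtype.val_injective.comp (Equiv.injective _)
  have hneg : ∀ i, hH.eigenvalues (e i) < 0 := fun i => by
    rw [he]
    exact ((Fintype.equivFin {i // hH.eigenvalues i < 0}).symm i).2
  have hsand : ∀ (A B : Matrix (Fin m) (Fin n) ℂ) (M : Matrix (Fin m) (Fin m) ℂ),
      (A * u.submatrix id e)ᴴ * M * (B * u.submatrix id e) =
        (u.submatrix id e)ᴴ * (Aᴴ * M * B) * u.submatrix id e := fun A B M => by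
    simp only [Matrix.conjTranspose_mul, Matrix.mul_assoc]
  have hsand1 : ∀ A B : Matrix (Fin m) (Fin n) ℂ,
      (A * u.submatrix id e)ᴴ * (B * u.submatrix id e) =
        (u.submatrix id e)ᴴ * (Aᴴ * B) * u.submatrix id e := fun A B => by
    simp only [Matrix.conjTranspose_mul, Matrix.mul_assoc]
  refine ⟨{ N := _
            k := fun i => Real.sqrt (-hH.eigenvalues (e i))
            U := fun x => cols φ x * u.submatrix id e
            U' := fun x => cols (fun k => deriv (φ k)) x * u.submatrix id e
            a := -(max R R')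
            b := max R R'
            hab := by linarith [le_max_left R R']
            k_pos := fun i => Real.sqrt_pos.2 (neg_pos.2 (hneg i))
            U_deriv := fun x => ?_
            U'_cont := ?_
            U_supp := fun x hx => ?_
            U'_supp := fun x hx => ?_
            orth := fun i j => ?_
            int_W := fun i j => ?_
            energy := fun i j => ?_ }, ?_⟩
  · have h2 : HasDerivAt (cols φ) (cols (fun k => deriv (φ k)) x) x := by
      rw [hasDerivAt_iff_entry]
      intro i k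
      have h3 : HasDerivAt (φ k) (deriv (φ k) x) x :=
        ((hsm k).differentiable (by simp) x).hasDerivAt
      exact ((EuclideanSpace.proj (𝕜 := ℂ) i).restrictScalars ℝ).hasFDerivAt.comp_hasDerivAt x h3
    have h3 := HasDerivAt.mmul h2 (hasDerivAt_const x (u.submatrix id e))
    rwa [Matrix.mul_zero, add_zero] at h3
  · exact (continuous_matrix fun i k => cols_cont hc' i k).matrix_mul continuous_const
  · rw [hR0 x ((le_max_left _ _).trans (hout x hx)), Matrix.zero_mul]
  · rw [hR0' x ((le_max_right _ _).trans (hout x hx)), Matrix.zero_mul]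
  · simp only [hsand1]
    rw [sand_integral _ i0 h1]
    have h2 := sub_iso hu hinj fun _ => 1
    have h3 : ∀ {ι : Type} [DecidableEq ι], dg (fun _ : ι => (1 : ℝ)) = 1 := by
      intro ι _
      simp [dg]
    rw [h3, h3, Matrix.mul_one, hu'] at h2
    rw [h2]
  · simp only [hsand]
    exact sand_int _ iW i j
  · simp only [hsand, hsand1, ← Matrix.sub_mul, ← Matrix.mul_sub]
    rw [sand_integral _ iE hE]
    have h2 := sub_iso hu hinj hH.eigenvalues
    rw [← hEu] at h2
    rw [h2, dg_mul_dg]
    have h3 : ∀ i, Real.sqrt (-hH.eigenvalues (e i)) * Real.sqrt (-hH.eigenvalues (e i)) =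
        -hH.eigenvalues (e i) := fun i => Real.mul_self_sqrt (neg_pos.2 (hneg i)).le
    simp only [h3]
    simp [dg, Matrix.diagonal_apply]
    split_ifs <;> simp
  · rw [negMoment, trace_cfc_re _ hH]
    have h2 : ∀ i, Real.sqrt (-hH.eigenvalues (e i)) ^ (2 * γ) =
        max (-hH.eigenvalues (e i)) 0 ^ γ := fun i => by
      have h3 := (neg_pos.2 (hneg i)).le
      rw [Real.rpow_mul (Real.sqrt_nonneg _), Real.rpow_two, Real.sq_sqrt h3, max_eq_left h3]
    have h4 : ∑ i, max (-hH.eigenvalues (e i)) 0 ^ γ =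
        ∑ i ∈ Finset.univ.filter fun i => hH.eigenvalues i < 0,
          max (-hH.eigenvalues i) 0 ^ γ := by
      rw [Finset.sum_subtype (p := fun i => hH.eigenvalues i < 0)
        (Finset.univ.filter fun i => hH.eigenvalues i < 0) (by simp)
        fun i => max (-hH.eigenvalues i) 0 ^ γ, he]
      exact Equiv.sum_comp (Fintype.equivFin {i // hH.eigenvalues i < 0}).symm
        fun i => max (-hH.eigenvalues i.1) 0 ^ γ
    refine Eq.trans ?_ (h4.symm.trans (Finset.sum_congr rfl fun i _ => (h2 i).symm))
    refine (Finset.sum_subset (Finset.filter_subset _ _) fun i _ hi => ?_).symm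
    have h3 : 0 ≤ hH.eigenvalues i := by simpa using hi
    rw [max_eq_right (by linarith), Real.zero_rpow hγ.ne']

end Crest.Agent.R332
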