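import Crest.Agent.R332.Mat

/-!
# Monotonicity of `tr S^γ`

Let `S = R * R`, so `trp S γ = ∑ λ_i(R)^{2γ}` (`R = u diag λ uᴴ`, `λ ≥ 0`).
* `γ ≥ 1`: with `t_ij = |u_ij|²` doubly stochastic, `S_ii = ∑_j t_ij λ_j² ≥ k_i²` (diagonal entries
  of the PSD matrix `S - K²` are `≥ 0`), and Jensen (`convexOn_rpow`, or
  `Real.rpow_arith_mean_le_arith_mean_rpow`) gives `∑_i (S_ii)^γ ≤ ∑_j λ_j^{2γ}`.
* `γ ≤ 1`: operator monotonicity of `t^γ` (`CFC.rpow_le_rpow` / `CFC.monotone_nnrpow` in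
  `Mathlib/Analysis/SpecialFunctions/ContinuousFunctionalCalculus/Rpow/Order.lean`, C*-algebra
  instances from the scopes `Matrix.Norms.L2Operator`, `MatrixOrder`; `CFC.rpow_eq_cfc_real`
  links with `cfc (· ^ γ)`), then take traces; `cfc_dg` computes the diagonal side.
-/

set_option autoImplicit false

open MeasureTheory Matrix Filter Topology Set
open scoped ComplexOrder Matrix.Norms.L2Operator MatrixOrder
open Crest.MathPhysics.LiebThirring

namespace Crest.Agent.R332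

theorem trm_diag {N : ℕ} (u : Matrix (Fin N) (Fin N) ℂ) (d : Fin N → ℝ) (i : Fin N) :
    ((u * dg d * uᴴ) i i).re = ∑ j, ‖u i j‖ ^ 2 * d j := by
  rw [mul_apply, Complex.re_sum]
  refine Finset.sum_congr rfl fun j _ => ?_
  rw [dg, mul_diagonal, conjTranspose_apply, mul_right_comm, Complex.star_def, Complex.mul_conj',
    ← Complex.ofReal_pow, ← Complex.ofReal_mul, Complex.ofReal_re]

theorem trm_row {N : ℕ} {u : Matrix (Fin N) (Fin N) ℂ} (hu : u * uᴴ = 1) (i : Fin N) :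
    ∑ j, ‖u i j‖ ^ 2 = 1 := by
  have h := trm_diag u (fun _ => 1) i
  rw [show dg (fun _ : Fin N => (1 : ℝ)) = 1 by simp [dg], mul_one, hu] at h
  simpa using h.symm

theorem trm_col {N : ℕ} {u : Matrix (Fin N) (Fin N) ℂ} (hu : uᴴ * u = 1) (j : Fin N) :
    ∑ i, ‖u i j‖ ^ 2 = 1 := by
  simpa using trm_row (u := uᴴ) (by simpa using hu) j

theorem sum_rpow_le {N : ℕ} {k : Fin N → ℝ} (hk : ∀ i, 0 < k i) {R : Matrix (Fin N) (Fin N) ℂ}
    (hR : R.PosSemidef) (h : (R * R - dg k * dg k).PosSemidef) {γ : ℝ} (hγ : 0 < γ) :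
    ∑ i, k i ^ (2 * γ) ≤ ∑ i, hR.1.eigenvalues i ^ (2 * γ) := by
  obtain ⟨u, hu1, hu2, hRu, -⟩ := spectral hR.1
  have hl := hR.eigenvalues_nonneg
  generalize hR.1.eigenvalues = l at hRu hl
  have hS : R * R = u * dg (fun i => l i * l i) * uᴴ := by
    rw [hRu, ← dg_mul_dg]
    simp only [Matrix.mul_assoc]
    rw [← Matrix.mul_assoc uᴴ u, hu1, Matrix.one_mul]
  have hp : ∀ x : ℝ, 0 ≤ x → x ^ (2 * γ) = (x * x) ^ γ := fun x hx => by
    rw [Real.rpow_mul hx, Real.rpow_two, sq]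
  rw [hS, dg_mul_dg] at h
  have hsum : ∑ i, ∑ j, ‖u i j‖ ^ 2 * (l j * l j) ^ γ = ∑ j, l j ^ (2 * γ) := by
    rw [Finset.sum_comm]
    refine Finset.sum_congr rfl fun j _ => ?_
    rw [← Finset.sum_mul, trm_col hu1, one_mul, hp _ (hl j)]
  rw [← hsum]
  refine Finset.sum_le_sum fun i _ => ?_
  rw [hp _ (hk i).le]
  rcases le_total γ 1 with h1 | h1
  · have h2 : (dg fun i => k i * k i) ≤ u * dg (fun i => l i * l i) * uᴴ := h
    have h0 : (0 : Matrix (Fin N) (Fin N) ℂ) ≤ dg fun i => k i * k i :=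
      (dg_posSemidef fun i => mul_self_nonneg _).nonneg
    have h3 := CFC.rpow_le_rpow (p := γ) ⟨hγ.le, h1⟩ h2
    rw [CFC.rpow_eq_cfc_real h0, CFC.rpow_eq_cfc_real (h0.trans h2), cfc_dg] at h3
    have h4 := cfc_conj (fun x => x ^ γ) (u := uᴴ) (dg_isHermitian fun i => l i * l i)
      (by simpa using hu1)
    rw [conjTranspose_conjTranspose, cfc_dg] at h4
    rw [h4] at h3
    have h5 := (Complex.nonneg_iff.1 ((Matrix.le_iff.1 h3).diag_nonneg (i := i))).1
    rw [Matrix.sub_apply, Complex.sub_re, trm_diag] at h5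
    simpa [dg] using h5
  · have h5 := (Complex.nonneg_iff.1 (h.diag_nonneg (i := i))).1
    rw [Matrix.sub_apply, Complex.sub_re, trm_diag] at h5
    have h6 : k i * k i ≤ ∑ j, ‖u i j‖ ^ 2 * (l j * l j) := by simpa [dg] using h5
    exact (Real.rpow_le_rpow (mul_self_nonneg _) h6 hγ.le).trans
      (Real.rpow_arith_mean_le_arith_mean_rpow _ _ _ (fun _ _ => sq_nonneg _) (trm_row hu2 i)
        (fun _ _ => mul_self_nonneg _) h1)

end Crest.Agent.R332
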