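import Crest.Agent.R332.TrajDef
import Crest.Agent.R332.Pos

/-!
# Basic properties of the frozen Riccati flow

Write `θ t = cut δ c0 ‖F t‖ ∈ [0,1]`; `F` is continuous on `[a,b]`, hence bounded.
* `S M` is positive definite (`K₀²` is, `negP M` is PSD), `R * R = S` (`cfc_mul_cfc`, `√t √t = t` on
  the spectrum), `‖R‖² = ‖RᴴR‖ = ‖S‖ ≤ ‖K₀²‖ + ‖M₋‖`.
* `herm`: `D = F - Fᴴ` has `D' = -θ (F D + D Fᴴ)`, `D a = 0`; Gronwall
  (`eq_zero_of_abs_deriv_le_mul_abs_self_of_eq_zero_right`).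
* `norm_le`: if `‖F t₁‖ > c0 + δ`, let `t₀` be the supremum of `{t ∈ [a,t₁] | ‖F t‖ ≤ c0 + δ}`
  (contains `a`, closed); on `(t₀,t₁]` the derivative vanishes so `F` is constant on `[t₀,t₁]`
  (`constant_of_has_deriv_right_zero`-type lemma applied on `[s,t₁]`, `s ↓ t₀`, or the mean value
  inequality on the open interval + continuity): contradiction.
* `le_R`: `X = R - F`, `Γ = R + F`, `S - F² = (XΓ + ΓX)/2`; `X' = AX + XAᴴ + θV` with
  `A = -(θ/2) Γ`; `pos_forward`.
* `ge_R`: `Γ' = AΓ + ΓAᴴ - θV` with `A = (θ/2) X`; `pos_backward`.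
* `free`: `c = c0 + δ/2`, `Z = c + F`, `Z' = AZ + ZAᴴ - θ (c² - S + V)` with `A = θ (c - Z/2)`;
  `c² - S ≥ 0`; `pos_backward` gives `F ≥ -c`; also `F ≤ R ≤ c0`; so `‖F‖ ≤ c` and `θ = 1`.
-/

set_option autoImplicit false

open MeasureTheory Matrix Filter Topology Set
open scoped ComplexOrder Matrix.Norms.L2Operator MatrixOrder
open Crest.MathPhysics.LiebThirring

namespace Crest.Agent.R332

namespace Pre

variable {m : ℕ} {W : ℝ → Matrix (Fin m) (Fin m) ℂ} (P : Pre m W)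

theorem S_posDef (M : Matrix (Fin P.N) (Fin P.N) ℂ) : (P.S M).PosDef := by
  refine PosDef.add_posSemidef ?_ (cfc_posSemidef (fun t => le_max_right _ _) M)
  rw [K2, dg_mul_dg]
  exact PosDef.diagonal fun i => Complex.zero_lt_real.2 (mul_pos (P.k_pos i) (P.k_pos i))

theorem trajBasic_R_mul_R (M : Matrix (Fin P.N) (Fin P.N) ℂ) : P.R M * P.R M = P.S M := by
  have h := (P.S_posDef M).posSemidef
  rw [R, sqP, cfc_mul_cfc]
  have h1 : cfc (fun t : ℝ => √t * √t) (P.S M) = cfc (fun t : ℝ => t) (P.S M) :=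
    cfc_congr fun t ht => Real.mul_self_sqrt (spectrum_nonneg_of_nonneg h.nonneg ht)
  rw [h1]
  exact cfc_id' ℝ (P.S M) h.isHermitian.isSelfAdjoint

theorem R_posDef (M : Matrix (Fin P.N) (Fin P.N) ℂ) : (P.R M).PosDef := by
  have h1 : (P.R M).PosSemidef := cfc_posSemidef Real.sqrt_nonneg _
  refine h1.posDef_iff_isUnit.2 ?_
  have h2 := (P.S_posDef M).isUnit
  rw [← P.trajBasic_R_mul_R M] at h2
  exact isUnit_of_mul_isUnit_left h2

theorem R_mul_R (M : Matrix (Fin P.N) (Fin P.N) ℂ) : P.R M * P.R M = P.S M :=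
  P.trajBasic_R_mul_R M

theorem trajBasic_norm_S_le (M : Matrix (Fin P.N) (Fin P.N) ℂ) : ‖P.S M‖ ≤ P.c0 M ^ 2 := by
  rw [c0, Real.sq_sqrt (by positivity)]
  exact norm_add_le _ _

theorem trajBasic_c0_nonneg (M : Matrix (Fin P.N) (Fin P.N) ℂ) : 0 ≤ P.c0 M := Real.sqrt_nonneg _

theorem norm_R_le (M : Matrix (Fin P.N) (Fin P.N) ℂ) : ‖P.R M‖ ≤ P.c0 M := by
  have h1 := l2_opNorm_conjTranspose_mul_self (P.R M)
  rw [(P.R_posDef M).isHermitian.eq, P.R_mul_R M] at h1
  refine le_of_sq_le_sq ?_ (P.trajBasic_c0_nonneg M)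
  rw [sq, ← h1]
  exact P.trajBasic_norm_S_le M

theorem V_posSemidef (r : ℝ) (M : Matrix (Fin P.N) (Fin P.N) ℂ) (t : ℝ) :
    (P.V r M t).PosSemidef :=
  mpow_posSemidef (posSemidef_conjTranspose_mul_self _) r

theorem continuous_V {r : ℝ} (hr : 0 < r) (M : Matrix (Fin P.N) (Fin P.N) ℂ) :
    Continuous (P.V r M) := by
  have h : Continuous fun t => P.U t * sqP M := P.continuous_U.matrix_mul continuous_const
  exact continuous_mpow_comp (h.matrix_conjTranspose.matrix_mul h)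
    (fun t => isHermitian_conjTranspose_mul_self _) hr.le

variable {P} {r : ℝ} {M : Matrix (Fin P.N) (Fin P.N) ℂ} {F : ℝ → Matrix (Fin P.N) (Fin P.N) ℂ}

theorem IsTraj.trajBasic_cont (h : P.IsTraj r M F) : ContinuousOn F (Icc P.a P.b) :=
  fun t ht => (h.2 t ht).continuousWithinAt

theorem IsTraj.trajBasic_Ici (h : P.IsTraj r M F) :
    ∀ t ∈ Ico P.a P.b, HasDerivWithinAt F (P.field r M t (F t)) (Ici t) t := fun t ht =>
  (h.2 t ⟨ht.1, ht.2.le⟩).mono_of_mem_nhdsWithin (Icc_mem_nhdsGE_of_mem ht)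

theorem IsTraj.norm_le (h : P.IsTraj r M F) : ∀ t ∈ Icc P.a P.b, ‖F t‖ ≤ P.c0 M + P.δ := by
  intro t ht
  have hδ := P.δ_pos
  have hab : 0 < P.b - P.a := sub_pos.2 P.hab
  refine le_of_forall_pos_le_add fun ε hε => ?_
  have key := image_norm_le_of_norm_deriv_right_lt_deriv_boundary h.trajBasic_cont h.trajBasic_Ici
    (B := fun x => P.c0 M + P.δ + ε / (P.b - P.a) * (x - P.a)) (B' := fun _ => ε / (P.b - P.a))
    (by
      rw [h.1]
      have := P.norm_R_le M
      simp only [sub_self, mul_zero, add_zero]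
      linarith)
    (fun x => by
      simpa using (((hasDerivAt_id x).sub_const P.a).const_mul (ε / (P.b - P.a))).const_add
        (P.c0 M + P.δ))
    (fun x hx hn => by
      have h1 : 0 ≤ ε / (P.b - P.a) * (x - P.a) := mul_nonneg (by positivity) (by linarith [hx.1])
      rw [field, cut_eq_zero hδ (by rw [hn]; linarith), zero_smul, norm_zero]
      positivity) ht
  have h2 : ε / (P.b - P.a) * (t - P.a) ≤ ε / (P.b - P.a) * (P.b - P.a) :=
    mul_le_mul_of_nonneg_left (by linarith [ht.2]) (by positivity)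
  rw [div_mul_cancel₀ _ hab.ne'] at h2
  linarith

theorem IsTraj.herm (h : P.IsTraj r M F) : ∀ t ∈ Icc P.a P.b, (F t).IsHermitian := by
  have key := eq_zero_of_abs_deriv_le_mul_abs_self_of_eq_zero_right
    (f := fun t => F t - (F t)ᴴ)
    (f' := fun t => P.field r M t (F t) - (P.field r M t (F t))ᴴ) (K := 2 * (P.c0 M + P.δ))
    (a := P.a) (b := P.b)
    (h.trajBasic_cont.sub
      (continuous_id.matrix_conjTranspose.comp_continuousOn h.trajBasic_cont))
    (fun t ht => (h.trajBasic_Ici t ht).sub (HasDerivWithinAt.mconj (h.trajBasic_Ici t ht)))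
    (by rw [h.1, (P.R_posDef M).isHermitian.eq, sub_self]) fun t ht => ?_
  · intro t ht
    exact (sub_eq_zero.1 (key t ht)).symm
  · have h1 : P.field r M t (F t) - (P.field r M t (F t))ᴴ =
        (-cut P.δ (P.c0 M) ‖F t‖) • (F t * (F t - (F t)ᴴ) + (F t - (F t)ᴴ) * (F t)ᴴ) := by
      simp only [field, conjTranspose_smul, conjTranspose_sub, conjTranspose_mul, star_trivial,
        (P.S_posDef M).isHermitian.eq, (P.V_posSemidef r M t).isHermitian.eq, mul_sub, sub_mul]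
      module
    have h2 := h.norm_le t ⟨ht.1, ht.2.le⟩
    have h3 : ‖F t * (F t - (F t)ᴴ) + (F t - (F t)ᴴ) * (F t)ᴴ‖ ≤
        2 * (P.c0 M + P.δ) * ‖F t - (F t)ᴴ‖ := by
      have a1 := norm_mul_le (F t) (F t - (F t)ᴴ)
      have a2 := norm_mul_le (F t - (F t)ᴴ) (F t)ᴴ
      rw [l2_opNorm_conjTranspose] at a2
      have a3 := norm_add_le (F t * (F t - (F t)ᴴ)) ((F t - (F t)ᴴ) * (F t)ᴴ)
      have a4 := mul_le_mul_of_nonneg_right h2 (norm_nonneg (F t - (F t)ᴴ))
      linarith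
    rw [h1, norm_smul, norm_neg, Real.norm_of_nonneg (cut_nonneg _ _ _)]
    exact (mul_le_of_le_one_left (norm_nonneg _) (cut_le_one _ _ _)).trans h3

theorem trajBasic_norm_smul_le {θ c : ℝ} (h0 : 0 ≤ θ) (h1 : θ ≤ 1)
    {A : Matrix (Fin P.N) (Fin P.N) ℂ} (hA : ‖A‖ ≤ c) : ‖(θ / 2) • A‖ ≤ c := by
  rw [norm_smul, Real.norm_of_nonneg (by positivity)]
  exact (mul_le_of_le_one_left (norm_nonneg _) (by linarith)).trans hA

theorem IsTraj.le_R (h : P.IsTraj r M F) : ∀ t ∈ Icc P.a P.b, (P.R M - F t).PosSemidef := by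
  have hR := (P.R_posDef M).isHermitian
  refine pos_forward (Z := fun t => P.R M - F t)
    (A := fun t => -((cut P.δ (P.c0 M) ‖F t‖ / 2) • (P.R M + F t)))
    (Q := fun t => cut P.δ (P.c0 M) ‖F t‖ • P.V r M t) (c := P.c0 M + (P.c0 M + P.δ))
    (fun t ht => ?_) (fun t ht => hR.sub (h.herm t ht)) (fun t ht => ?_)
    (fun t _ => (P.V_posSemidef r M t).smul (cut_nonneg _ _ _)) ?_
  · refine ((h.2 t ht).const_sub (P.R M)).congr_deriv ?_
    simp only [field, ← P.R_mul_R M, conjTranspose_neg, conjTranspose_smul, conjTranspose_add,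
      star_trivial, hR.eq, (h.herm t ht).eq, neg_mul, mul_neg, smul_mul_assoc, mul_smul_comm,
      mul_sub, sub_mul, mul_add, add_mul]
    module
  · rw [norm_neg]
    exact trajBasic_norm_smul_le (cut_nonneg _ _ _) (cut_le_one _ _ _)
      ((norm_add_le _ _).trans (add_le_add (P.norm_R_le M) (h.norm_le t ht)))
  · simp only [h.1, sub_self]
    exact PosSemidef.zero

theorem IsTraj.ge_R (h : P.IsTraj r M F) (hb : (P.R M + F P.b).PosSemidef) :
    ∀ t ∈ Icc P.a P.b, (P.R M + F t).PosSemidef := by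
  have hR := (P.R_posDef M).isHermitian
  refine pos_backward (Z := fun t => P.R M + F t)
    (A := fun t => (cut P.δ (P.c0 M) ‖F t‖ / 2) • (P.R M - F t))
    (Q := fun t => cut P.δ (P.c0 M) ‖F t‖ • P.V r M t) (c := P.c0 M + (P.c0 M + P.δ))
    (fun t ht => ?_) (fun t ht => hR.add (h.herm t ht)) (fun t ht => ?_)
    (fun t _ => (P.V_posSemidef r M t).smul (cut_nonneg _ _ _)) hb
  · refine ((h.2 t ht).const_add (P.R M)).congr_deriv ?_
    simp only [field, ← P.R_mul_R M, conjTranspose_smul, conjTranspose_sub,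
      star_trivial, hR.eq, (h.herm t ht).eq, smul_mul_assoc, mul_smul_comm,
      mul_sub, sub_mul, mul_add, add_mul]
    module
  · exact trajBasic_norm_smul_le (cut_nonneg _ _ _) (cut_le_one _ _ _)
      ((norm_sub_le _ _).trans (add_le_add (P.norm_R_le M) (h.norm_le t ht)))

theorem IsTraj.free (h : P.IsTraj r M F)
    (hb : ((P.c0 M + P.δ / 2 : ℝ) • (1 : Matrix (Fin P.N) (Fin P.N) ℂ) + F P.b).PosSemidef) :
    ∀ t ∈ Icc P.a P.b, HasDerivWithinAt F (P.S M - F t * F t - P.V r M t) (Icc P.a P.b) t := by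
  have hδ := P.δ_pos
  have hc0 := P.trajBasic_c0_nonneg M
  obtain ⟨c, hc⟩ : ∃ c : ℝ, c = P.c0 M + P.δ / 2 := ⟨_, rfl⟩
  rw [← hc] at hb
  have hc1 : P.c0 M ≤ c := by linarith
  have hI : (c • (1 : Matrix (Fin P.N) (Fin P.N) ℂ)).IsHermitian :=
    (PosSemidef.one.smul (hc0.trans hc1)).isHermitian
  have hIn : ‖c • (1 : Matrix (Fin P.N) (Fin P.N) ℂ)‖ ≤ c := by
    refine norm_le_of_posSemidef (hc0.trans hc1) ?_ ?_
    · rw [sub_self]
      exact PosSemidef.zero
    · exact (PosSemidef.one.smul (hc0.trans hc1)).add (PosSemidef.one.smul (hc0.trans hc1))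
  have hS : ((c ^ 2 : ℝ) • (1 : Matrix (Fin P.N) (Fin P.N) ℂ) - P.S M).PosSemidef :=
    posSemidef_sub_of_norm_le (P.S_posDef M).isHermitian
      ((P.trajBasic_norm_S_le M).trans (pow_le_pow_left₀ hc0 hc1 2))
  have key := pos_backward (Z := fun t => c • (1 : Matrix (Fin P.N) (Fin P.N) ℂ) + F t)
    (A := fun t => (cut P.δ (P.c0 M) ‖F t‖ / 2) • (c • (1 : Matrix (Fin P.N) (Fin P.N) ℂ) - F t))
    (Q := fun t => cut P.δ (P.c0 M) ‖F t‖ •
      ((c ^ 2 : ℝ) • (1 : Matrix (Fin P.N) (Fin P.N) ℂ) - P.S M + P.V r M t))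
    (c := c + (P.c0 M + P.δ)) (a := P.a) (b := P.b)
    (fun t ht => ?_) (fun t ht => hI.add (h.herm t ht)) (fun t ht => ?_)
    (fun t _ => (hS.add (P.V_posSemidef r M t)).smul (cut_nonneg _ _ _)) hb
  · intro t ht
    have h1 : (c • (1 : Matrix (Fin P.N) (Fin P.N) ℂ) - F t).PosSemidef := by
      have := (posSemidef_sub_of_norm_le (P.R_posDef M).isHermitian
        ((P.norm_R_le M).trans hc1)).add (h.le_R t ht)
      rwa [sub_add_sub_cancel] at this
    have h2 := norm_le_of_posSemidef (hc0.trans hc1) h1 (key t ht)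
    have h3 := h.2 t ht
    rwa [field, cut_eq_one hδ (hc ▸ h2), one_smul] at h3
  · refine ((h.2 t ht).const_add (c • (1 : Matrix (Fin P.N) (Fin P.N) ℂ))).congr_deriv ?_
    simp only [field, conjTranspose_smul, conjTranspose_sub, conjTranspose_one,
      star_trivial, (h.herm t ht).eq, smul_mul_assoc, mul_smul_comm,
      mul_sub, sub_mul, mul_add, add_mul, mul_one, one_mul]
    module
  · exact trajBasic_norm_smul_le (cut_nonneg _ _ _) (cut_le_one _ _ _)
      ((norm_sub_le _ _).trans (add_le_add hIn (h.norm_le t ht)))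

end Pre

end Crest.Agent.R332
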