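import Crest.Agent.R332.Mat

/-!
# The frozen Riccati equation of the shooting argument: definitions

For a Hermitian parameter `M = M₊ - M₋` put `S = K₀² + M₋`, `R = √S`, `Y = U √M₊`,
`V = (YᴴY)^r`, `c₀ = √(‖K₀²‖ + ‖M₋‖) ≥ ‖R‖`, and solve `F' = θ(‖F‖) (S - F² - V)`, `F a = R`, where
`θ = 1` on `(-∞, c₀ + δ/2]` and `θ = 0` on `[c₀ + δ, ∞)`, `δ (b - a) = 1/2`.
-/

set_option autoImplicit false

open MeasureTheory Matrix Filter Topology Set
open scoped ComplexOrder Matrix.Norms.L2Operator MatrixOrder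
open Crest.MathPhysics.LiebThirring

namespace Crest.Agent.R332

/-- Cut-off: `1` for `t ≤ c + δ/2`, `0` for `t ≥ c + δ`. -/
noncomputable def cut (δ c t : ℝ) : ℝ := max 0 (min 1 (2 * (c + δ - t) / δ))

/-- Negative part. -/
noncomputable def negP {ι : Type*} [Fintype ι] [DecidableEq ι] (M : Matrix ι ι ℂ) :
    Matrix ι ι ℂ := cfc (fun t : ℝ => max (-t) 0) M

/-- Positive part. -/
noncomputable def posP {ι : Type*} [Fintype ι] [DecidableEq ι] (M : Matrix ι ι ℂ) :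
    Matrix ι ι ℂ := cfc (fun t : ℝ => max t 0) M

/-- Square root of the positive part. -/
noncomputable def sqP {ι : Type*} [Fintype ι] [DecidableEq ι] (M : Matrix ι ι ℂ) :
    Matrix ι ι ℂ := cfc Real.sqrt M

namespace Pre

variable {m : ℕ} {W : ℝ → Matrix (Fin m) (Fin m) ℂ} (P : Pre m W)

noncomputable def K2 : Matrix (Fin P.N) (Fin P.N) ℂ := dg P.k * dg P.k

noncomputable def S (M : Matrix (Fin P.N) (Fin P.N) ℂ) : Matrix (Fin P.N) (Fin P.N) ℂ :=
  P.K2 + negP M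

noncomputable def R (M : Matrix (Fin P.N) (Fin P.N) ℂ) : Matrix (Fin P.N) (Fin P.N) ℂ :=
  sqP (P.S M)

noncomputable def V (r : ℝ) (M : Matrix (Fin P.N) (Fin P.N) ℂ) (t : ℝ) :
    Matrix (Fin P.N) (Fin P.N) ℂ :=
  mpow ((P.U t * sqP M)ᴴ * (P.U t * sqP M)) r

noncomputable def c0 (M : Matrix (Fin P.N) (Fin P.N) ℂ) : ℝ := Real.sqrt (‖P.K2‖ + ‖negP M‖)

noncomputable def δ : ℝ := 1 / (2 * (P.b - P.a))

noncomputable def field (r : ℝ) (M : Matrix (Fin P.N) (Fin P.N) ℂ) (t : ℝ)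
    (F : Matrix (Fin P.N) (Fin P.N) ℂ) : Matrix (Fin P.N) (Fin P.N) ℂ :=
  cut P.δ (P.c0 M) ‖F‖ • (P.S M - F * F - P.V r M t)

/-- `F` solves the frozen Riccati equation on `[a,b]`. -/
def IsTraj (r : ℝ) (M : Matrix (Fin P.N) (Fin P.N) ℂ) (F : ℝ → Matrix (Fin P.N) (Fin P.N) ℂ) :
    Prop :=
  F P.a = P.R M ∧ ∀ t ∈ Icc P.a P.b, HasDerivWithinAt F (P.field r M t (F t)) (Icc P.a P.b) t

theorem δ_pos : 0 < P.δ := by
  have := P.hab
  unfold δ
  have : 0 < P.b - P.a := by linarith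
  positivity

theorem continuous_U : Continuous P.U :=
  continuous_iff_continuousAt.2 fun x => (P.U_deriv x).continuousAt

end Pre

theorem cut_nonneg (δ c t : ℝ) : 0 ≤ cut δ c t := le_max_left _ _

theorem cut_le_one (δ c t : ℝ) : cut δ c t ≤ 1 := max_le zero_le_one (min_le_left _ _)

theorem cut_eq_one {δ c t : ℝ} (hδ : 0 < δ) (h : t ≤ c + δ / 2) : cut δ c t = 1 := by
  have : 1 ≤ 2 * (c + δ - t) / δ := by rw [le_div_iff₀ hδ]; linarith
  unfold cut
  rw [min_eq_left this, max_eq_right zero_le_one]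

theorem cut_eq_zero {δ c t : ℝ} (hδ : 0 < δ) (h : c + δ ≤ t) : cut δ c t = 0 := by
  have : 2 * (c + δ - t) / δ ≤ 0 := div_nonpos_of_nonpos_of_nonneg (by linarith) hδ.le
  unfold cut
  exact max_eq_left ((min_le_right _ _).trans this)

end Crest.Agent.R332
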