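import Crest.Agent.R332.TrajDef
import Crest.Agent.R332.Ode

/-!
# Existence of the frozen Riccati flow and continuity of the end point

Apply `ode_param` with parameter space the subtype `{M // M.IsHermitian ∧ ‖M‖ ≤ R₀}` and
`E = Matrix` with the operator norm (complete: finite-dimensional, or the C*-algebra instance).
Joint continuity of `field`: `continuousOn_cfc_herm`, `continuous_mpow_comp`, `continuous_U`.
Uniform bounds for `‖M‖ ≤ R₀`, `t ∈ [a,b]`: `‖negP M‖ ≤ c₁`, `‖S M - V r M t‖ ≤ c₁`, `c0 M + δ ≤ c₁`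
(the parameter set times `[a,b]` is compact and these are continuous; or explicit estimates).
With `g(F) = S - F² - V`, `θ(F) = cut δ c0 ‖F‖` (`2/δ`-Lipschitz, zero for `‖F‖ ≥ c0 + δ`):
`‖θ g‖ ≤ c₁ + c₁²`; if `‖F‖ ≤ c₁` and `‖G‖ ≤ c₁` then
`‖θ(F)g(F) - θ(G)g(G)‖ ≤ |θ F - θ G| ‖g F‖ + ‖F² - G²‖`; if `‖F‖ ≤ c₁ < ‖G‖` then
`θ(G) = 0` so the difference is `(θ F - θ G) g(F)`; if both are outside it vanishes.
Extend the solution family to all `M` by `dite`; `continuousOn_iff_continuous_restrict`.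
-/

set_option autoImplicit false

open MeasureTheory Matrix Filter Topology Set
open scoped ComplexOrder Matrix.Norms.L2Operator MatrixOrder
open Crest.MathPhysics.LiebThirring

namespace Crest.Agent.R332

theorem trajEx_cut_lip {δ : ℝ} (hδ : 0 < δ) (c s t : ℝ) :
    |cut δ c s - cut δ c t| ≤ 2 / δ * |s - t| := by
  unfold cut
  rw [max_comm 0, max_comm 0]
  refine (abs_max_sub_max_le_abs _ _ _).trans ?_
  refine (abs_min_sub_min_le_max _ _ _ _).trans ?_
  rw [sub_self, abs_zero, max_eq_right (abs_nonneg _),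
    show 2 * (c + δ - s) / δ - 2 * (c + δ - t) / δ = 2 / δ * (t - s) by ring, abs_mul,
    abs_of_pos (by positivity), abs_sub_comm]

section abstract

variable {E : Type*} [NormedRing E] [NormedSpace ℝ E]

omit [NormedSpace ℝ E] in
theorem trajEx_g_le {A F : E} {c₁ : ℝ} (hA : ‖A‖ ≤ c₁) (hF : ‖F‖ ≤ c₁) :
    ‖A - F * F‖ ≤ c₁ + c₁ ^ 2 := by
  have h1 := norm_sub_le A (F * F)
  have h2 := norm_mul_le F F
  have h3 : ‖F‖ * ‖F‖ ≤ c₁ * c₁ := mul_self_le_mul_self (norm_nonneg _) hF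
  nlinarith

theorem trajEx_bound {δ c c₁ : ℝ} (hδ : 0 < δ) (hc : c + δ ≤ c₁) {A : E} (hA : ‖A‖ ≤ c₁) (F : E) :
    ‖cut δ c ‖F‖ • (A - F * F)‖ ≤ c₁ + c₁ ^ 2 := by
  have h0 : 0 ≤ c₁ := (norm_nonneg _).trans hA
  rcases le_total ‖F‖ c₁ with h | h
  · rw [norm_smul, Real.norm_eq_abs, abs_of_nonneg (cut_nonneg _ _ _)]
    exact (mul_le_of_le_one_left (norm_nonneg _) (cut_le_one _ _ _)).trans (trajEx_g_le hA h)
  · rw [cut_eq_zero hδ (hc.trans h), zero_smul, norm_zero]
    positivity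

theorem trajEx_lip {δ c c₁ : ℝ} (hδ : 0 < δ) (hc : c + δ ≤ c₁) {A : E} (hA : ‖A‖ ≤ c₁) (F G : E) :
    ‖cut δ c ‖F‖ • (A - F * F) - cut δ c ‖G‖ • (A - G * G)‖ ≤
      (2 / δ * (c₁ + c₁ ^ 2) + 2 * c₁) * ‖F - G‖ := by
  have h0 : 0 ≤ c₁ := (norm_nonneg _).trans hA
  have key : ∀ F G : E, ‖F‖ ≤ c₁ → ‖cut δ c ‖F‖ • (A - F * F) - cut δ c ‖G‖ • (A - G * G)‖ ≤
      (2 / δ * (c₁ + c₁ ^ 2) + 2 * c₁) * ‖F - G‖ := by
    intro F G hF
    have e : cut δ c ‖F‖ • (A - F * F) - cut δ c ‖G‖ • (A - G * G) =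
        (cut δ c ‖F‖ - cut δ c ‖G‖) • (A - F * F) -
          cut δ c ‖G‖ • (F * (F - G) + (F - G) * G) := by
      simp only [mul_sub, sub_mul]
      module
    have h1 : ‖(cut δ c ‖F‖ - cut δ c ‖G‖) • (A - F * F)‖ ≤ 2 / δ * ‖F - G‖ * (c₁ + c₁ ^ 2) := by
      rw [norm_smul, Real.norm_eq_abs]
      refine mul_le_mul ((trajEx_cut_lip hδ _ _ _).trans ?_) (trajEx_g_le hA hF) (norm_nonneg _)
        (by positivity)
      exact mul_le_mul_of_nonneg_left (abs_norm_sub_norm_le F G) (by positivity)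
    have h2 : ‖cut δ c ‖G‖ • (F * (F - G) + (F - G) * G)‖ ≤ 2 * c₁ * ‖F - G‖ := by
      rcases le_total ‖G‖ c₁ with h | h
      · rw [norm_smul, Real.norm_eq_abs, abs_of_nonneg (cut_nonneg _ _ _)]
        refine (mul_le_of_le_one_left (norm_nonneg _) (cut_le_one _ _ _)).trans ?_
        have a1 := norm_add_le (F * (F - G)) ((F - G) * G)
        have a2 := (norm_mul_le F (F - G)).trans (mul_le_mul_of_nonneg_right hF (norm_nonneg _))
        have a3 := (norm_mul_le (F - G) G).trans (mul_le_mul_of_nonneg_left h (norm_nonneg _))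
        linarith
      · rw [cut_eq_zero hδ (hc.trans h), zero_smul, norm_zero]
        positivity
    rw [e]
    refine (norm_sub_le _ _).trans ?_
    linarith
  rcases le_total ‖F‖ c₁ with h | h
  · exact key F G h
  · rcases le_total ‖G‖ c₁ with h' | h'
    · rw [norm_sub_rev, norm_sub_rev F G]
      exact key G F h'
    · rw [cut_eq_zero hδ (hc.trans h), cut_eq_zero hδ (hc.trans h'), zero_smul, zero_smul, sub_self,
        norm_zero]
      positivity

end abstract

theorem Pre.traj_exists {m : ℕ} {W : ℝ → Matrix (Fin m) (Fin m) ℂ} (P : Pre m W) {r : ℝ}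
    (hr : 0 < r) (R₀ : ℝ) :
    ∃ F : Matrix (Fin P.N) (Fin P.N) ℂ → ℝ → Matrix (Fin P.N) (Fin P.N) ℂ,
      (∀ M, M.IsHermitian → ‖M‖ ≤ R₀ → P.IsTraj r M (F M)) ∧
      ContinuousOn (fun M => F M P.b + P.R M) {M | M.IsHermitian ∧ ‖M‖ ≤ R₀} := by
  classical
  set D : Set (Matrix (Fin P.N) (Fin P.N) ℂ) := {M | M.IsHermitian ∧ ‖M‖ ≤ R₀} with hD
  have hδ := P.δ_pos
  have hcpt : IsCompact D := by
    have hfd : FiniteDimensional ℝ (Matrix (Fin P.N) (Fin P.N) ℂ) := inferInstance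
    have hpr : ProperSpace (Matrix (Fin P.N) (Fin P.N) ℂ) := FiniteDimensional.proper_real _
    refine (isCompact_closedBall (0 : Matrix (Fin P.N) (Fin P.N) ℂ) R₀).of_isClosed_subset ?_
      fun M hM => mem_closedBall_zero_iff.2 hM.2
    exact (isClosed_eq (continuous_id.matrix_conjTranspose) continuous_id).inter
      (isClosed_le continuous_norm continuous_const)
  have : CompactSpace D := isCompact_iff_compactSpace.1 hcpt
  have hcfc : ∀ {f : ℝ → ℝ}, Continuous f → ∀ {A : D → Matrix (Fin P.N) (Fin P.N) ℂ},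
      Continuous A → (∀ x, (A x).IsHermitian) → Continuous fun x => cfc f (A x) :=
    fun hf A hA hH => (continuousOn_cfc_herm hf).comp_continuous hA hH
  have hneg : Continuous fun M : D => negP M.1 :=
    hcfc (by fun_prop) continuous_subtype_val fun M => M.2.1
  have hsq : Continuous fun M : D => sqP M.1 :=
    hcfc Real.continuous_sqrt continuous_subtype_val fun M => M.2.1
  have hS : Continuous fun M : D => P.S M.1 := continuous_const.add hneg
  have hR : Continuous fun M : D => P.R M.1 := by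
    refine hcfc Real.continuous_sqrt hS fun M => ?_
    refine Matrix.IsHermitian.add ?_ (cfc_isHermitian _ _)
    unfold Pre.K2
    rw [dg_mul_dg]
    exact dg_isHermitian _
  have hc0 : Continuous fun M : D => P.c0 M.1 :=
    Real.continuous_sqrt.comp (continuous_const.add hneg.norm)
  have hV : Continuous fun q : D × ℝ => P.V r q.1.1 q.2 := by
    have h1 : Continuous fun q : D × ℝ => P.U q.2 * sqP q.1.1 :=
      (P.continuous_U.comp continuous_snd).matrix_mul (hsq.comp continuous_fst)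
    exact continuous_mpow_comp (h1.matrix_conjTranspose.matrix_mul h1)
      (fun q => Matrix.isHermitian_conjTranspose_mul_self _) hr.le
  have hA : Continuous fun q : D × ℝ => P.S q.1.1 - P.V r q.1.1 q.2 :=
    (hS.comp continuous_fst).sub hV
  obtain ⟨c₂, hc₂⟩ := (isCompact_univ.prod (isCompact_Icc (a := P.a) (b := P.b))).exists_bound_of_continuousOn
    hA.continuousOn
  obtain ⟨c₃, hc₃⟩ := isCompact_univ.exists_bound_of_continuousOn hc0.continuousOn
  set c₁ : ℝ := |c₂| + |c₃| + P.δ with hc₁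
  have h1 : ∀ M : D, ∀ t ∈ Icc P.a P.b, ‖P.S M.1 - P.V r M.1 t‖ ≤ c₁ := fun M t ht => by
    have := hc₂ (M, t) ⟨mem_univ _, ht⟩
    linarith [le_abs_self c₂, abs_nonneg c₃]
  have h2 : ∀ M : D, P.c0 M.1 + P.δ ≤ c₁ := fun M => by
    have := (le_abs_self _).trans (hc₃ M (mem_univ _))
    linarith [le_abs_self c₃, abs_nonneg c₂]
  have hf : ∀ M t F, P.field r M t F = cut P.δ (P.c0 M) ‖F‖ • (P.S M - P.V r M t - F * F) :=
    fun M t F => by rw [Pre.field, sub_right_comm]
  have hL0 : 0 ≤ 2 / P.δ * (c₁ + c₁ ^ 2) + 2 * c₁ := by positivity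
  obtain ⟨y, hy0, hy1, hy2⟩ := ode_param (fun M : D => P.field r M.1) (fun M : D => P.R M.1)
    P.hab.le ⟨_, hL0⟩ (c₁ + c₁ ^ 2) (by
      simp only [hf]
      have e1 : Continuous fun q : D × ℝ × Matrix (Fin P.N) (Fin P.N) ℂ => (q.1, q.2.1) :=
        continuous_fst.prodMk continuous_snd.fst
      have e2 : Continuous fun q : D × ℝ × Matrix (Fin P.N) (Fin P.N) ℂ => q.2.2 :=
        continuous_snd.snd
      have e3 : Continuous fun q : D × ℝ × Matrix (Fin P.N) (Fin P.N) ℂ => P.c0 q.1.1 :=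
        hc0.comp continuous_fst
      have e4 : Continuous fun q : D × ℝ × Matrix (Fin P.N) (Fin P.N) ℂ => ‖q.2.2‖ := e2.norm
      have e5 : Continuous fun q : D × ℝ × Matrix (Fin P.N) (Fin P.N) ℂ =>
          cut P.δ (P.c0 q.1.1) ‖q.2.2‖ :=
        continuous_const.max (continuous_const.min
          ((continuous_const.mul ((e3.add continuous_const).sub e4)).div_const _))
      exact e5.smul ((hA.comp e1).sub (e2.mul e2)))
    (fun M t ht => LipschitzWith.of_dist_le_mul fun F G => by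
      rw [dist_eq_norm, dist_eq_norm, hf, hf]
      exact trajEx_lip hδ (h2 M) (h1 M t ht) F G)
    (fun M t ht F => by
      rw [hf]
      exact trajEx_bound hδ (h2 M) (h1 M t ht) F) hR
  refine ⟨fun M => if h : M ∈ D then y ⟨M, h⟩ else 0, fun M hM hM' => ?_, ?_⟩
  · have h : M ∈ D := ⟨hM, hM'⟩
    simp only [dif_pos h]
    exact ⟨hy0 ⟨M, h⟩, hy1 ⟨M, h⟩⟩
  · rw [continuousOn_iff_continuous_domRestrict]
    refine (hy2.add hR).congr fun M => ?_
    simp only [Set.domRestrict_apply, dif_pos M.2]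
    rfl

end Crest.Agent.R332
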