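import Crest.Agent.R332.TrajBasic

/-!
# The negative part of the parameter is bounded at an outward-pointing point

Let `μ = ‖negP M‖ > 0`, `Λ = ‖K₀²‖`, `ℓ = b - a`, `δ ℓ = 1/2`, `c0 = √(Λ + μ)`.  By `spectral` there is
a unit vector `e` with `M e = -μ e` (the norm of `u diag(max (-λ) 0) uᴴ` is attained; e.g. take `i`
maximising `max (-λ i) 0` and use `norm_dg_le` to see that this maximum `μ'` satisfies
`μ ≤ μ'`; working with `μ' ` and `μ' ≤ μ` from `negP M e = μ' e`).  Then `sqP M e = 0`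
(`cfc_mulVec_of_eigen`), so `YᴴY e = 0` and `V e = 0` (`cfc_mulVec_of_eigen`, `0 ^ r = 0`), and
`⟨e, S e⟩ ≥ μ`.  `g t = re ⟨e, F t e⟩` has (`HasDerivWithinAt.quad`)
`g' = θ (⟨e,Se⟩ - |Fe|²) ≥ -((c0+δ)² - μ) = -(Λ + 2δ c0 + δ²)` (`IsTraj.norm_le`, `herm`), so
`g b - g a ≥ -ℓ(Λ + δ²) - c0`.  But `g a = ρ := re ⟨e,Re⟩`, `g b = -lμ - ρ`, so
`2ρ ≤ ℓ(Λ+δ²) + c0`.  Finally `μ ≤ ⟨e, R² e⟩ ≤ ‖R‖ ρ ≤ c0 ρ` (for PSD `R`, `R² ≤ ‖R‖ R`), hence
`2μ ≤ ℓ(Λ+δ²) c0 + Λ + μ`, i.e. `c0² ≤ A c0 + 2Λ` with `A = ℓ(Λ+δ²)`, so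
`μ ≤ c0² ≤ A² + 4Λ`.
-/

set_option autoImplicit false

open MeasureTheory Matrix Filter Topology Set
open scoped ComplexOrder Matrix.Norms.L2Operator MatrixOrder
open Crest.MathPhysics.LiebThirring

namespace Crest.Agent.R332

section aux
variable {ι : Type*} [Fintype ι] [DecidableEq ι]

theorem neg_posQ_le {A : Matrix ι ι ℂ} (hA : A.IsHermitian) {c : ℝ} (h : ‖A‖ ≤ c) (v : ι → ℂ) :
    posQ A v ≤ c * posQ 1 v := by
  have := posQ_nonneg (posSemidef_sub_of_norm_le hA h) v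
  rw [posQ_sub, posQ_smul] at this
  linarith

theorem neg_posQ_eigen {A : Matrix ι ι ℂ} {v : ι → ℂ} {c : ℝ} (hv : A *ᵥ v = (c : ℂ) • v) :
    posQ A v = c * posQ 1 v := by
  simp [posQ, hv, dotProduct_smul]

theorem neg_exists_eigen {M : Matrix ι ι ℂ} (hM : M.IsHermitian) (hμ : 0 < ‖negP M‖) :
    ∃ e : ι → ℂ, posQ 1 e = 1 ∧ M *ᵥ e = ((-‖negP M‖ : ℝ) : ℂ) • e := by
  obtain ⟨u, hu1, hu2, -, hf⟩ := spectral hM
  have key : ∀ c : ℝ, 0 ≤ c → (∀ i, max (-hM.eigenvalues i) 0 ≤ c) → ‖negP M‖ ≤ c := by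
    intro c hc h
    rw [negP, hf]
    have h1 : ‖u‖ ≤ 1 := norm_le_one_of_iso hu1
    have h2 : ‖uᴴ‖ ≤ 1 := by rw [l2_opNorm_conjTranspose]; exact h1
    have h3 : ‖dg fun i => max (-hM.eigenvalues i) 0‖ ≤ c :=
      norm_dg_le hc fun i => by rw [abs_of_nonneg (le_max_right _ _)]; exact h i
    calc _ ≤ ‖u‖ * ‖dg fun i => max (-hM.eigenvalues i) 0‖ * ‖uᴴ‖ :=
          (norm_mul_le _ _).trans (mul_le_mul_of_nonneg_right (norm_mul_le _ _) (norm_nonneg _))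
      _ ≤ 1 * c * 1 := by gcongr
      _ = c := by ring
  rcases isEmpty_or_nonempty ι with hι | hι
  · exact absurd (key 0 le_rfl fun i => hι.elim i) (not_le.2 hμ)
  obtain ⟨i, hi⟩ := Finite.exists_max fun i => max (-hM.eigenvalues i) 0
  have h1 := key _ (le_max_right _ _) hi
  have he : M *ᵥ ⇑(hM.eigenvectorBasis i) =
      ((hM.eigenvalues i : ℝ) : ℂ) • ⇑(hM.eigenvectorBasis i) := hM.mulVec_eigenvectorBasis i
  have hn : posQ 1 ⇑(hM.eigenvectorBasis i) = 1 := by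
    have h := hM.eigenvectorBasis.orthonormal.1 i
    have h' := inner_self_eq_norm_sq_to_K (𝕜 := ℂ) (hM.eigenvectorBasis i)
    rw [h, EuclideanSpace.inner_eq_star_dotProduct, dotProduct_comm] at h'
    simp [posQ, h']
  have h2 : max (-hM.eigenvalues i) 0 ≤ ‖negP M‖ := by
    have a1 := neg_posQ_eigen (cfc_mulVec_of_eigen (fun t : ℝ => max (-t) 0) hM he)
    have a2 := neg_posQ_le (cfc_isHermitian (fun t : ℝ => max (-t) 0) M) le_rfl
      ⇑(hM.eigenvectorBasis i)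
    rw [a1, hn, mul_one, mul_one] at a2
    exact a2
  have h3 : hM.eigenvalues i = -‖negP M‖ := by
    have h4 := le_antisymm h1 h2
    rcases le_total (-hM.eigenvalues i) 0 with h | h
    · rw [max_eq_right h] at h4; linarith
    · rw [max_eq_left h] at h4; linarith
  exact ⟨_, hn, by rw [← h3]; exact he⟩

theorem neg_posQ_sq_le {R : Matrix ι ι ℂ} (hR : R.PosSemidef) {c : ℝ} (hc : 0 < c) (h : ‖R‖ ≤ c)
    (v : ι → ℂ) : posQ (R * R) v ≤ c * posQ R v := by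
  have hX := posSemidef_sub_of_norm_le hR.isHermitian h
  have h1 := hR.conjTranspose_mul_mul_same (c • (1 : Matrix ι ι ℂ) - R)
  have h2 := hX.conjTranspose_mul_mul_same R
  rw [hX.isHermitian.eq] at h1
  rw [hR.isHermitian.eq] at h2
  have e : (c • (1 : Matrix ι ι ℂ) - R) * R * (c • (1 : Matrix ι ι ℂ) - R) +
      R * (c • (1 : Matrix ι ι ℂ) - R) * R = c • (c • R - R * R) := by
    simp only [Matrix.sub_mul, Matrix.mul_sub, Matrix.smul_mul, Matrix.mul_smul, Matrix.one_mul,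
      Matrix.mul_one, smul_sub]
    abel
  have h3 := posQ_nonneg (h1.add h2) v
  rw [e, posQ_smul, posQ_sub, posQ_smul] at h3
  have := nonneg_of_mul_nonneg_right h3 hc
  linarith

end aux

theorem Pre.negP_bound {m : ℕ} {W : ℝ → Matrix (Fin m) (Fin m) ℂ} (P : Pre m W) {r : ℝ}
    (hr : 0 < r) :
    ∃ μ₀ : ℝ, ∀ (M : Matrix (Fin P.N) (Fin P.N) ℂ) (F : ℝ → Matrix (Fin P.N) (Fin P.N) ℂ) (l : ℝ),
      M.IsHermitian → P.IsTraj r M F → 0 < l → F P.b + P.R M = l • M → ‖negP M‖ ≤ μ₀ := by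
  refine ⟨((P.b - P.a) * (‖P.K2‖ + P.δ ^ 2)) ^ 2 + 4 * ‖P.K2‖, fun M F l hM hF hl hb => ?_⟩
  rcases (norm_nonneg (negP M)).eq_or_lt with h0 | hμ
  · rw [← h0]; positivity
  obtain ⟨e, he1, he⟩ := neg_exists_eigen hM hμ
  have hδ := P.δ_pos
  have hℓ : 0 < P.b - P.a := sub_pos.2 P.hab
  have hδℓ : P.δ * (P.b - P.a) = 1 / 2 := by
    rw [Pre.δ]; field_simp
  have hΛ : 0 ≤ ‖P.K2‖ := norm_nonneg _
  have hc2 : P.c0 M ^ 2 = ‖P.K2‖ + ‖negP M‖ := Real.sq_sqrt (by positivity)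
  have hc : 0 < P.c0 M := Real.sqrt_pos.2 (by positivity)
  have hsq : sqP M *ᵥ e = 0 := by
    have := cfc_mulVec_of_eigen Real.sqrt hM he
    rw [Real.sqrt_eq_zero_of_nonpos (by linarith)] at this
    simpa [sqP] using this
  have hV : ∀ t, posQ (P.V r M t) e = 0 := by
    intro t
    have h1 : ((P.U t * sqP M)ᴴ * (P.U t * sqP M)) *ᵥ e = ((0 : ℝ) : ℂ) • e := by
      rw [← mulVec_mulVec, ← mulVec_mulVec, hsq]; simp
    have h2 := cfc_mulVec_of_eigen (fun s : ℝ => s ^ r) (isHermitian_conjTranspose_mul_self _) h1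
    rw [Real.zero_rpow hr.ne'] at h2
    have h3 := neg_posQ_eigen h2
    rw [zero_mul] at h3
    exact h3
  have hS : ‖negP M‖ ≤ posQ (P.S M) e := by
    have h1 := neg_posQ_eigen (cfc_mulVec_of_eigen (fun t : ℝ => max (-t) 0) hM he)
    rw [he1, mul_one, neg_neg, max_eq_left hμ.le] at h1
    have h2 : 0 ≤ posQ P.K2 e := by
      refine posQ_nonneg ?_ e
      rw [Pre.K2, dg_mul_dg]
      exact dg_posSemidef fun i => mul_self_nonneg _
    rw [Pre.S, posQ_add]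
    change _ ≤ _ + posQ (cfc (fun t : ℝ => max (-t) 0) M) e
    linarith
  set L : ℝ := ‖P.K2‖ + 2 * P.δ * P.c0 M + P.δ ^ 2 with hL
  have hL0 : 0 ≤ L := by positivity
  have hd : ∀ t ∈ Icc P.a P.b, HasDerivWithinAt (fun t => posQ (F t) e + L * t)
      (posQ (P.field r M t (F t)) e + L) (Icc P.a P.b) t := by
    intro t ht
    refine HasDerivWithinAt.add (HasDerivWithinAt.quad (hF.2 t ht) e) ?_
    simpa using ((hasDerivAt_id t).const_mul L).hasDerivWithinAt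
  have hge : ∀ t ∈ Icc P.a P.b, 0 ≤ posQ (P.field r M t (F t)) e + L := by
    intro t ht
    have hH := hF.herm t ht
    have hFF : (F t * F t).IsHermitian := by
      have := isHermitian_conjTranspose_mul_self (F t)
      rwa [hH.eq] at this
    have hn : ‖F t * F t‖ ≤ (P.c0 M + P.δ) ^ 2 := by
      have := hF.norm_le t ht
      calc _ ≤ ‖F t‖ * ‖F t‖ := norm_mul_le _ _
        _ ≤ (P.c0 M + P.δ) * (P.c0 M + P.δ) := by gcongr
        _ = _ := by ring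
    have h1 := neg_posQ_le hFF hn e
    rw [he1, mul_one] at h1
    rw [Pre.field, posQ_smul, posQ_sub, posQ_sub, hV, sub_zero]
    have h2 : -L ≤ posQ (P.S M) e - posQ (F t * F t) e := by nlinarith
    have h3 := cut_nonneg P.δ (P.c0 M) ‖F t‖
    have h4 := cut_le_one P.δ (P.c0 M) ‖F t‖
    nlinarith
  have hmono : MonotoneOn (fun t => posQ (F t) e + L * t) (Icc P.a P.b) :=
    monotoneOn_of_hasDerivWithinAt_nonneg (convex_Icc _ _)
      (fun t ht => (hd t ht).continuousWithinAt)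
      (fun t ht => (hd t (interior_subset ht)).mono interior_subset)
      (fun t ht => hge t (interior_subset ht))
  have h1 := hmono (left_mem_Icc.2 P.hab.le) (right_mem_Icc.2 P.hab.le) P.hab.le
  simp only at h1
  have h2 : posQ (F P.b) e + posQ (P.R M) e = l * -‖negP M‖ := by
    rw [← posQ_add, hb, posQ_smul, neg_posQ_eigen he, he1, mul_one]
  rw [hF.1] at h1
  have h3 := neg_posQ_sq_le (P.R_posDef M).posSemidef hc (P.norm_R_le M) e
  rw [P.R_mul_R] at h3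
  set A : ℝ := (P.b - P.a) * (‖P.K2‖ + P.δ ^ 2) with hA
  have h4 : L * (P.b - P.a) = A + P.c0 M := by
    rw [hL, hA]; linear_combination 2 * P.c0 M * hδℓ
  have h5 : 2 * posQ (P.R M) e ≤ A + P.c0 M := by nlinarith [mul_pos hl hμ]
  have h6 : 2 * ‖negP M‖ ≤ P.c0 M * (A + P.c0 M) := by nlinarith
  nlinarith [sq_nonneg (A - P.c0 M)]

end Crest.Agent.R332
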