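import Crest.Agent.R332.TrialScalar
import Crest.Agent.R332.Const
import Crest.Agent.R332.Mat

/-!
# Sums of solitons are extremal

`α = γ - 1/2`.  A.e. `tracePow (W x) (γ+1/2) = ∑ soliton^{1+α}` (`cfc_conj`, `cfc_dg`, cyclicity of the
trace), so by `integral_soliton_rpow`, `sharpConst_eq`, `Ia_pos`:
`sharpConst γ * ∫ tracePow = ∑ a_i^{2γ}`.  Take `n = m`, `φ i x = ψ_i x • (column i of U)` with `ψ_i`
from `exists_scalar_trial`.  The family is orthonormal, `W x (U e_i) = s_i x • U e_i` a.e., so the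
energy matrix is `dg E`, `E i = ∫ (ψ_i'² - s_i ψ_i²) ≤ -a_i² + η`, and
`negMoment = ∑ (max (-E i) 0)^γ ≥ ∑ (max (a_i² - η) 0)^γ → ∑ a_i^{2γ}` as `η → 0`
(continuity of `η ↦ ∑ (max (a_i² - η) 0)^γ` at `0`).
-/

set_option autoImplicit false

open MeasureTheory Matrix Filter Topology Set
open scoped ComplexOrder Matrix.Norms.L2Operator MatrixOrder
open Crest.MathPhysics.LiebThirring

namespace Crest.Agent.R332

/-- The `i`-th column of `U`. -/
noncomputable def trialCol {m : ℕ} (U : Matrix (Fin m) (Fin m) ℂ) (i : Fin m) : Vec m :=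
  WithLp.toLp 2 fun j => U j i

theorem trial_inner {m : ℕ} {U : Matrix (Fin m) (Fin m) ℂ} (hU : Uᴴ * U = 1) (k l : Fin m)
    (r s : ℝ) : inner ℂ (r • trialCol U k) (s • trialCol U l) =
      if k = l then ((r * s : ℝ) : ℂ) else 0 := by
  have h1 : inner ℂ (trialCol U k) (trialCol U l) = (Uᴴ * U) k l := by
    simp [trialCol, PiLp.inner_apply, Matrix.mul_apply, mul_comm]
  rw [← Complex.coe_smul, ← Complex.coe_smul, inner_smul_left, inner_smul_right, h1, hU,
    Matrix.one_apply]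
  split_ifs <;> simp

theorem trial_apply {m : ℕ} {U : Matrix (Fin m) (Fin m) ℂ} (hU : Uᴴ * U = 1) (d : Fin m → ℝ)
    (l : Fin m) (s : ℝ) :
    Matrix.toEuclideanLin (U * dg d * Uᴴ) (s • trialCol U l) = (d l * s) • trialCol U l := by
  have h1 : U * dg d * Uᴴ * U = U * dg d := by rw [Matrix.mul_assoc, hU, Matrix.mul_one]
  have h2 : Matrix.toEuclideanLin (U * dg d * Uᴴ) (trialCol U l) = d l • trialCol U l := by
    ext j
    have := congrFun (congrFun h1 j) l
    rw [Matrix.mul_apply] at this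
    simp only [trialCol, Matrix.toLpLin_apply, PiLp.smul_apply, Matrix.mulVec, dotProduct]
    rw [this, dg, Matrix.mul_diagonal, Complex.real_smul, mul_comm]
  rw [LinearMap.map_smul_of_tower, h2, smul_smul, mul_comm]

theorem trial_trace_dg {m : ℕ} (d : Fin m → ℝ) : (trace (dg d)).re = ∑ i, d i := by
  simp [dg, Matrix.trace_diagonal]

theorem trial_tracePow {m : ℕ} {U : Matrix (Fin m) (Fin m) ℂ} (hU : Uᴴ * U = 1) (d : Fin m → ℝ)
    (p : ℝ) : tracePow (U * dg d * Uᴴ) p = ∑ i, d i ^ p := by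
  have h := cfc_conj (fun t : ℝ => t ^ p) (u := Uᴴ) (dg_isHermitian d)
    (by rw [conjTranspose_conjTranspose]; exact hU)
  rw [conjTranspose_conjTranspose] at h
  rw [tracePow, h, Matrix.trace_mul_cycle, hU, Matrix.one_mul, cfc_dg, trial_trace_dg]

theorem near_extremal_of_soliton {γ : ℝ} (hγ : 1 / 2 < γ) {m : ℕ}
    {W : ℝ → Matrix (Fin m) (Fin m) ℂ} (U : Matrix.unitaryGroup (Fin m) ℂ) (a c : Fin m → ℝ)
    (ha : ∀ i, 0 ≤ a i)
    (hW : ∀ᵐ x : ℝ, W x = (U : Matrix (Fin m) (Fin m) ℂ) *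
      Matrix.diagonal (fun i => ((soliton (γ - 1 / 2)⁻¹ (a i) (c i) x : ℝ) : ℂ)) *
        star (U : Matrix (Fin m) (Fin m) ℂ))
    {ε : ℝ} (hε : 0 < ε) :
    ∃ (n : ℕ) (φ : Fin n → ℝ → Vec m), IsTrialFamily φ ∧
      sharpConst γ * (∫ x, tracePow (W x) (γ + 1 / 2)) - ε < negMoment (energyMatrix W φ) γ := by
  have hα : 0 < γ - 1 / 2 := by linarith
  set α := γ - 1 / 2 with hαdef
  have hU : (U : Matrix (Fin m) (Fin m) ℂ)ᴴ * U = 1 := U.2.1
  have hW' : ∀ᵐ x : ℝ, W x = (U : Matrix (Fin m) (Fin m) ℂ) *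
      dg (fun i => soliton α⁻¹ (a i) (c i) x) * (U : Matrix (Fin m) (Fin m) ℂ)ᴴ := hW
  -- the right-hand side
  have hI : sharpConst γ * (∫ x, tracePow (W x) (γ + 1 / 2)) = ∑ i, a i ^ (2 * α + 1) := by
    have e1 : ∫ x, tracePow (W x) (γ + 1 / 2) =
        ∫ x, ∑ i, soliton α⁻¹ (a i) (c i) x ^ (1 + α) := by
      refine integral_congr_ae (hW'.mono fun x hx => ?_)
      simp only [hx]
      rw [trial_tracePow hU, show γ + 1 / 2 = 1 + α by rw [hαdef]; ring]
    have e2 : sharpConst γ = ca α / Ia α := by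
      rw [← sharpConst_eq hα, show α + 1 / 2 = γ by rw [hαdef]; ring]
    rw [e1, e2, integral_finsetSum _ fun i _ => integrable_soliton_rpow hα (ha i) (c i),
      Finset.mul_sum]
    refine Finset.sum_congr rfl fun i _ => ?_
    rw [div_mul_eq_mul_div, integral_soliton_rpow hα (ha i), mul_div_cancel_right₀ _ (Ia_pos hα).ne']
  -- the choice of `η`
  have hγ0 : 0 < γ := by linarith
  obtain ⟨η, hη, hηε⟩ : ∃ η : ℝ, 0 < η ∧
      ∑ i, a i ^ (2 * α + 1) - ε < ∑ i, (max (a i ^ 2 - η) 0) ^ γ := by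
    have hc : Continuous fun η : ℝ => ∑ i, (max (a i ^ 2 - η) 0) ^ γ := by
      refine continuous_finsetSum _ fun i _ => ?_
      exact (Real.continuous_rpow_const hγ0.le).comp
        ((continuous_const.sub continuous_id).max continuous_const)
    have h0 : ∑ i, (max (a i ^ 2 - 0) 0) ^ γ = ∑ i, a i ^ (2 * α + 1) := by
      refine Finset.sum_congr rfl fun i _ => ?_
      rw [sub_zero, max_eq_left (sq_nonneg _), ← Real.rpow_natCast, ← Real.rpow_mul (ha i)]
      congr 1
      rw [hαdef]; push_cast; ring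
    have h1 : ∀ᶠ η in 𝓝 (0 : ℝ), ∑ i, a i ^ (2 * α + 1) - ε < ∑ i, (max (a i ^ 2 - η) 0) ^ γ :=
      hc.continuousAt.eventually (lt_mem_nhds (by beta_reduce; rw [h0]; linarith))
    obtain ⟨η, h2, h3⟩ := ((h1.filter_mono nhdsWithin_le_nhds).and
      (self_mem_nhdsWithin (s := Ioi (0 : ℝ)))).exists
    exact ⟨η, h3, h2⟩
  choose ψ hψ1 hψ2 hψ3 hψ4 using fun i => exists_scalar_trial (inv_pos.2 hα) (ha i) (c i) hη
  refine ⟨m, fun i x => ψ i x • trialCol U i, ⟨fun k => (hψ1 k).smul contDiff_const,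
    fun k => ?_, fun k l => ?_⟩, ?_⟩
  · exact (hψ2 k).smul_right (f' := fun _ => trialCol (U : Matrix (Fin m) (Fin m) ℂ) k)
  · simp only [trial_inner hU]
    split_ifs with hkl
    · subst hkl
      rw [integral_complex_ofReal]
      simp only [← sq, hψ3]
      simp
    · simp
  · have hE : energyMatrix W (fun i x => ψ i x • trialCol U i) =
        dg fun i => ∫ x, (deriv (ψ i) x ^ 2 - soliton α⁻¹ (a i) (c i) x * ψ i x ^ 2) := by
      ext k l
      have hd : ∀ k x, deriv (fun x => ψ k x • trialCol (U : Matrix (Fin m) (Fin m) ℂ) k) x =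
          deriv (ψ k) x • trialCol U k := fun k x =>
        deriv_smul_const (((hψ1 k).differentiable (by simp)) x) _
      have e1 : energyMatrix W (fun i x => ψ i x • trialCol U i) k l =
          ∫ x, if k = l then ((deriv (ψ k) x ^ 2 -
            soliton α⁻¹ (a k) (c k) x * ψ k x ^ 2 : ℝ) : ℂ) else 0 := by
        refine integral_congr_ae (hW'.mono fun x hx => ?_)
        simp only [hd, hx, trial_apply hU, trial_inner hU]
        split_ifs with hkl
        · subst hkl; push_cast; ring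
        · simp
      rw [e1, dg, Matrix.diagonal_apply]
      split_ifs with hkl
      · exact integral_ofReal
      · simp
    rw [hI, hE, negMoment, cfc_dg, trial_trace_dg]
    refine hηε.trans_le (Finset.sum_le_sum fun i _ => ?_)
    refine Real.rpow_le_rpow (le_max_right _ _) (max_le_max ?_ le_rfl) hγ0.le
    have := hψ4 i
    linarith

end Crest.Agent.R332
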