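import Crest.Agent.R332.Basic

/-!
# Scalar trial functions for the soliton potential

`ψ₀ x = cosh (r a (x-c))^{-1/r}` is smooth, `0 < ψ₀ ≤ 1`, `ψ₀' = -a tanh(r a (x-c)) ψ₀`,
`ψ₀'' = a² ψ₀ - s ψ₀` with `s = soliton r a c`.  For a smooth compactly supported `χ`,
`((χψ₀)')² - s (χψ₀)² = χ'² ψ₀² - a² (χψ₀)² + (χ² ψ₀ ψ₀')'`, and the last term integrates to zero
(`integral_eq_zero_of_hasDerivAt_of_integrable`).  Take `χ x = χ₁ ((x-c)/R)` with a fixed
`ContDiffBump` `χ₁` (`= 1` on `[-1,1]`, support in `(-2,2)`, `|χ₁'| ≤ M`), `R ≥ 1`: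
`∫ χ'² ψ₀² ≤ 4 M²/R` and `∫ (χψ₀)² ≥ ∫_{c-1}^{c+1} ψ₀² =: n₀ > 0`.  Normalise.
-/

set_option autoImplicit false

open MeasureTheory Matrix Filter Topology Set
open scoped ComplexOrder Matrix.Norms.L2Operator MatrixOrder
open Crest.MathPhysics.LiebThirring

namespace Crest.Agent.R332

/-- The ground state `cosh (r a (x-c))^{-1/r}`. -/
noncomputable def tsP (r a c x : ℝ) : ℝ :=
  Real.exp (-(r⁻¹ * Real.log (Real.cosh (r * a * (x - c)))))

/-- `tanh (r a (x-c))`. -/
noncomputable def tsT (r a c x : ℝ) : ℝ :=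
  Real.sinh (r * a * (x - c)) / Real.cosh (r * a * (x - c))

theorem tsP_pos (r a c x : ℝ) : 0 < tsP r a c x := Real.exp_pos _

theorem tsP_le_one {r : ℝ} (hr : 0 < r) (a c x : ℝ) : tsP r a c x ≤ 1 := by
  rw [tsP, Real.exp_le_one_iff]
  have h1 : 0 ≤ Real.log (Real.cosh (r * a * (x - c))) := Real.log_nonneg (Real.one_le_cosh _)
  have h2 : 0 ≤ r⁻¹ * Real.log (Real.cosh (r * a * (x - c))) := by positivity
  linarith

theorem tsP_contDiff (r a c : ℝ) : ContDiff ℝ (⊤ : ℕ∞) (tsP r a c) := by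
  unfold tsP
  refine ContDiff.exp (ContDiff.neg (ContDiff.mul contDiff_const (ContDiff.log ?_ ?_)))
  · exact ContDiff.cosh (by fun_prop)
  · intro x
    exact (Real.cosh_pos _).ne'

theorem ts_lin (r a c x : ℝ) : HasDerivAt (fun x : ℝ => r * a * (x - c)) (r * a) x := by
  simpa using ((hasDerivAt_id x).sub_const c).const_mul (r * a)

theorem tsP_deriv {r : ℝ} (hr : 0 < r) (a c x : ℝ) :
    HasDerivAt (tsP r a c) (-a * tsT r a c x * tsP r a c x) x := by
  have h1 := (ts_lin r a c x).cosh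
  have h2 := ((h1.log (Real.cosh_pos _).ne').const_mul r⁻¹).neg.exp
  refine h2.congr_deriv ?_
  have h3 := (Real.cosh_pos (r * a * (x - c))).ne'
  simp only [tsP, tsT, Pi.neg_apply]
  field_simp

theorem tsT_deriv (r a c x : ℝ) :
    HasDerivAt (tsT r a c) (r * a / Real.cosh (r * a * (x - c)) ^ 2) x := by
  have h1 := (ts_lin r a c x).cosh
  have h2 := (ts_lin r a c x).sinh
  have h3 := (Real.cosh_pos (r * a * (x - c))).ne'
  have h4 := h2.div h1 h3
  refine h4.congr_deriv ?_
  have h5 := Real.cosh_sq (r * a * (x - c))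
  field_simp
  linear_combination (r * a) * h5

theorem tsT_sq (r a c x : ℝ) :
    tsT r a c x ^ 2 = 1 - 1 / Real.cosh (r * a * (x - c)) ^ 2 := by
  have h3 := (Real.cosh_pos (r * a * (x - c))).ne'
  have h5 := Real.cosh_sq (r * a * (x - c))
  rw [tsT]
  field_simp
  linarith

theorem tsT_cont (r a c : ℝ) : Continuous (tsT r a c) :=
  continuous_iff_continuousAt.2 fun x => (tsT_deriv r a c x).continuousAt

theorem ts_soliton_cont (r a c : ℝ) : Continuous (soliton r a c) := by
  unfold soliton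
  refine Continuous.div continuous_const (by fun_prop) fun x => ?_
  exact pow_ne_zero _ (Real.cosh_pos _).ne'

/-- The ground-state identity. -/
theorem ts_identity {r : ℝ} (hr : 0 < r) (a c : ℝ) {χ : ℝ → ℝ} (hχ : ContDiff ℝ (⊤ : ℕ∞) χ)
    (hc : HasCompactSupport χ) :
    ∫ x, (deriv (fun x => χ x * tsP r a c x) x ^ 2 - soliton r a c x * (χ x * tsP r a c x) ^ 2) =
      (∫ x, deriv χ x ^ 2 * tsP r a c x ^ 2) - a ^ 2 * ∫ x, (χ x * tsP r a c x) ^ 2 := by
  have hd : ∀ x, HasDerivAt χ (deriv χ x) x := fun x =>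
    (hχ.differentiable (by simp) x).hasDerivAt
  have hχc : Continuous χ := hχ.continuous
  have hχ'c : Continuous (deriv χ) := hχ.continuous_deriv (by simp)
  have hPc : Continuous (tsP r a c) := (tsP_contDiff r a c).continuous
  have hTc := tsT_cont r a c
  have hcc : Continuous fun x => r * a / Real.cosh (r * a * (x - c)) ^ 2 :=
    Continuous.div continuous_const (by fun_prop) fun x => pow_ne_zero _ (Real.cosh_pos _).ne'
  set G : ℝ → ℝ := fun x => χ x * (χ x * (tsT r a c x * (tsP r a c x * tsP r a c x))) with hG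
  set G' : ℝ → ℝ := fun x => χ x * (2 * deriv χ x * tsT r a c x * tsP r a c x ^ 2 +
    χ x * (r * a / Real.cosh (r * a * (x - c)) ^ 2) * tsP r a c x ^ 2 -
    2 * a * χ x * tsT r a c x ^ 2 * tsP r a c x ^ 2) with hG'
  have hGd : ∀ x, HasDerivAt G (G' x) x := by
    intro x
    have h := (hd x).mul ((hd x).mul ((tsT_deriv r a c x).mul
      ((tsP_deriv hr a c x).mul (tsP_deriv hr a c x))))
    refine h.congr_deriv ?_
    simp only [hG', Pi.mul_apply]
    ring
  have hGi : Integrable G := by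
    refine Continuous.integrable_of_hasCompactSupport (by fun_prop) ?_
    exact hc.mul_right
  have hG'i : Integrable G' := by
    refine Continuous.integrable_of_hasCompactSupport (by fun_prop) ?_
    exact hc.mul_right
  have hz : ∫ x, G' x = 0 := integral_eq_zero_of_hasDerivAt_of_integrable hGd hG'i hGi
  have hi1 : Integrable fun x => deriv χ x ^ 2 * tsP r a c x ^ 2 := by
    refine Continuous.integrable_of_hasCompactSupport (by fun_prop) ?_
    have : (fun x => deriv χ x ^ 2 * tsP r a c x ^ 2) =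
        deriv χ * fun x => deriv χ x * tsP r a c x ^ 2 := by
      ext x; simp only [Pi.mul_apply]; ring
    rw [this]
    exact hc.deriv.mul_right
  have hi2 : Integrable fun x => (χ x * tsP r a c x) ^ 2 := by
    refine Continuous.integrable_of_hasCompactSupport (by fun_prop) ?_
    have : (fun x => (χ x * tsP r a c x) ^ 2) = χ * fun x => χ x * tsP r a c x ^ 2 := by
      ext x; simp only [Pi.mul_apply]; ring
    rw [this]
    exact hc.mul_right
  have hpt : ∀ x, deriv (fun x => χ x * tsP r a c x) x ^ 2 -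
      soliton r a c x * (χ x * tsP r a c x) ^ 2 =
      deriv χ x ^ 2 * tsP r a c x ^ 2 - a ^ 2 * (χ x * tsP r a c x) ^ 2 - a * G' x := by
    intro x
    have h : HasDerivAt (fun x => χ x * tsP r a c x)
        (deriv χ x * tsP r a c x + χ x * (-a * tsT r a c x * tsP r a c x)) x :=
      (hd x).mul (tsP_deriv hr a c x)
    rw [h.deriv, soliton]
    have h1 := tsT_sq r a c x
    simp only [hG']
    have h2 : (r + 1) * a ^ 2 / Real.cosh (r * a * (x - c)) ^ 2 =
        (r + 1) * a ^ 2 * (1 / Real.cosh (r * a * (x - c)) ^ 2) := by ring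
    have h3 : r * a / Real.cosh (r * a * (x - c)) ^ 2 =
        r * a * (1 / Real.cosh (r * a * (x - c)) ^ 2) := by ring
    rw [h2, h3]
    generalize 1 / Real.cosh (r * a * (x - c)) ^ 2 = w at h1 ⊢
    linear_combination (-(a ^ 2 * χ x ^ 2 * tsP r a c x ^ 2)) * h1
  simp_rw [hpt]
  have hi3 : Integrable fun x => deriv χ x ^ 2 * tsP r a c x ^ 2 -
      a ^ 2 * (χ x * tsP r a c x) ^ 2 := hi1.sub (hi2.const_mul _)
  rw [integral_sub hi3 (hG'i.const_mul _),
    integral_sub hi1 (hi2.const_mul _), integral_const_mul, integral_const_mul, hz]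
  ring

/-- A family of cut-off functions. -/
theorem ts_cutoff (c : ℝ) : ∃ J : ℝ, 0 ≤ J ∧ ∀ R : ℝ, 1 ≤ R → ∃ χ : ℝ → ℝ,
    ContDiff ℝ (⊤ : ℕ∞) χ ∧ HasCompactSupport χ ∧ (∀ x ∈ Icc (c - 1) (c + 1), χ x = 1) ∧
      ∫ x, deriv χ x ^ 2 = J / R := by
  let b : ContDiffBump (0 : ℝ) := ⟨1, 2, one_pos, one_lt_two⟩
  have hb : ContDiff ℝ (⊤ : ℕ∞) (b : ℝ → ℝ) := b.contDiff
  have hd : ∀ x, HasDerivAt (b : ℝ → ℝ) (deriv b x) x := fun x =>
    (hb.differentiable (by simp) x).hasDerivAt
  refine ⟨∫ x, deriv (b : ℝ → ℝ) x ^ 2, integral_nonneg fun x => sq_nonneg _, fun R hR => ?_⟩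
  have hR0 : 0 < R := by linarith
  refine ⟨fun x => b ((x - c) / R), hb.comp (by fun_prop), ?_, ?_, ?_⟩
  · refine HasCompactSupport.intro (isCompact_Icc (a := c - 2 * R) (b := c + 2 * R)) fun x hx => ?_
    refine b.zero_of_le_dist ?_
    show (2 : ℝ) ≤ dist ((x - c) / R) 0
    rw [Real.dist_eq, sub_zero, abs_div, abs_of_pos hR0, le_div_iff₀ hR0]
    rw [mem_Icc, not_and_or, not_le, not_le] at hx
    rcases hx with h | h
    · exact le_abs.2 (Or.inr (by linarith))
    · exact le_abs.2 (Or.inl (by linarith))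
  · intro x hx
    refine b.one_of_mem_closedBall ?_
    show dist ((x - c) / R) 0 ≤ (1 : ℝ)
    rw [Real.dist_eq, sub_zero, abs_div, abs_of_pos hR0, div_le_iff₀ hR0]
    exact abs_le.2 ⟨by linarith [hx.1], by linarith [hx.2]⟩
  · have h1 : ∀ x, deriv (fun x => (b : ℝ → ℝ) ((x - c) / R)) x = deriv b ((x - c) / R) / R := by
      intro x
      have h2 : HasDerivAt (fun x : ℝ => (x - c) / R) (1 / R) x :=
        ((hasDerivAt_id x).sub_const c).div_const R
      have h3 := (hd ((x - c) / R)).comp x h2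
      rw [show deriv b ((x - c) / R) / R = deriv b ((x - c) / R) * (1 / R) by ring]
      exact h3.deriv
    simp_rw [h1, div_pow]
    rw [integral_div]
    have h4 := integral_sub_right_eq_self (μ := (volume : Measure ℝ))
      (fun y => deriv (b : ℝ → ℝ) (y / R) ^ 2) c
    have h5 := Measure.integral_comp_div (fun y => deriv (b : ℝ → ℝ) y ^ 2) R
    rw [h4, h5, abs_of_pos hR0, smul_eq_mul]
    field_simp

set_option linter.unusedVariables false in
theorem exists_scalar_trial {r a : ℝ} (hr : 0 < r) (ha : 0 ≤ a) (c : ℝ) {η : ℝ} (hη : 0 < η) :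
    ∃ ψ : ℝ → ℝ, ContDiff ℝ (⊤ : ℕ∞) ψ ∧ HasCompactSupport ψ ∧ ∫ x, ψ x ^ 2 = 1 ∧
      ∫ x, (deriv ψ x ^ 2 - soliton r a c x * ψ x ^ 2) ≤ -a ^ 2 + η := by
  obtain ⟨J, hJ, hcut⟩ := ts_cutoff c
  have hPc : Continuous (tsP r a c) := (tsP_contDiff r a c).continuous
  set n₀ : ℝ := ∫ x in (c - 1)..(c + 1), tsP r a c x ^ 2 with hn₀
  have hn₀p : 0 < n₀ := by
    refine intervalIntegral.intervalIntegral_pos_of_pos ?_ (fun x => pow_pos (tsP_pos r a c x) 2)
      (by linarith)
    exact (hPc.pow 2).intervalIntegrable _ _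
  set R : ℝ := 1 + J / (η * n₀) with hR
  have hR1 : 1 ≤ R := by
    have : 0 ≤ J / (η * n₀) := by positivity
    linarith
  have hR0 : 0 < R := by linarith
  obtain ⟨χ, hχ, hc, h1, hJR⟩ := hcut R hR1
  have hχc : Continuous χ := hχ.continuous
  have hχ'c : Continuous (deriv χ) := hχ.continuous_deriv (by simp)
  set φ : ℝ → ℝ := fun x => χ x * tsP r a c x with hφ
  have hφs : ContDiff ℝ (⊤ : ℕ∞) φ := hχ.mul (tsP_contDiff r a c)
  have hφc : HasCompactSupport φ := hc.mul_right
  have hi2 : Integrable fun x => φ x ^ 2 := by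
    refine Continuous.integrable_of_hasCompactSupport (hφs.continuous.pow 2) ?_
    have : (fun x => φ x ^ 2) = φ * φ := by
      ext x; simp only [Pi.mul_apply]; ring
    rw [this]
    exact hφc.mul_right
  set n : ℝ := ∫ x, φ x ^ 2 with hn
  have hn0 : n₀ ≤ n := by
    have h2 : n₀ = ∫ x in Icc (c - 1) (c + 1), φ x ^ 2 := by
      rw [hn₀, intervalIntegral.integral_of_le (by linarith), ← integral_Icc_eq_integral_Ioc]
      refine setIntegral_congr_fun measurableSet_Icc fun x hx => ?_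
      simp only [hφ, h1 x hx, one_mul]
    rw [h2]
    exact setIntegral_le_integral hi2 (Eventually.of_forall fun x => sq_nonneg _)
  have hnp : 0 < n := lt_of_lt_of_le hn₀p hn0
  have hid := ts_identity hr a c hχ hc
  have hi1 : Integrable fun x => deriv χ x ^ 2 := by
    refine Continuous.integrable_of_hasCompactSupport (hχ'c.pow 2) ?_
    have : (fun x => deriv χ x ^ 2) = deriv χ * deriv χ := by
      ext x; simp only [Pi.mul_apply]; ring
    rw [this]
    exact hc.deriv.mul_right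
  have hle : ∫ x, deriv χ x ^ 2 * tsP r a c x ^ 2 ≤ J / R := by
    rw [← hJR]
    refine integral_mono_of_nonneg (Eventually.of_forall fun x => by positivity) hi1
      (Eventually.of_forall fun x => ?_)
    have h3 : tsP r a c x ^ 2 ≤ 1 := pow_le_one₀ (tsP_pos r a c x).le (tsP_le_one hr a c x)
    have h4 := sq_nonneg (deriv χ x)
    show deriv χ x ^ 2 * tsP r a c x ^ 2 ≤ deriv χ x ^ 2
    nlinarith
  have hJη : J / R ≤ η * n := by
    rw [div_le_iff₀ hR0]
    have h3 : η * n₀ * R = η * n₀ + J := by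
      rw [hR]; field_simp
    have h4 : η * n₀ * R ≤ η * n * R := by gcongr
    have h5 : 0 < η * n₀ := by positivity
    linarith
  have hs : (√n)⁻¹ ^ 2 = n⁻¹ := by rw [inv_pow, Real.sq_sqrt hnp.le]
  refine ⟨fun x => (√n)⁻¹ * φ x, contDiff_const.mul hφs, hφc.mul_left, ?_, ?_⟩
  · simp_rw [mul_pow]
    rw [integral_const_mul, hs, ← hn, inv_mul_cancel₀ hnp.ne']
  · have h3 : ∀ x, deriv (fun x => (√n)⁻¹ * φ x) x ^ 2 - soliton r a c x * ((√n)⁻¹ * φ x) ^ 2 =
        n⁻¹ * (deriv φ x ^ 2 - soliton r a c x * φ x ^ 2) := by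
      intro x
      rw [deriv_const_mul_field, mul_pow, mul_pow, hs]
      ring
    simp_rw [h3]
    rw [integral_const_mul]
    have h4 : ∫ x, (deriv φ x ^ 2 - soliton r a c x * φ x ^ 2) ≤ η * n - a ^ 2 * n := by
      have h5 : ∫ x, (deriv φ x ^ 2 - soliton r a c x * φ x ^ 2) =
        (∫ x, deriv χ x ^ 2 * tsP r a c x ^ 2) - a ^ 2 * n := hid
      linarith
    calc n⁻¹ * ∫ x, (deriv φ x ^ 2 - soliton r a c x * φ x ^ 2)
        ≤ n⁻¹ * (η * n - a ^ 2 * n) := by gcongr
      _ = -a ^ 2 + η := by field_simp; ring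

end Crest.Agent.R332
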